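import Vale.Agent.Lib.P328.Ram.PhaseB

/-!
# P328: the start of the machine: the lists of the margins on the heap
-/

namespace Vale.Agent.Lib.P328.Ram

open Vale.Agent.Lib.P328.Bit (Val Prog sem time wid clamp arith time_poly encList enc)

/-- One round: take the cell before register `28`, put a number node and a pair node on the heap. -/
def buildBody : List Instr :=
  [.sub 28 28 19, .load 42 28, .store 17 19, .add 1 17 19, .store 1 42, .mov 43 17, .add 17 1 26,
   .store 17 26, .add 1 17 19, .store 1 43, .add 1 1 19, .store 1 41, .mov 41 17, .add 17 1 19, .sub 27 27 19]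

theorem buildBody_length : buildBody.length = 15 := rfl

theorem buildBody_spec (c : Conf) (H A : ℕ) (h17 : c.reg 17 = H) (h28 : c.reg 28 = ((A + 1 : ℕ) : ℤ))
    (h19 : c.reg 19 = 1) (h26 : c.reg 26 = 2) :
    (execL buildBody c).reg 28 = A ∧ (execL buildBody c).reg 42 = c.mem A ∧
    (execL buildBody c).reg 41 = ((H + 3 : ℕ) : ℤ) ∧ (execL buildBody c).reg 17 = ((H + 6 : ℕ) : ℤ) ∧
    (execL buildBody c).reg 27 = c.reg 27 - 1 ∧ (execL buildBody c).reg 43 = H ∧
    (execL buildBody c).reg 1 = ((H + 5 : ℕ) : ℤ) ∧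
    (∀ r, r ≠ 28 → r ≠ 42 → r ≠ 41 → r ≠ 17 → r ≠ 27 → r ≠ 43 → r ≠ 1 → (execL buildBody c).reg r = c.reg r) ∧
    (∀ a, a < H → (execL buildBody c).mem a = c.mem a) ∧
    (execL buildBody c).mem H = 1 ∧ (execL buildBody c).mem (H + 1) = c.mem A ∧
    (execL buildBody c).mem (H + 3) = 2 ∧ (execL buildBody c).mem (H + 4) = H ∧
    (execL buildBody c).mem (H + 5) = c.reg 41 ∧
    (∀ a, H + 6 ≤ a → (execL buildBody c).mem a = c.mem a) ∧ (execL buildBody c).mem (H + 2) = c.mem (H + 2) := by
  have e28 : ((((A + 1 : ℕ) : ℤ) - 1)).toNat = A := by omega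
  have eH : ((H : ℤ)).toNat = H := by omega
  have eH1 : ((H : ℤ) + 1).toNat = H + 1 := by omega
  have eH3 : ((H : ℤ) + 1 + 2).toNat = H + 3 := by omega
  have eH4 : ((H : ℤ) + 1 + 2 + 1).toNat = H + 4 := by omega
  have eH5 : ((H : ℤ) + 1 + 2 + 1 + 1).toNat = H + 5 := by omega
  simp only [buildBody, execL_cons, execL_nil, exec, Function.update_apply, h17, h28, h19, h26, Nat.reduceEqDiff,
    if_true, if_false, e28, eH, eH1, eH3, eH4, eH5]
  refine ⟨by push_cast; ring, trivial, by push_cast; ring, by push_cast; ring, trivial, trivial, by push_cast; ring,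
    ?_, ?_, by simp, by simp, by simp, by simp, trivial, ?_, by simp⟩
  · intro r a1 a2 a3 a4 a5 a6 a7
    simp only [a1, a2, a3, a4, a5, a6, a7, if_false]
  · intro a h
    rw [if_neg (by omega), if_neg (by omega), if_neg (by omega), if_neg (by omega), if_neg (by omega)]
  · intro a h
    rw [if_neg (by omega), if_neg (by omega), if_neg (by omega), if_neg (by omega), if_neg (by omega)]

theorem encList_drop (l : List ℤ) (i : ℕ) (h : i < l.length) :
    encList (l.drop i) = .pair (.num l[i]) (encList (l.drop (i + 1))) := by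
  rw [List.drop_eq_getElem_cons h]
  rfl

/-- Put the list `l`, which is in the cells from `β` on, on the heap. -/
theorem build_spec {P : List Instr} {BW q : ℕ} (l : List ℤ) (β H0 : ℕ) (hc : CodeAt P q (whileCode 27 buildBody))
    (hb : 1 ≤ BW) (c : Conf) (hpc : c.pc = q) (h27 : c.reg 27 = l.length) (h28 : c.reg 28 = ((β + l.length : ℕ) : ℤ))
    (h17 : c.reg 17 = H0) (h19 : c.reg 19 = 1) (h26 : c.reg 26 = 2) (h41 : 0 ≤ c.reg 41)
    (h41' : (c.reg 41).toNat + 3 ≤ H0) (hnil : Rep c.mem (c.reg 41).toNat .nil)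
    (hcells : ∀ j (hj : j < l.length), c.mem (β + j) = l[j]) (hβ : β + l.length ≤ H0) (hbits : Bits c BW)
    (hsize : Nat.size (H0 + 6 * l.length) ≤ BW) (h2 : 2 ≤ BW) :
    ∃ c', Reach P BW c c' (l.length * (15 + 2) + 2) ∧ c'.pc = q + 3 + 15 ∧
      c'.reg 17 = ((H0 + 6 * l.length : ℕ) : ℤ) ∧ c'.reg 28 = β ∧ 0 ≤ c'.reg 41 ∧
      (c'.reg 41).toNat + 3 ≤ H0 + 6 * l.length ∧ Rep c'.mem (c'.reg 41).toNat (encList l) ∧
      (∀ a, a < H0 → c'.mem a = c.mem a) ∧
      (∀ r, r ≠ 27 → r ≠ 28 → r ≠ 41 → r ≠ 42 → r ≠ 43 → r ≠ 1 → r ≠ 17 → c'.reg r = c.reg r) ∧ Bits c' BW := by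
  have hptr : ∀ x : ℕ, x ≤ H0 + 6 * l.length → bl (x : ℤ) ≤ BW := by
    intro x hx
    rw [bl_natCast]
    exact (Nat.size_le_size hx).trans hsize
  let Inv : ℕ → (ℕ → ℤ) → (ℕ → ℤ) → Prop := fun i R M =>
    i ≤ l.length ∧ R 27 = i ∧ R 28 = ((β + i : ℕ) : ℤ) ∧ R 17 = ((H0 + 6 * (l.length - i) : ℕ) : ℤ) ∧
      0 ≤ R 41 ∧ (R 41).toNat + 3 ≤ H0 + 6 * (l.length - i) ∧ Rep M (R 41).toNat (encList (l.drop i)) ∧
      (∀ a, a < H0 → M a = c.mem a) ∧
      (∀ r, r ≠ 27 → r ≠ 28 → r ≠ 41 → r ≠ 42 → r ≠ 43 → r ≠ 1 → r ≠ 17 → R r = c.reg r) ∧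
      (∀ r, bl (R r) ≤ BW) ∧ (∀ a, bl (M a) ≤ BW)
  have hI : ∀ i R M, Inv i R M → (∀ r, bl (R r) ≤ BW) ∧ (∀ a, bl (M a) ≤ BW) := by
    rintro i R M ⟨_, _, _, _, _, _, _, _, _, h10, h11⟩
    exact ⟨h10, h11⟩
  have hspec := while_spec (P := P) (BW := BW) (q := q) (s := 27) (N := 15) (body := buildBody) Inv hc hb
    (by
      rintro i R M ⟨_, h2, _⟩
      rw [h2]
      omega)
    hI
    (by
      intro i c1 hp1 hI1
      have hbits1 : Bits c1 BW := hI _ _ _ hI1
      obtain ⟨i1, i2, i3, i4, i5, i6, i7, i8, i9, i10, i11⟩ := hI1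
      have hcb : CodeAt P c1.pc buildBody := by
        rw [hp1]
        have h9 : CodeAt P q (([.jpos 27 2, .jmp ((buildBody.length : ℤ) + 2)] : List Instr) ++ buildBody) :=
          CodeAt.left hc
        exact h9.right
      have r1 := Reach.plain (BW := BW) hcb (by simp [buildBody, plain]) (by simp [buildBody, smallB]) (by simp [buildBody]) hb hbits1
      obtain ⟨H, hH⟩ : ∃ H, H = H0 + 6 * (l.length - (i + 1)) := ⟨_, rfl⟩
      have hH' : H + 6 = H0 + 6 * (l.length - i) := by omega
      have hH6 : H + 6 ≤ H0 + 6 * l.length := by omega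
      have e19 : c1.reg 19 = 1 := by
        rw [i9 19 (by norm_num) (by norm_num) (by norm_num) (by norm_num) (by norm_num) (by norm_num) (by norm_num)]
        exact h19
      have e26 : c1.reg 26 = 2 := by
        rw [i9 26 (by norm_num) (by norm_num) (by norm_num) (by norm_num) (by norm_num) (by norm_num) (by norm_num)]
        exact h26
      obtain ⟨a1, a2, a3, a4, a5, a6, a7, a8, a9, a10, a11, a12, a13, a14, a15, a16⟩ :=
        buildBody_spec c1 H (β + i) (by rw [i4, hH]) (by rw [i3]; congr 1) e19 e26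
      have hi : i < l.length := by omega
      have hA : c1.mem (β + i) = l[i] := by
        rw [i8 _ (by omega)]
        exact hcells i hi
      rw [hA] at a2 a11
      have hptr41 : ∀ a : ℕ, a < H → (execL buildBody c1).mem a = c1.mem a := a9
      refine ⟨_, r1, ?_, by omega, ?_, ?_, ?_, ?_, ?_, ?_, ?_, ?_, ?_, ?_⟩
      · rw [execL_pc (by simp [buildBody, plain]), hp1]
      · rw [a5, i2]
        push_cast
        ring
      · rw [a1]
      · rw [a4, hH']
      · rw [a3]
        omega
      · rw [a3, ← hH']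
        omega
      · rw [a3, encList_drop l i hi]
        have e3 : (((H + 3 : ℕ) : ℤ)).toNat = H + 3 := by omega
        rw [e3]
        have m4 : (execL buildBody c1).mem (H + 3 + 1) = H := a13
        have m5 : (execL buildBody c1).mem (H + 3 + 2) = c1.reg 41 := a14
        have e41 : (c1.reg 41).toNat + 3 ≤ H := by
          have : (c1.reg 41).toNat + 3 ≤ H0 + 6 * (l.length - (i + 1)) := i6
          omega
        refine .pair (by rw [a12]; norm_num) (by rw [m4]; omega) (by rw [m5]; exact i5) (by rw [m4]; omega)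
          (by rw [m5]; omega) ?_ ?_
        · rw [m4]
          have e4 : ((H : ℤ)).toNat = H := by omega
          rw [e4]
          exact .num a10 a11
        · rw [m5]
          exact i7.frame fun a ha => a9 a (by omega)
      · intro a ha
        rw [a9 a (by omega)]
        exact i8 a ha
      · intro r b1 b2 b3 b4 b5 b6 b7
        rw [a8 r b2 b4 b3 b7 b1 b5 b6]
        exact i9 r b1 b2 b3 b4 b5 b6 b7
      · intro r
        by_cases b1 : r = 28
        · subst b1
          rw [a1]
          exact hptr _ (by omega)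
        by_cases b2 : r = 42
        · subst b2
          rw [a2, ← hA]
          exact i11 _
        by_cases b3 : r = 41
        · subst b3
          rw [a3]
          exact hptr _ (by omega)
        by_cases b4 : r = 17
        · subst b4
          rw [a4]
          exact hptr _ (by omega)
        by_cases b5 : r = 27
        · subst b5
          rw [a5, i2]
          have : ((i + 1 : ℕ) : ℤ) - 1 = (i : ℤ) := by push_cast; ring
          rw [this]
          exact hptr _ (by omega)
        by_cases b6 : r = 43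
        · subst b6
          rw [a6]
          exact hptr _ (by omega)
        by_cases b7 : r = 1
        · subst b7
          rw [a7]
          exact hptr _ (by omega)
        rw [a8 r b1 b2 b3 b4 b5 b6 b7]
        exact i10 r
      · intro a
        by_cases c1' : a < H
        · rw [a9 a c1']
          exact i11 a
        by_cases c2 : a = H
        · subst c2
          rw [a10]
          simp [bl]
          omega
        by_cases c3 : a = H + 1
        · subst c3
          rw [a11, ← hA]
          exact i11 _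
        by_cases c4 : a = H + 2
        · subst c4
          rw [a16]
          exact i11 _
        by_cases c5 : a = H + 3
        · subst c5
          rw [a12]
          have : bl 2 = 2 := by simp [bl]; decide
          omega
        by_cases c6 : a = H + 4
        · subst c6
          rw [a13]
          exact hptr _ (by omega)
        by_cases c7 : a = H + 5
        · subst c7
          rw [a14]
          exact i10 41
        rw [a15 a (by omega)]
        exact i11 a) l.length c hpc
    ⟨le_rfl, h27, h28, by rw [h17]; simp, h41, by simp; omega, by simpa [encList] using hnil, fun _ _ => rfl,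
      fun _ _ _ _ _ _ _ _ => rfl, hbits.1, hbits.2⟩
  obtain ⟨c', r1, p1, hI'⟩ := hspec
  have hb' : Bits c' BW := hI _ _ _ hI'
  obtain ⟨i1, i2, i3, i4, i5, i6, i7, i8, i9, i10, i11⟩ := hI'
  refine ⟨c', r1, by rw [p1, buildBody_length], by rw [i4]; simp, by rw [i3]; simp, i5, by simpa using i6, by simpa using i7, i8, i9, hb'⟩

end Vale.Agent.Lib.P328.Ram
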