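import Vale.Agent.Lib.P328.Ram.Loop

/-!
# P328: the compiler from the bit language to the machine
-/

namespace Vale.Agent.Lib.P328.Ram

open Vale.Agent.Lib.P328.Bit (Val Prog sem time wid clamp arith time_poly)

/-- The code of a program; registers from `k` on are free. -/
def code : Prog → ℕ → List Instr
  | .id, _ => []
  | .comp f g, k => code f k ++ code g k
  | .fork f g, k => ([.mov k 16] : List Instr) ++ code f (k + 2) ++ [.mov (k + 1) 16, .mov 16 k] ++ code g (k + 2) ++
      (allocPair (k + 1) ++ zeroT)
  | .fst, _ => codeFst
  | .snd, _ => codeSnd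
  | .nil, _ => codeNil
  | .zero, _ => codeZero
  | .one, _ => codeOne
  | .param, _ => codeParam
  | .add, _ => codeArith (.add 7 5 6)
  | .sub, _ => codeArith (.sub 7 5 6)
  | .mul, _ => codeArith (.mul 7 5 6)
  | .div, _ => codeArith (.div 7 5 6)
  | .isPair, _ => codeIsPair
  | .ifPos c f g, k => ([.mov k 16] : List Instr) ++ code c (k + 1) ++ midBlock k ++ code f (k + 2) ++
      [.mov (k + 2) 16, .mov 16 k] ++ code g (k + 3) ++ [.cmov 16 (k + 2) (k + 1)]
  | .loop f, k => codeLoop k (code f (k + 1))
  | .coin, _ => codeCoin

/-- The exact number of steps of the code. -/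
def tau : Prog → ℕ → ℕ
  | .id, _ => 0
  | .comp f g, S => tau f S + tau g S
  | .fork f g, S => 1 + tau f S + 2 + tau g S + 24
  | .fst, _ => codeFst.length
  | .snd, _ => codeSnd.length
  | .nil, _ => codeNil.length
  | .zero, _ => codeZero.length
  | .one, _ => codeOne.length
  | .param, _ => codeParam.length
  | .add, _ => (codeArith (.add 7 5 6)).length
  | .sub, _ => (codeArith (.sub 7 5 6)).length
  | .mul, _ => (codeArith (.mul 7 5 6)).length
  | .div, _ => (codeArith (.div 7 5 6)).length
  | .isPair, _ => codeIsPair.length
  | .ifPos c f g, S => 1 + tau c S + 26 + tau f S + 2 + tau g S + 1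
  | .loop f, S => 1 + (S * (tau f S + 3) + 2)
  | .coin, _ => codeCoin.length

theorem CodeAt.cast {P : List Instr} {a b : ℕ} {l : List Instr} (h : CodeAt P a l) (e : a = b) :
    CodeAt P b l := e ▸ h

theorem frag_id {P : List Instr} {S BW Hmax pc k : ℕ} : Frag P S BW Hmax pc k 0 0 .id := by
  intro c v hpc hg hl _
  refine ⟨fun c' hc' => ?_, ?_⟩
  · simp only [run, PMF.support_pure, Set.mem_singleton_iff] at hc'
    subst hc'
    exact ⟨by simpa using hpc, hg, ⟨v, hl⟩, fun _ _ _ => rfl, rfl, fun _ _ => rfl, le_rfl, by omega, by omega⟩
  · simp only [run, PMF.pure_map, hl.dec_eq, sem]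

theorem code_frag {P : List Instr} {S BW Hmax : ℕ} (hpar : Par S BW Hmax) (hb3 : 3 ≤ BW) (p : Prog) :
    ∀ k pc, 24 ≤ k → CodeAt P pc (code p k) → Frag P S BW Hmax pc k (tau p S) (code p k).length p := by
  have hb1 : 1 ≤ BW := by omega
  induction p with
  | id =>
    intro k pc _ _
    exact frag_id
  | comp f g hf hg =>
    intro k pc hk hc
    have h1 := hf k pc hk hc.left
    have h2 := hg k (pc + (code f k).length) hk hc.right
    have h3 := frag_comp h1 h2
    simpa only [code, tau, List.length_append] using h3
  | fork f g hf hg =>
    intro k pc hk hc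
    simp only [code] at hc
    have h1 := hf (k + 2) (pc + 1) (by omega) (hc.left.left.left.right.cast (by simp))
    have h2 := hg (k + 2) (pc + 1 + (code f (k + 2)).length + 2) (by omega)
      (hc.left.right.cast (by simp; omega))
    have h3 := frag_fork hk hpar hb3 rfl rfl hc h1 h2
    have e : (code (.fork f g) k).length = 1 + (code f (k + 2)).length + 2 + (code g (k + 2)).length + 24 := by
      simp only [code, List.length_append, List.length_cons, List.length_nil]
      have := allocPair_length (k + 1)
      simp only [List.length_append] at this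
      omega
    rw [e]
    exact h3
  | fst =>
    intro k pc _ hc
    exact frag_fst hb1 hc
  | snd =>
    intro k pc _ hc
    exact frag_snd hb1 hc
  | nil =>
    intro k pc _ hc
    exact frag_nil hb1 hc
  | zero =>
    intro k pc _ hc
    exact frag_zero hpar hb1 hc
  | one =>
    intro k pc _ hc
    exact frag_one hpar hb1 hc
  | param =>
    intro k pc _ hc
    exact frag_param hpar hb1 hc
  | add =>
    intro k pc _ hc
    exact frag_add hpar hb1 hc
  | sub =>
    intro k pc _ hc
    exact frag_sub hpar hb1 hc
  | mul =>
    intro k pc _ hc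
    exact frag_mul hpar hb1 hc
  | div =>
    intro k pc _ hc
    exact frag_div hpar hb1 hc
  | isPair =>
    intro k pc _ hc
    exact frag_isPair hpar hb1 hc
  | ifPos c f g hc' hf hg =>
    intro k pc hk hc
    simp only [code] at hc
    have h0 := hc'
    have h1 := hc' (k + 1) (pc + 1) (by omega) (hc.left.left.left.left.left.right.cast (by simp))
    have h2 := hf (k + 2) (pc + 1 + (code c (k + 1)).length + 26) (by omega)
      (hc.left.left.left.right.cast (by simp [midBlock_length]; omega))
    have h3 := hg (k + 3) (pc + 1 + (code c (k + 1)).length + 26 + (code f (k + 2)).length + 2) (by omega)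
      (hc.left.right.cast (by simp [midBlock_length]; omega))
    have h4 := frag_ifPos hk hb1 rfl rfl rfl hc h1 h2 h3
    have e : (code (.ifPos c f g) k).length =
        1 + (code c (k + 1)).length + 26 + (code f (k + 2)).length + 2 + (code g (k + 3)).length + 1 := by
      simp only [code, List.length_append, midBlock_length]
      simp
    rw [e]
    exact h4
  | loop f hf =>
    intro k pc hk hc
    simp only [code] at hc
    have h1 := hf (k + 1) (pc + 3) (by omega) (by
      have : CodeAt P pc (([.mov k 18, .jpos k 2, .jmp (((code f (k + 1)).length : ℤ) + 3)] : List Instr) ++ code f (k + 1)) :=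
        CodeAt.left (l₂ := [.sub k k 19, .jmp (-(((code f (k + 1)).length : ℤ) + 3))]) hc
      exact this.right.cast (by simp))
    have h2 := frag_loop hk hpar hb1 rfl hc h1
    have e : (code (.loop f) k).length = 3 + (code f (k + 1)).length + 2 := by
      simp only [code, codeLoop, List.length_append]
      simp
    rw [e]
    exact h2
  | coin =>
    intro k pc _ hc
    exact frag_coin hpar hb1 hc

/-- The time of the code against the time of the program. -/
theorem tau_le (p : Prog) (S : ℕ) : tau p S ≤ 100 * time p S := by
  induction p with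
  | id => simp [tau]
  | comp f g hf hg =>
    simp only [tau, time]
    omega
  | fork f g hf hg =>
    simp only [tau, time]
    omega
  | fst => simp [tau, time, codeFst, bodyFst, zeroT]
  | snd => simp [tau, time, codeSnd, bodySnd, zeroT]
  | nil => simp [tau, time, codeNil]
  | zero => simp [tau, time, codeZero, allocNum, zeroT]
  | one => simp [tau, time, codeOne, allocNum, zeroT]
  | param => simp [tau, time, codeParam, allocNum, zeroT]
  | add =>
    simp only [tau, time]
    simp only [codeArith, bodyArith, bodyArith1, clampC, allocNum, zeroT, List.length_append, List.length_cons, List.length_nil]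
    omega
  | sub =>
    simp only [tau, time]
    simp only [codeArith, bodyArith, bodyArith1, clampC, allocNum, zeroT, List.length_append, List.length_cons, List.length_nil]
    omega
  | mul =>
    simp only [tau, time]
    simp only [codeArith, bodyArith, bodyArith1, clampC, allocNum, zeroT, List.length_append, List.length_cons, List.length_nil]
    have : 1 ≤ (wid S + 1) ^ 2 := Nat.one_le_pow _ _ (by omega)
    omega
  | div =>
    simp only [tau, time]
    simp only [codeArith, bodyArith, bodyArith1, clampC, allocNum, zeroT, List.length_append, List.length_cons, List.length_nil]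
    have : 1 ≤ (wid S + 1) ^ 2 := Nat.one_le_pow _ _ (by omega)
    omega
  | isPair => simp [tau, time, codeIsPair, bodyIsPair, allocNum, zeroT]
  | ifPos c f g hc hf hg =>
    simp only [tau, time]
    omega
  | loop f hf =>
    simp only [tau, time]
    have : S * (tau f S + 3) ≤ S * (100 * (time f S + 1)) := Nat.mul_le_mul_left _ (by omega)
    have e : S * (100 * (time f S + 1)) = 100 * (S * (time f S + 1)) := by ring
    omega
  | coin => simp [tau, time, codeCoin, allocNum, zeroT]

theorem tau_poly (p : Prog) : ∃ e : ℕ, ∀ S : ℕ, 2 ≤ S → tau p S ≤ S ^ e := by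
  obtain ⟨e, he⟩ := time_poly p
  refine ⟨e + 7, fun S hS => ?_⟩
  have h1 := tau_le p S
  have h2 := he S hS
  have h3 : 100 ≤ S ^ 7 := by
    calc 100 ≤ 2 ^ 7 := by norm_num
      _ ≤ S ^ 7 := Nat.pow_le_pow_left hS 7
  calc tau p S ≤ 100 * time p S := h1
    _ ≤ S ^ 7 * S ^ e := Nat.mul_le_mul h3 h2
    _ = S ^ (e + 7) := by ring

end Vale.Agent.Lib.P328.Ram
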