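import Vale.Agent.Lib.P328.Ram.Fork

/-!
# P328: the code of the conditional. Both branches run, with fresh coins; a last conditional move
selects the result, so the time does not depend on the data.
-/

namespace Vale.Agent.Lib.P328.Ram

open Vale.Agent.Lib.P328.Bit (Val Prog sem time wid clamp arith)

/-- Compute the flag into scratch register `3`. -/
def flagT : List Instr :=
  [.load 0 16, .add 1 19 19, .sub 1 1 0, .mul 1 1 0, .add 2 16 19, .load 2 2, .const 3 0, .cmov 3 2 1]

/-- From the output of the test: save the flag in `k + 1`, clear, restore the input to `16`. -/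
def midBlock (k : ℕ) : List Instr := flagT ++ [.mov (k + 1) 3] ++ zeroT ++ [.mov 16 k]

theorem midBlock_length (k : ℕ) : (midBlock k).length = 26 := by
  simp [midBlock, flagT, zeroT]

theorem midBlock_plain (k : ℕ) : ∀ i ∈ midBlock k, plain i = true := by
  intro i hi
  simp only [midBlock, flagT, zeroT, List.mem_append, List.mem_cons, List.not_mem_nil, or_false] at hi
  rcases hi with ((hi | hi) | hi) | hi
  · rcases hi with rfl | rfl | rfl | rfl | rfl | rfl | rfl | rfl <;> rfl
  · subst hi
    rfl
  · rcases hi with rfl | rfl | rfl | rfl | rfl | rfl | rfl | rfl | rfl | rfl | rfl | rfl | rfl | rfl | rfl | rfl <;> rfl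
  · subst hi
    rfl

theorem midBlock_small (k : ℕ) : ∀ i ∈ midBlock k, smallB i = true := by
  intro i hi
  simp only [midBlock, flagT, zeroT, List.mem_append, List.mem_cons, List.not_mem_nil, or_false] at hi
  rcases hi with ((hi | hi) | hi) | hi
  · rcases hi with rfl | rfl | rfl | rfl | rfl | rfl | rfl | rfl <;> simp [smallB]
  · subst hi
    rfl
  · rcases hi with rfl | rfl | rfl | rfl | rfl | rfl | rfl | rfl | rfl | rfl | rfl | rfl | rfl | rfl | rfl | rfl <;> simp [smallB]
  · subst hi
    rfl

/-- The flag register as a function of the memory. -/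
theorem flagT_spec (c : Conf) (h19 : c.reg 19 = 1) (h0 : 0 ≤ c.reg 16) :
    (execL flagT c).reg 3 =
      if 0 < (2 - c.mem (c.reg 16).toNat) * c.mem (c.reg 16).toNat then c.mem ((c.reg 16).toNat + 1) else 0 := by
  have e1 : (c.reg 16 + 1).toNat = (c.reg 16).toNat + 1 := by omega
  have e3 : (1 + 1 : ℤ) = 2 := by norm_num
  simp only [flagT, execL_cons, execL_nil, exec_const_reg, exec_load_reg, exec_add_reg,
    exec_sub_reg, exec_mul_reg, exec_cmov_reg, exec_const_mem, exec_load_mem, exec_add_mem,
    exec_sub_mem, exec_mul_mem, exec_cmov_mem, Nat.reduceEqDiff, if_true, if_false, true_and, false_and, h19]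
  simp [e1, e3]

theorem midBlock_spec {S BW k : ℕ} (hk : 24 ≤ k) {c : Conf} {w : Val} (hg : Good S BW c) (hl : Live c 16 w) :
    Good S BW (execL (midBlock k) c) ∧ (0 < (execL (midBlock k) c).reg (k + 1) ↔ Val.isPos w) ∧
    (execL (midBlock k) c).reg 16 = c.reg k ∧
    (∀ r, 17 ≤ r → r ≠ k + 1 → (execL (midBlock k) c).reg r = c.reg r) ∧
    (execL (midBlock k) c).mem = c.mem := by
  have hT : ∀ i ∈ flagT, tempOnly i = true := by simp [flagT, tempOnly]
  obtain ⟨t1, t2⟩ := execL_tempOnly hT c
  have hf := flagT_spec c hg.one hl.1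
  simp only [midBlock, execL_append]
  set c1 := execL flagT c with hc1
  set c2 := execL [.mov (k + 1) 3] c1 with hc2
  set c3 := execL zeroT c2 with hc3
  set c4 := execL [.mov 16 k] c3 with hc4
  have r2 : ∀ r, c2.reg r = if r = k + 1 then c1.reg 3 else c1.reg r := by
    intro r
    simp [hc2, exec_mov_reg]
  have m2 : c2.mem = c1.mem := rfl
  have r3 : ∀ r, c3.reg r = if r < 16 then 0 else c2.reg r := fun r => zeroT_reg c2 r
  have m3 : c3.mem = c2.mem := zeroT_mem c2
  have r4 : ∀ r, c4.reg r = if r = 16 then c3.reg k else c3.reg r := by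
    intro r
    simp [hc4, exec_mov_reg]
  have m4 : c4.mem = c3.mem := rfl
  have hmem : c4.mem = c.mem := by rw [m4, m3, m2, t2]
  have rflag : c4.reg (k + 1) = c1.reg 3 := by
    rw [r4, if_neg (by omega), r3, if_neg (by omega), r2, if_pos rfl]
  have r16 : c4.reg 16 = c.reg k := by
    rw [r4, if_pos rfl, r3, if_neg (by omega), r2, if_neg (by omega), t1 k (by omega)]
  have rr : ∀ r, 17 ≤ r → r ≠ k + 1 → c4.reg r = c.reg r := by
    intro r h1 h2
    rw [r4, if_neg (by omega), r3, if_neg (by omega), r2, if_neg h2, t1 r (by omega)]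
  have rt : ∀ r, r < 16 → c4.reg r = 0 := by
    intro r h1
    rw [r4, if_neg (by omega), r3, if_pos h1]
  have hflag : ∃ q : ℕ, c1.reg 3 = c.mem q ∨ c1.reg 3 = 0 := by
    refine ⟨(c.reg 16).toNat + 1, ?_⟩
    rw [hf]
    split_ifs
    · exact Or.inl rfl
    · exact Or.inr rfl
  refine ⟨?_, ?_, r16, rr, hmem⟩
  · refine hg.of_regs (fun r hr => ?_) hmem (fun r => ?_)
    · rcases hr with hr | hr
      · rw [rt r hr, hg.temps r hr]
      · exact rr r (by omega) (by omega)
    · by_cases h1 : r < 16
      · rw [rt r h1]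
        simp [bl]
      · by_cases h2 : r = 16
        · subst h2
          rw [r16]
          exact hg.bits.1 k
        · by_cases h3 : r = k + 1
          · subst h3
            rw [rflag]
            obtain ⟨q, hq | hq⟩ := hflag
            · rw [hq]
              exact hg.bits.2 q
            · rw [hq]
              simp [bl]
          · rw [rr r (by omega) h3]
            exact hg.bits.1 r
  · rw [rflag, hf]
    have hr := hl.2.2
    generalize (c.reg 16).toNat = p0 at hr ⊢
    cases hr with
    | nil h0 =>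
      rw [if_neg (fun h => by have := (tag_pos_iff _).1 h; omega)]
      simp [Val.isPos]
    | pair h0 _ _ _ _ _ _ =>
      rw [if_neg (fun h => by have := (tag_pos_iff _).1 h; omega)]
      simp [Val.isPos]
    | num h0 h1 =>
      rw [h0, h1]
      norm_num [Val.isPos]

/-- The configuration after the first branch, before the second. -/
def ifMid (k : ℕ) (c : Conf) : Conf := execL [.mov (k + 2) 16, .mov 16 k] c

theorem frag_ifPos {P : List Instr} {S BW Hmax pc k τc τf τg lc lf lg : ℕ} {cnd f g : Prog}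
    {cc cf cg : List Instr}
    (hk : 24 ≤ k) (hb1 : 1 ≤ BW) (hlc : cc.length = lc) (hlf : cf.length = lf) (hlg : cg.length = lg)
    (hcode : CodeAt P pc (([.mov k 16] : List Instr) ++ cc ++ midBlock k ++ cf ++ [.mov (k + 2) 16, .mov 16 k] ++ cg ++
      [.cmov 16 (k + 2) (k + 1)]))
    (hc : Frag P S BW Hmax (pc + 1) (k + 1) τc lc cnd)
    (hf : Frag P S BW Hmax (pc + 1 + lc + 26) (k + 2) τf lf f)
    (hg : Frag P S BW Hmax (pc + 1 + lc + 26 + lf + 2) (k + 3) τg lg g) :
    Frag P S BW Hmax pc k (1 + τc + 26 + τf + 2 + τg + 1) (1 + lc + 26 + lf + 2 + lg + 1) (.ifPos cnd f g) := by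
  intro c v hpc hgd hl hH
  subst hpc
  -- the code positions
  have hc1 : CodeAt P c.pc [.mov k 16] := hcode.left.left.left.left.left.left
  have hc2 : CodeAt P (c.pc + 1 + lc) (midBlock k) := by
    have := hcode.left.left.left.left.right
    simp only [List.length_append, List.length_cons, List.length_nil, hlc] at this
    rw [show c.pc + 1 + lc = c.pc + (0 + 1 + lc) by omega]
    exact this
  have hc3 : CodeAt P (c.pc + 1 + lc + 26 + lf) [.mov (k + 2) 16, .mov 16 k] := by
    have := hcode.left.left.right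
    simp only [List.length_append, List.length_cons, List.length_nil, hlc, hlf, midBlock_length] at this
    rw [show c.pc + 1 + lc + 26 + lf = c.pc + (0 + 1 + lc + 26 + lf) by omega]
    exact this
  have hc4 : CodeAt P (c.pc + 1 + lc + 26 + lf + 2 + lg) [.cmov 16 (k + 2) (k + 1)] := by
    have := hcode.right
    simp only [List.length_append, List.length_cons, List.length_nil, hlc, hlf, hlg, midBlock_length] at this
    rw [show c.pc + 1 + lc + 26 + lf + 2 + lg = c.pc + (0 + 1 + lc + 26 + lf + (0 + 1 + 1) + lg) by omega]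
    exact this
  -- the first move
  set c0 := execL [.mov k 16] c with hc0
  have e0 : run P 1 c = PMF.pure c0 := run_plain hc1 (by simp [plain])
  have g0 : Good S BW c0 := by
    simp only [hc0, execL_cons, execL_nil]
    exact good_mov (by omega) hgd
  have p0 : c0.pc = c.pc + 1 := by simp [hc0, exec]
  have m0 : c0.mem = c.mem := by simp [hc0, exec]
  have hp0 : hp c0 = hp c := by
    simp only [hc0, execL_cons, execL_nil]
    exact hp_mov (by omega)
  have r0 : ∀ r, r ≠ k → c0.reg r = c.reg r := by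
    intro r hr
    simp [hc0, exec_mov_reg, hr]
  have rk0 : c0.reg k = c.reg 16 := by simp [hc0, exec_mov_reg]
  have l0 : Live c0 16 v := hl.transfer (r0 16 (by omega)) hp0.ge (fun a _ => by rw [m0])
  have lk0 : Live c0 k v := hl.transfer rk0 hp0.ge (fun a _ => by rw [m0])
  have a0 : After S BW k 1 (c.pc + 1) c c0 :=
    After.of_plain (l := [.mov k 16]) (by simp [plain]) (by simp [smallB]) (by simp) hb1 hgd.bits rfl g0
      ⟨v, l0⟩ (fun r _ h => r0 r (by omega)) (r0 21 (by omega)) (fun a _ => by rw [m0]) hp0.ge (by omega)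
  obtain ⟨c1s, c2s⟩ := hc c0 v p0 g0 l0 (by omega)
  -- after the test
  have after1 : ∀ c1 ∈ (run P τc c0).support,
      Good S BW (execL (midBlock k) c1) ∧ Live (execL (midBlock k) c1) 16 v ∧
      (execL (midBlock k) c1).pc = c.pc + 1 + lc + 26 ∧
      After S BW k 26 (c.pc + 1 + lc + 26) c1 (execL (midBlock k) c1) ∧
      (0 < (execL (midBlock k) c1).reg (k + 1) ↔ Val.isPos (dec c1)) ∧
      (execL (midBlock k) c1).reg k = c0.reg k ∧
      hp (execL (midBlock k) c1) = hp c1 ∧ (execL (midBlock k) c1).mem = c1.mem := by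
    intro c1 hc1'
    have ha := c1s c1 hc1'
    obtain ⟨w, hw⟩ := ha.live
    obtain ⟨b1, b2, b3, b4, b5⟩ := midBlock_spec hk ha.good hw
    have hrk : c1.reg k = c0.reg k := ha.saved k hk (by omega)
    have hp1 : hp (execL (midBlock k) c1) = hp c1 := by
      unfold hp
      rw [b4 17 (by omega) (by omega)]
    have hlive : Live (execL (midBlock k) c1) 16 v := by
      refine lk0.transfer (by rw [b3, hrk]) (by rw [hp1]; exact ha.hp_le) (fun a h => ?_)
      rw [b5]
      exact ha.heap a h
    have hpcm : (execL (midBlock k) c1).pc = c.pc + 1 + lc + 26 := by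
      rw [execL_pc (midBlock_plain k), ha.pc, midBlock_length]
    refine ⟨b1, hlive, hpcm, ?_, ?_, ?_, hp1, b5⟩
    · have := After.of_plain (S := S) (k := k) (midBlock_plain k) (midBlock_small k)
        (by rw [midBlock_length]; omega) hb1 ha.good.bits rfl b1 ⟨v, hlive⟩
        (fun r h1 h2 => b4 r (by omega) (by omega)) (b4 21 (by omega) (by omega)) (fun a _ => by rw [b5])
        hp1.ge (by rw [hp1]; omega)
      rw [midBlock_length, ha.pc] at this
      exact this
    · rw [hw.dec_eq]
      exact b2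
    · rw [b4 k (by omega) (by omega), hrk]
  have hmid : ∀ c1 ∈ (run P τc c0).support, run P 26 c1 = PMF.pure (execL (midBlock k) c1) := by
    intro c1 hc1'
    have ha := c1s c1 hc1'
    have := run_plain (P := P) (l := midBlock k) (c := c1) (by rw [ha.pc]; exact hc2) (midBlock_plain k)
    rwa [midBlock_length] at this
  -- after the first branch
  have hHf : ∀ c1 ∈ (run P τc c0).support, hp (execL (midBlock k) c1) + 3 * τf ≤ Hmax := by
    intro c1 hc1'
    obtain ⟨_, _, _, _, _, _, b7, _⟩ := after1 c1 hc1'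
    have := (c1s c1 hc1').hp_le'
    rw [b7]
    omega
  have after2 : ∀ c1 ∈ (run P τc c0).support, ∀ c3 ∈ (run P τf (execL (midBlock k) c1)).support,
      Good S BW (ifMid k c3) ∧ Live (ifMid k c3) 16 v ∧ (ifMid k c3).pc = c.pc + 1 + lc + 26 + lf + 2 ∧
      After S BW k 2 (c.pc + 1 + lc + 26 + lf + 2) c3 (ifMid k c3) ∧
      (ifMid k c3).reg (k + 2) = c3.reg 16 ∧ (ifMid k c3).reg (k + 1) = (execL (midBlock k) c1).reg (k + 1) ∧
      hp (ifMid k c3) = hp c3 ∧ (ifMid k c3).mem = c3.mem ∧
      After S BW (k + 2) τf (c.pc + 1 + lc + 26 + lf) (execL (midBlock k) c1) c3 := by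
    intro c1 hc1' c3 hc3'
    obtain ⟨b1, b2, b3, b4, b5, b6, b7, b8⟩ := after1 c1 hc1'
    have ha := (hf _ v b3 b1 b2 (hHf c1 hc1')).1 c3 hc3'
    have gm : Good S BW (ifMid k c3) := by
      unfold ifMid
      simp only [execL_cons, execL_nil]
      exact good_mov (by omega) (good_mov (by omega) ha.good)
    have hm : (ifMid k c3).mem = c3.mem := by simp [ifMid, exec]
    have hp1 : hp (ifMid k c3) = hp c3 := by
      simp only [ifMid, execL_cons, execL_nil]
      rw [hp_mov (by omega), hp_mov (by omega)]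
    have hr : ∀ r, r ≠ k + 2 → r ≠ 16 → (ifMid k c3).reg r = c3.reg r := by
      intro r h1 h2
      simp [ifMid, exec_mov_reg, h1, h2]
    have hr16 : (ifMid k c3).reg 16 = c3.reg k := by
      simp [ifMid, exec_mov_reg]
    have hrk1 : (ifMid k c3).reg (k + 2) = c3.reg 16 := by
      simp [ifMid, exec_mov_reg]
      omega
    have hrk : c3.reg k = c0.reg k := by
      rw [ha.saved k hk (by omega), b6]
    have hh0 : hp c0 ≤ hp c3 :=
      ((c1s c1 hc1').hp_le.trans b7.ge).trans ha.hp_le
    have hlive : Live (ifMid k c3) 16 v := by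
      refine lk0.transfer (by rw [hr16, hrk]) (by rw [hp1]; exact hh0) (fun a h => ?_)
      rw [hm, ha.heap a (lt_of_lt_of_le h ((c1s c1 hc1').hp_le.trans b7.ge)), b8]
      exact (c1s c1 hc1').heap a h
    have hpcm : (ifMid k c3).pc = c.pc + 1 + lc + 26 + lf + 2 := by
      simp only [ifMid, execL_cons, execL_nil, exec]
      rw [ha.pc]
    refine ⟨gm, hlive, hpcm, ?_, hrk1, ?_, hp1, hm, ha⟩
    · have hpc1 : c3.pc + ([.mov (k + 2) 16, .mov 16 k] : List Instr).length = c.pc + 1 + lc + 26 + lf + 2 := by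
        rw [ha.pc]
        simp
      rw [← hpc1]
      exact After.of_plain (l := [.mov (k + 2) 16, .mov 16 k]) (by simp [plain]) (by simp [smallB]) (by simp) hb1
        ha.good.bits rfl gm ⟨v, hlive⟩ (fun r h1 h2 => hr r (by omega) (by omega)) (hr 21 (by omega) (by omega))
        (fun a _ => by rw [hm]) hp1.ge (by simp; omega)
    · rw [hr (k + 1) (by omega) (by omega), ha.saved (k + 1) (by omega) (by omega)]
  have hMid2 : ∀ c1 ∈ (run P τc c0).support, ∀ c3 ∈ (run P τf (execL (midBlock k) c1)).support,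
      run P 2 c3 = PMF.pure (ifMid k c3) := by
    intro c1 hc1' c3 hc3'
    obtain ⟨_, _, _, _, _, _, _, _, b9⟩ := after2 c1 hc1' c3 hc3'
    exact run_plain (l := [.mov (k + 2) 16, .mov 16 k]) (by rw [b9.pc]; exact hc3) (by simp [plain])
  have hHg : ∀ c1 ∈ (run P τc c0).support, ∀ c3 ∈ (run P τf (execL (midBlock k) c1)).support,
      hp (ifMid k c3) + 3 * τg ≤ Hmax := by
    intro c1 hc1' c3 hc3'
    obtain ⟨_, _, _, _, _, _, b7, _, b9⟩ := after2 c1 hc1' c3 hc3'
    obtain ⟨_, _, _, _, _, _, d7, _⟩ := after1 c1 hc1'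
    have h1 := (c1s c1 hc1').hp_le'
    have h2 := b9.hp_le'
    rw [d7] at h2
    rw [b7]
    omega
  -- the last instruction
  have hlast : ∀ c5 : Conf, c5.pc = c.pc + 1 + lc + 26 + lf + 2 + lg →
      run P 1 c5 = PMF.pure (execL [.cmov 16 (k + 2) (k + 1)] c5) := by
    intro c5 h5
    exact run_plain (l := [.cmov 16 (k + 2) (k + 1)]) (by rw [h5]; exact hc4) (by simp [plain])
  have hrun : run P (1 + τc + 26 + τf + 2 + τg + 1) c =
      (run P τc c0).bind fun c1 => (run P τf (execL (midBlock k) c1)).bind fun c3 =>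
        (run P τg (ifMid k c3)).bind fun c5 => PMF.pure (execL [.cmov 16 (k + 2) (k + 1)] c5) := by
    rw [show 1 + τc + 26 + τf + 2 + τg + 1 = 1 + (τc + (26 + (τf + (2 + (τg + 1))))) by omega, run_add, e0,
      PMF.pure_bind, run_add]
    apply bind_congr_support
    intro c1 hc1'
    rw [run_add, hmid c1 hc1', PMF.pure_bind, run_add]
    apply bind_congr_support
    intro c3 hc3'
    obtain ⟨b1, b2, b3, _⟩ := after2 c1 hc1' c3 hc3'
    rw [run_add, hMid2 c1 hc1' c3 hc3', PMF.pure_bind, run_add]
    apply bind_congr_support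
    intro c5 hc5'
    exact hlast c5 ((hg _ v b3 b1 b2 (hHg c1 hc1' c3 hc3')).1 c5 hc5').pc
  -- the facts for the whole
  have hall : ∀ c1 ∈ (run P τc c0).support, ∀ c3 ∈ (run P τf (execL (midBlock k) c1)).support,
      ∀ c5 ∈ (run P τg (ifMid k c3)).support,
      After S BW k (1 + τc + 26 + τf + 2 + τg + 1) (c.pc + (1 + lc + 26 + lf + 2 + lg + 1)) c
        (execL [.cmov 16 (k + 2) (k + 1)] c5) ∧
      (Val.isPos (dec c1) → dec (execL [.cmov 16 (k + 2) (k + 1)] c5) = dec c3) ∧
      (¬ Val.isPos (dec c1) → dec (execL [.cmov 16 (k + 2) (k + 1)] c5) = dec c5) := by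
    intro c1 hc1' c3 hc3' c5 hc5'
    obtain ⟨b1, b2, b3, b4, b5, b6, b7, b8⟩ := after1 c1 hc1'
    obtain ⟨d1, d2, d3, d4, d5, d6, d7, d8, d9⟩ := after2 c1 hc1' c3 hc3'
    have ha := c1s c1 hc1'
    have he := (hg _ v d3 d1 d2 (hHg c1 hc1' c3 hc3')).1 c5 hc5'
    obtain ⟨v3, hv3⟩ := d9.live
    obtain ⟨v5, hv5⟩ := he.live
    have hk1 : c5.reg (k + 1) = (execL (midBlock k) c1).reg (k + 1) := by
      rw [he.saved (k + 1) (by omega) (by omega), d6]
    have hk2 : c5.reg (k + 2) = c3.reg 16 := by
      rw [he.saved (k + 2) (by omega) (by omega), d5]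
    have hv3' : Live c5 (k + 2) v3 := by
      refine hv3.transfer hk2 (by rw [← d7]; exact he.hp_le) (fun a h => ?_)
      rw [he.heap a (by rw [d7]; exact h), d8]
    set c6 := execL [.cmov 16 (k + 2) (k + 1)] c5 with hc6
    have r6 : ∀ r, r ≠ 16 → c6.reg r = c5.reg r := by
      intro r hr
      simp [hc6, exec_cmov_reg, hr]
    have m6 : c6.mem = c5.mem := rfl
    have hp6 : hp c6 = hp c5 := by
      unfold hp
      rw [r6 17 (by omega)]
    have rpos : Val.isPos (dec c1) → c6.reg 16 = c5.reg (k + 2) := by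
      intro h
      have : 0 < c5.reg (k + 1) := by rw [hk1]; exact b5.2 h
      simp [hc6, exec_cmov_reg, this]
    have rneg : ¬ Val.isPos (dec c1) → c6.reg 16 = c5.reg 16 := by
      intro h
      have : ¬ 0 < c5.reg (k + 1) := by
        rw [hk1]
        exact fun h' => h (b5.1 h')
      simp [hc6, exec_cmov_reg, this]
    have hlive : ∃ w, Live c6 16 w := by
      by_cases h : Val.isPos (dec c1)
      · exact ⟨v3, hv3'.transfer (rpos h) hp6.ge (fun a _ => by rw [m6])⟩
      · exact ⟨v5, hv5.transfer (rneg h) hp6.ge (fun a _ => by rw [m6])⟩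
    have g6 : Good S BW c6 := by
      refine he.good.of_regs (fun r hr => r6 r (by omega)) m6 (fun r => ?_)
      by_cases h16 : r = 16
      · subst h16
        by_cases h : Val.isPos (dec c1)
        · rw [rpos h]
          exact he.good.bits.1 _
        · rw [rneg h]
          exact he.good.bits.1 _
      · rw [r6 r h16]
        exact he.good.bits.1 r
    refine ⟨?_, fun h => ?_, fun h => ?_⟩
    · have a6 : After S BW k 1 (c.pc + (1 + lc + 26 + lf + 2 + lg + 1)) c5 c6 := by
        have e : c.pc + (1 + lc + 26 + lf + 2 + lg + 1) = c5.pc + ([.cmov 16 (k + 2) (k + 1)] : List Instr).length := by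
          rw [he.pc]
          simp
          omega
        rw [e]
        exact After.of_plain (l := [.cmov 16 (k + 2) (k + 1)]) (by simp [plain]) (by simp [smallB]) (by simp) hb1
          he.good.bits rfl g6 hlive (fun r h1 _ => r6 r (by omega)) (r6 21 (by omega)) (fun a _ => by rw [m6])
          hp6.ge (by rw [hp6]; omega)
      have a1 := a0.trans (ha.mono (by omega))
      have a2 := a1.trans b4
      have a3 := a2.trans (d9.mono (by omega))
      have a4 := a3.trans d4
      have a5 := a4.trans (he.mono (by omega))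
      exact a5.trans a6
    · have := (hv3'.transfer (c' := c6) (r' := 16) (rpos h) hp6.ge (fun a _ => by rw [m6])).dec_eq
      rw [this, hv3.dec_eq]
    · have := (hv5.transfer (c' := c6) (r' := 16) (rneg h) hp6.ge (fun a _ => by rw [m6])).dec_eq
      rw [this, hv5.dec_eq]
  refine ⟨fun c' hc' => ?_, ?_⟩
  · rw [hrun, PMF.mem_support_bind_iff] at hc'
    obtain ⟨c1, hc1', hc'⟩ := hc'
    rw [PMF.mem_support_bind_iff] at hc'
    obtain ⟨c3, hc3', hc'⟩ := hc'
    rw [PMF.mem_support_bind_iff] at hc'
    obtain ⟨c5, hc5', hc'⟩ := hc'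
    rw [PMF.support_pure, Set.mem_singleton_iff] at hc'
    subst hc'
    exact (hall c1 hc1' c3 hc3' c5 hc5').1
  · rw [hrun, map_bind_eq]
    simp only [sem]
    rw [← c2s, PMF.bind_map]
    apply bind_congr_support
    intro c1 hc1'
    obtain ⟨b1, b2, b3, b4, b5, b6, b7, b8⟩ := after1 c1 hc1'
    obtain ⟨f1, f2⟩ := hf _ v b3 b1 b2 (hHf c1 hc1')
    rw [map_bind_eq, Function.comp]
    by_cases hpos : Val.isPos (dec c1)
    · rw [if_pos hpos, ← f2]
      have e : PMF.map dec (run P τf (execL (midBlock k) c1)) = (run P τf (execL (midBlock k) c1)).bind (PMF.pure ∘ dec) := rfl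
      rw [e]
      apply bind_congr_support
      intro c3 hc3'
      rw [map_bind_eq]
      have : (run P τg (ifMid k c3)).bind (fun a => PMF.map dec (PMF.pure (execL [.cmov 16 (k + 2) (k + 1)] a))) =
          (run P τg (ifMid k c3)).bind (fun _ => PMF.pure (dec c3)) := by
        apply bind_congr_support
        intro c5 hc5'
        rw [PMF.pure_map, (hall c1 hc1' c3 hc3' c5 hc5').2.1 hpos]
      rw [this, PMF.bind_const]
      rfl
    · rw [if_neg hpos]
      have : (run P τf (execL (midBlock k) c1)).bind (fun a => PMF.map dec ((run P τg (ifMid k a)).bind fun c5 =>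
            PMF.pure (execL [.cmov 16 (k + 2) (k + 1)] c5))) =
          (run P τf (execL (midBlock k) c1)).bind (fun _ => sem g S v) := by
        apply bind_congr_support
        intro c3 hc3'
        obtain ⟨d1, d2, d3, _⟩ := after2 c1 hc1' c3 hc3'
        rw [← (hg _ v d3 d1 d2 (hHg c1 hc1' c3 hc3')).2, map_bind_eq]
        have e : PMF.map dec (run P τg (ifMid k c3)) = (run P τg (ifMid k c3)).bind (PMF.pure ∘ dec) := rfl
        rw [e]
        apply bind_congr_support
        intro c5 hc5'
        rw [PMF.pure_map, (hall c1 hc1' c3 hc3' c5 hc5').2.2 hpos]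
        rfl
      rw [this, PMF.bind_const]

end Vale.Agent.Lib.P328.Ram
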