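import Vale.Agent.Lib.P328.Ram.Seq

/-!
# P328: the code of a pair of programs
-/

namespace Vale.Agent.Lib.P328.Ram

open Vale.Agent.Lib.P328.Bit (Val Prog sem time wid clamp arith)

theorem allocPair_plain (u : ℕ) : ∀ i ∈ allocPair u ++ zeroT, plain i = true := by
  intro i hi
  simp only [allocPair, zeroT, List.mem_append, List.mem_cons, List.not_mem_nil, or_false] at hi
  rcases hi with hi | hi
  · rcases hi with rfl | rfl | rfl | rfl | rfl | rfl | rfl | rfl <;> rfl
  · rcases hi with rfl | rfl | rfl | rfl | rfl | rfl | rfl | rfl | rfl | rfl | rfl | rfl | rfl | rfl | rfl | rfl <;> rfl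

theorem allocPair_small (u : ℕ) : ∀ i ∈ allocPair u ++ zeroT, smallB i = true := by
  intro i hi
  simp only [allocPair, zeroT, List.mem_append, List.mem_cons, List.not_mem_nil, or_false] at hi
  rcases hi with hi | hi
  · rcases hi with rfl | rfl | rfl | rfl | rfl | rfl | rfl | rfl <;> rfl
  · rcases hi with rfl | rfl | rfl | rfl | rfl | rfl | rfl | rfl | rfl | rfl | rfl | rfl | rfl | rfl | rfl | rfl <;> simp [smallB]

theorem allocPair_length (u : ℕ) : (allocPair u ++ zeroT).length = 24 := by
  simp [allocPair, zeroT]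

/-- The configuration after the two moves of a pair. -/
def forkMid (k : ℕ) (c : Conf) : Conf := execL [.mov (k + 1) 16, .mov 16 k] c

theorem forkMid_good {S BW k : ℕ} (hk : 24 ≤ k) {c : Conf} (hg : Good S BW c) :
    Good S BW (forkMid k c) := by
  unfold forkMid
  simp only [execL_cons, execL_nil]
  exact good_mov (by omega) (good_mov (by omega) hg)

theorem frag_fork {P : List Instr} {S BW Hmax pc k τf τg lf lg : ℕ} {f g : Prog} {cf cg : List Instr}
    (hk : 24 ≤ k) (hpar : Par S BW Hmax) (hb3 : 3 ≤ BW) (hlf : cf.length = lf) (hlg : cg.length = lg)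
    (hc : CodeAt P pc (([.mov k 16] : List Instr) ++ cf ++ [.mov (k + 1) 16, .mov 16 k] ++ cg ++ (allocPair (k + 1) ++ zeroT)))
    (hf : Frag P S BW Hmax (pc + 1) (k + 2) τf lf f)
    (hg : Frag P S BW Hmax (pc + 1 + lf + 2) (k + 2) τg lg g) :
    Frag P S BW Hmax pc k (1 + τf + 2 + τg + 24) (1 + lf + 2 + lg + 24) (.fork f g) := by
  intro c v hpc hgd hl hH
  subst hpc
  have hb1 : 1 ≤ BW := by omega
  -- the code positions
  have hc1 : CodeAt P c.pc [.mov k 16] := hc.left.left.left.left
  have hc3 : CodeAt P (c.pc + 1 + lf + 2 - 2) [.mov (k + 1) 16, .mov 16 k] := by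
    have := hc.left.left.right
    simp only [List.length_append, List.length_cons, List.length_nil, hlf] at this
    rw [show c.pc + 1 + lf + 2 - 2 = c.pc + (0 + 1 + lf) by omega]
    exact this
  have hc5 : CodeAt P (c.pc + 1 + lf + 2 + lg) (allocPair (k + 1) ++ zeroT) := by
    have := hc.right
    simp only [List.length_append, List.length_cons, List.length_nil, hlf, hlg] at this
    rw [show c.pc + 1 + lf + 2 + lg = c.pc + (0 + 1 + lf + (0 + 1 + 1) + lg) by omega]
    exact this
  -- the first move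
  set c0 := execL [.mov k 16] c with hc0
  have e0 : run P 1 c = PMF.pure c0 := run_plain hc1 (by simp [plain])
  have g0 : Good S BW c0 := by
    simp only [hc0, execL_cons, execL_nil]
    exact good_mov (by omega) hgd
  have p0 : c0.pc = c.pc + 1 := by simp [hc0, exec]
  have m0 : c0.mem = c.mem := by simp [hc0, exec]
  have hp0 : hp c0 = hp c := by
    simp only [hc0, execL_cons, execL_nil]
    exact hp_mov (by omega)
  have r0 : ∀ r, r ≠ k → c0.reg r = c.reg r := by
    intro r hr
    simp [hc0, exec_mov_reg, hr]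
  have rk0 : c0.reg k = c.reg 16 := by simp [hc0, exec_mov_reg]
  have l0 : Live c0 16 v := hl.transfer (r0 16 (by omega)) hp0.ge (fun a _ => by rw [m0])
  have lk0 : Live c0 k v := hl.transfer rk0 hp0.ge (fun a _ => by rw [m0])
  have a0 : After S BW k 1 (c.pc + 1) c c0 :=
    After.of_plain (l := [.mov k 16]) (by simp [plain]) (by simp [smallB]) (by simp) hb1 hgd.bits rfl g0
      ⟨v, l0⟩ (fun r _ h => r0 r (by omega)) (r0 21 (by omega)) (fun a _ => by rw [m0]) hp0.ge (by omega)
  -- the program f
  obtain ⟨f1, f2⟩ := hf c0 v p0 g0 l0 (by omega)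
  -- the facts after f
  have after1 : ∀ c1 ∈ (run P τf c0).support,
      Good S BW (forkMid k c1) ∧ Live (forkMid k c1) 16 v ∧ (forkMid k c1).pc = c.pc + 1 + lf + 2 ∧
      After S BW k 2 (c.pc + 1 + lf + 2) c1 (forkMid k c1) ∧
      (forkMid k c1).reg (k + 1) = c1.reg 16 ∧ hp (forkMid k c1) = hp c1 ∧ (forkMid k c1).mem = c1.mem := by
    intro c1 hc1'
    have ha := f1 c1 hc1'
    obtain ⟨v1, hv1⟩ := ha.live
    have gm := forkMid_good (k := k) hk ha.good
    have hm : (forkMid k c1).mem = c1.mem := by simp [forkMid, exec]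
    have hp1 : hp (forkMid k c1) = hp c1 := by
      simp only [forkMid, execL_cons, execL_nil]
      rw [hp_mov (by omega), hp_mov (by omega)]
    have hr : ∀ r, r ≠ k + 1 → r ≠ 16 → (forkMid k c1).reg r = c1.reg r := by
      intro r h1 h2
      simp [forkMid, exec_mov_reg, h1, h2]
    have hr16 : (forkMid k c1).reg 16 = c1.reg k := by
      simp [forkMid, exec_mov_reg]
    have hrk1 : (forkMid k c1).reg (k + 1) = c1.reg 16 := by
      simp [forkMid, exec_mov_reg]
      omega
    have hrk : c1.reg k = c0.reg k := ha.saved k hk (by omega)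
    have hlive : Live (forkMid k c1) 16 v := by
      refine lk0.transfer (by rw [hr16, hrk]) (by rw [hp1]; exact ha.hp_le) (fun a h => ?_)
      rw [hm]
      exact ha.heap a h
    have hpcm : (forkMid k c1).pc = c.pc + 1 + lf + 2 := by
      simp only [forkMid, execL_cons, execL_nil, exec]
      rw [ha.pc]
    refine ⟨gm, hlive, hpcm, ?_, hrk1, hp1, hm⟩
    have hpc1 : c1.pc + ([.mov (k + 1) 16, .mov 16 k] : List Instr).length = c.pc + 1 + lf + 2 := by
      rw [ha.pc]
      simp
    rw [← hpc1]
    exact After.of_plain (l := [.mov (k + 1) 16, .mov 16 k]) (by simp [plain]) (by simp [smallB]) (by simp) hb1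
      ha.good.bits rfl gm ⟨v, hlive⟩ (fun r h1 h2 => hr r (by omega) (by omega)) (hr 21 (by omega) (by omega))
      (fun a _ => by rw [hm]) hp1.ge (by simp; omega)
  -- the facts after g
  have hplainM : ∀ c1 ∈ (run P τf c0).support, run P 2 c1 = PMF.pure (forkMid k c1) := by
    intro c1 hc1'
    have ha := f1 c1 hc1'
    refine run_plain (l := [.mov (k + 1) 16, .mov 16 k]) ?_ (by simp [plain])
    rw [ha.pc]
    convert hc3 using 1
    omega
  have hlast : ∀ c3 : Conf, c3.pc = c.pc + 1 + lf + 2 + lg →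
      run P 24 c3 = PMF.pure (execL (allocPair (k + 1) ++ zeroT) c3) := by
    intro c3 h3
    have := run_plain (P := P) (l := allocPair (k + 1) ++ zeroT) (c := c3) (by rw [h3]; exact hc5) (allocPair_plain _)
    rwa [allocPair_length] at this
  -- the law of the configuration
  have hrun : run P (1 + τf + 2 + τg + 24) c =
      (run P τf c0).bind fun c1 => (run P τg (forkMid k c1)).bind fun c3 =>
        PMF.pure (execL (allocPair (k + 1) ++ zeroT) c3) := by
    rw [show 1 + τf + 2 + τg + 24 = 1 + (τf + (2 + (τg + 24))) by omega, run_add, e0, PMF.pure_bind, run_add]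
    apply bind_congr_support
    intro c1 hc1'
    obtain ⟨b1, b2, b3, b4, b5, b6, b7⟩ := after1 c1 hc1'
    rw [run_add, hplainM c1 hc1', PMF.pure_bind, run_add]
    apply bind_congr_support
    intro c3 hc3'
    obtain ⟨v1, hv1⟩ := (f1 c1 hc1').live
    obtain ⟨g1, _⟩ := hg (forkMid k c1) v b3 b1 b2 (by
      rw [b6]
      have := (f1 c1 hc1').hp_le'
      omega)
    exact hlast c3 (g1 c3 hc3').pc
  -- the facts for the whole
  have hall : ∀ c1 ∈ (run P τf c0).support, ∀ c3 ∈ (run P τg (forkMid k c1)).support,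
      After S BW k (1 + τf + 2 + τg + 24) (c.pc + (1 + lf + 2 + lg + 24)) c (execL (allocPair (k + 1) ++ zeroT) c3) ∧
      dec (execL (allocPair (k + 1) ++ zeroT) c3) = .pair (dec c1) (dec c3) := by
    intro c1 hc1' c3 hc3'
    obtain ⟨b1, b2, b3, b4, b5, b6, b7⟩ := after1 c1 hc1'
    have ha := f1 c1 hc1'
    have hH2 : hp (forkMid k c1) + 3 * τg ≤ Hmax := by
      rw [b6]
      have := ha.hp_le'
      omega
    obtain ⟨g1, g2⟩ := hg (forkMid k c1) v b3 b1 b2 hH2
    have hb := g1 c3 hc3'
    obtain ⟨v1, hv1⟩ := ha.live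
    obtain ⟨v3, hv3⟩ := hb.live
    have hku : (c3.reg (k + 1)) = c1.reg 16 := by
      rw [hb.saved (k + 1) (by omega) (by omega), b5]
    have hv1' : Live c3 (k + 1) v1 := by
      refine hv1.transfer hku (by rw [← b6]; exact hb.hp_le) (fun a h => ?_)
      rw [hb.heap a (by rw [b6]; exact h), b7]
    have hH3 : hp c3 + 3 ≤ Hmax := by
      have := hb.hp_le'
      rw [b6] at this
      have := ha.hp_le'
      omega
    obtain ⟨q1, q2, q3, q4, q5⟩ := alloc_pair hpar (u := k + 1) (by omega) hb.good hb3 hv1' hv3 hH3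
    have hdec : dec (execL (allocPair (k + 1) ++ zeroT) c3) = .pair v1 v3 := q2.dec_eq
    constructor
    · have a3 : After S BW k 24 (c.pc + (1 + lf + 2 + lg + 24)) c3 (execL (allocPair (k + 1) ++ zeroT) c3) := by
        have e : c.pc + (1 + lf + 2 + lg + 24) = c3.pc + (allocPair (k + 1) ++ zeroT).length := by
          rw [hb.pc, allocPair_length]
          omega
        rw [e]
        have := After.of_plain (S := S) (k := k) (allocPair_plain (k + 1)) (allocPair_small (k + 1))
          (by rw [allocPair_length]; omega) hb1 hb.good.bits rfl q1 ⟨_, q2⟩ (fun r h _ => q3 r (by omega))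
          (q3 21 (by omega)) q4 (by omega) (by rw [allocPair_length]; omega)
        rwa [allocPair_length] at this
      have a1 := a0.trans (ha.mono (by omega))
      have a2 := a1.trans b4
      have a4 := a2.trans (hb.mono (by omega))
      exact a4.trans a3
    · rw [hdec, hv1.dec_eq, hv3.dec_eq]
  refine ⟨fun c' hc' => ?_, ?_⟩
  · rw [hrun, PMF.mem_support_bind_iff] at hc'
    obtain ⟨c1, hc1', hc'⟩ := hc'
    rw [PMF.mem_support_bind_iff] at hc'
    obtain ⟨c3, hc3', hc'⟩ := hc'
    rw [PMF.support_pure, Set.mem_singleton_iff] at hc'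
    subst hc'
    exact (hall c1 hc1' c3 hc3').1
  · rw [hrun, map_bind_eq]
    simp only [sem]
    rw [← f2, PMF.bind_map]
    apply bind_congr_support
    intro c1 hc1'
    obtain ⟨b1, b2, b3, b4, b5, b6, b7⟩ := after1 c1 hc1'
    have ha := f1 c1 hc1'
    have hH2 : hp (forkMid k c1) + 3 * τg ≤ Hmax := by
      rw [b6]
      have := ha.hp_le'
      omega
    obtain ⟨g1, g2⟩ := hg (forkMid k c1) v b3 b1 b2 hH2
    rw [map_bind_eq, Function.comp, ← g2, PMF.bind_map]
    apply bind_congr_support
    intro c3 hc3'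
    rw [PMF.pure_map, (hall c1 hc1' c3 hc3').2]
    rfl

end Vale.Agent.Lib.P328.Ram
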