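import Vale.Agent.Lib.P328.Ram.Build

/-!
# P328: the start of the machine, all together
-/

namespace Vale.Agent.Lib.P328.Ram

open Vale.Agent.Lib.P328.Bit (Val Prog sem time wid clamp arith time_poly encList enc)

def initE : List Instr := [.mov 44 41, .mov 41 21, .mov 27 29]

def initF1 : List Instr := ([.mov 16 44] : List Instr) ++ zeroT

/-- The whole start of the machine. -/
def initCode : List Instr :=
  codeA ++ initB ++ whileCode 40 doubleBody ++ initD ++ whileCode 27 buildBody ++ initE ++ whileCode 27 buildBody ++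
    initF1 ++ (allocPair 41 ++ zeroT)

def stepsI (b m n L : ℕ) : ℕ :=
  stepsA b (m + n) L + (12 + ((wid (L ^ 100) * (2 + 2) + 2) + (6 + ((n * (15 + 2) + 2) + (3 + ((m * (15 + 2) + 2) + (17 + 24)))))))

theorem len_codeA : codeA.length = 28 := rfl
theorem len_initB : initB.length = 12 := rfl
theorem len_w40 : (whileCode 40 doubleBody).length = 5 := rfl
theorem len_initD : initD.length = 6 := rfl
theorem len_w27 : (whileCode 27 buildBody).length = 18 := rfl
theorem len_initE : initE.length = 3 := rfl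
theorem len_initF1 : initF1.length = 17 := rfl
theorem len_alloc : (allocPair 41 ++ zeroT).length = 24 := rfl
theorem len_initCode : initCode.length = 131 := by
  simp only [initCode, List.length_append, len_codeA, len_initB, len_w40, len_initD, len_w27, len_initE, len_initF1]
  rw [show (allocPair 41).length + zeroT.length = 24 from rfl]

theorem init_stage1 {P : List Instr} {BW Hmax q m n a b L S W : ℕ} (v : ℕ → ℕ) (hc0 : CodeAt P q codeA)
    (hc1 : CodeAt P (q + 28) initB) (hc2 : CodeAt P (q + 40) (whileCode 40 doubleBody)) (hc3 : CodeAt P (q + 45) initD)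
    (c : Conf) (hpc : c.pc = q) (h0 : ∀ r, c.reg r = 0) (h1 : c.mem 0 = m) (h2 : c.mem 1 = n)
    (h3 : c.mem 2 = a) (h4 : c.mem 3 = b) (hM : ∀ x, bl (c.mem x) ≤ BW)
    (hv : ∀ j, j < m + n → c.mem (4 + j) = v j)
    (hL : L = m + n + a + 2 + Nat.size b + ∑ j ∈ Finset.range (m + n), Nat.size (v j))
    (hLB : L + 4 ≤ BW) (hL1 : 1 ≤ L) (hS : S = L ^ 100) (hW : W = wid S) (hBW : W + 3 ≤ BW)
    (hsH : Nat.size Hmax ≤ BW) (hHm : 4 + (m + n) + 3 + 6 * n + 6 * m + 3 ≤ Hmax) :
    ∃ c4, Reach P BW c c4 (stepsA b (m + n) L + (12 + ((W * (2 + 2) + 2) + 6))) ∧ c4.pc = q + 51 ∧ c4.mem = c.mem ∧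
      Bits c4 BW ∧ c4.reg 19 = 1 ∧ c4.reg 26 = 2 ∧ c4.reg 29 = m ∧ c4.reg 18 = S ∧ c4.reg 22 = 2 ^ W ∧
      c4.reg 23 = -2 ^ W ∧ c4.reg 21 = ((4 + (m + n) : ℕ) : ℤ) ∧ c4.reg 17 = ((4 + (m + n) + 3 : ℕ) : ℤ) ∧
      c4.reg 41 = ((4 + (m + n) : ℕ) : ℤ) ∧ c4.reg 27 = n ∧ c4.reg 28 = ((4 + (m + n) : ℕ) : ℤ) := by
  have hb1 : 1 ≤ BW := by omega
  -- phase A
  obtain ⟨c1, r1, p1, a19, a26, a29, a30, a28, a24, a00, am, ab⟩ :=
    phaseA_spec (P := P) (BW := BW) (q := q) (m := m) (n := n) (a := a) (b := b) (L := L) v hc0 hb1 c hpc h0 h1 h2 h3 h4 hM hv hL hLB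
  rw [len_codeA] at p1
  -- phase B
  have r2 := Reach.plain (BW := BW) (l := initB) (c := c1) (by rw [p1]; exact hc1) (by simp [initB, plain])
    (by simp [initB, smallB]) (by simp [initB]) hb1 ab
  obtain ⟨b18, b40, b22, b32, b33, b34, b35, b36, b37, b38, b39, bfr, bm⟩ := initB_spec c1 L a24 a19
  rw [← hS] at b18 b40
  rw [← hW] at b40
  generalize hc2' : execL initB c1 = c2 at *
  have hWle : ∀ k, k ≤ 600 → bl (((L ^ k : ℕ)) : ℤ) ≤ BW := by
    intro k hk
    have h5 : L ^ k ≤ L ^ 600 := Nat.pow_le_pow_right hL1 hk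
    have h6 : L ^ 600 = W := by
      rw [hW, hS]
      unfold wid
      ring
    exact bl_nat_le rfl (by omega)
  have bb : Bits c2 BW := by
    refine ⟨fun r => ?_, by rw [bm]; exact ab.2⟩
    by_cases e1 : r = 18
    · subst e1; rw [b18, hS]; exact hWle 100 (by norm_num)
    by_cases e2 : r = 22
    · subst e2; rw [b22]; exact bl_nat_le (n := 1) rfl (by omega)
    by_cases e3 : r = 32
    · subst e3; rw [b32]; exact hWle 2 (by norm_num)
    by_cases e4 : r = 33
    · subst e4; rw [b33]; exact hWle 4 (by norm_num)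
    by_cases e5 : r = 34
    · subst e5; rw [b34]; exact hWle 8 (by norm_num)
    by_cases e6 : r = 35
    · subst e6; rw [b35]; exact hWle 16 (by norm_num)
    by_cases e7 : r = 36
    · subst e7; rw [b36]; exact hWle 32 (by norm_num)
    by_cases e8 : r = 37
    · subst e8; rw [b37]; exact hWle 64 (by norm_num)
    by_cases e9 : r = 38
    · subst e9; rw [b38]; exact hWle 200 (by norm_num)
    by_cases e10 : r = 39
    · subst e10; rw [b39]; exact hWle 400 (by norm_num)
    by_cases e11 : r = 40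
    · subst e11; rw [b40]; exact bl_nat_le rfl (by omega)
    rw [bfr r e1 e2 e3 e4 e5 e6 e7 e8 e9 e10 e11]
    exact ab.1 r
  have fB : ∀ r, r = 19 ∨ r = 26 ∨ r = 28 ∨ r = 29 ∨ r = 30 ∨ r = 0 → c2.reg r = c1.reg r := by
    intro r hr
    apply bfr r <;> omega
  have p2 : c2.pc = q + 40 := by
    rw [← hc2', execL_pc (by simp [initB, plain]), p1, len_initB]
  -- the doubling
  obtain ⟨c3, r3, p3, d22, d40, dfr, dm, db⟩ := double_spec (P := P) (BW := BW) (q := q + 40) (W := W) hc2 hb1 c2 p2 b40 b22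
    (by rw [fB 19 (by simp)]; exact a19) bb (by omega)
  have p3' : c3.pc = q + 45 := by rw [p3]
  -- the fixed registers
  have r4 := Reach.plain (BW := BW) (l := initD) (c := c3) (by rw [p3']; exact hc3) (by simp [initD, plain])
    (by simp [initD, smallB]) (by simp [initD]) hb1 db
  have f3 : ∀ r, r = 19 ∨ r = 26 ∨ r = 28 ∨ r = 29 ∨ r = 30 ∨ r = 0 → c3.reg r = c1.reg r := by
    intro r hr
    rw [dfr r (by omega) (by omega), fB r hr]
  have e19 : c3.reg 19 = 1 := by rw [f3 19 (by simp)]; exact a19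
  have e26 : c3.reg 26 = 2 := by rw [f3 26 (by simp)]; exact a26
  have e28 : c3.reg 28 = ((4 + (m + n) : ℕ) : ℤ) := by rw [f3 28 (by simp)]; exact a28
  have e29 : c3.reg 29 = m := by rw [f3 29 (by simp)]; exact a29
  have e30 : c3.reg 30 = n := by rw [f3 30 (by simp)]; exact a30
  have e00 : c3.reg 0 = 0 := by rw [f3 0 (by simp)]; exact a00
  have e18 : c3.reg 18 = S := by rw [dfr 18 (by norm_num) (by norm_num)]; exact b18
  obtain ⟨g23, g21, g1, g17, g41, g27, gfr, gm⟩ := initD_spec c3 e00 e19 e26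
  generalize hc4' : execL initD c3 = c4 at *
  have hm4 : c4.mem = c.mem := by rw [gm, dm, bm, am]
  have p4 : c4.pc = q + 51 := by
    rw [← hc4', execL_pc (by simp [initD, plain]), p3', len_initD]
  have hptr : ∀ x : ℕ, x ≤ 4 + (m + n) + 3 + 6 * n + 6 * m + 3 → bl (x : ℤ) ≤ BW := by
    intro x hx
    rw [bl_natCast]
    exact (Nat.size_le_size (by omega)).trans hsH
  have hnpw : bl (-(2 : ℤ) ^ W) ≤ BW := by
    have := bl_pow_two W
    have h6 : bl (-(2 : ℤ) ^ W) = bl ((2 : ℤ) ^ W) := by simp [bl]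
    rw [h6]
    omega
  have hpt2 : ((4 + (m + n) : ℕ) : ℤ) + 3 = ((4 + (m + n) + 3 : ℕ) : ℤ) := by push_cast; ring
  have bb4 : Bits c4 BW := by
    refine ⟨fun r => ?_, by rw [hm4]; exact hM⟩
    by_cases e1 : r = 23
    · subst e1
      rw [g23, d22]
      exact hnpw
    by_cases e2 : r = 21
    · subst e2; rw [g21, e28]; exact hptr _ (by omega)
    by_cases e3 : r = 1
    · subst e3; rw [g1]; exact bl_nat_le (n := 3) rfl (by omega)
    by_cases e4 : r = 17
    · subst e4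
      rw [g17, e28, hpt2]
      exact hptr _ (by omega)
    by_cases e5 : r = 41
    · subst e5; rw [g41, e28]; exact hptr _ (by omega)
    by_cases e6 : r = 27
    · subst e6; rw [g27, e30]; exact hptr _ (by omega)
    rw [gfr r e1 e2 e3 e4 e5 e6]
    exact db.1 r
  refine ⟨c4, ?_, p4, hm4, bb4, ?_, ?_, ?_, ?_, ?_, ?_, ?_, ?_, ?_, ?_, ?_⟩
  · rw [len_initB] at r2
    rw [len_initD] at r4
    exact r1.trans (r2.trans (r3.trans r4))
  · rw [gfr 19 (by norm_num) (by norm_num) (by norm_num) (by norm_num) (by norm_num) (by norm_num)]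
    exact e19
  · rw [gfr 26 (by norm_num) (by norm_num) (by norm_num) (by norm_num) (by norm_num) (by norm_num)]
    exact e26
  · rw [gfr 29 (by norm_num) (by norm_num) (by norm_num) (by norm_num) (by norm_num) (by norm_num)]
    exact e29
  · rw [gfr 18 (by norm_num) (by norm_num) (by norm_num) (by norm_num) (by norm_num) (by norm_num)]
    exact e18
  · rw [gfr 22 (by norm_num) (by norm_num) (by norm_num) (by norm_num) (by norm_num) (by norm_num)]
    exact d22
  · rw [g23, d22]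
  · rw [g21, e28]
  · rw [g17, e28, hpt2]
  · rw [g41, e28]
  · rw [g27, e30]
  · rw [gfr 28 (by norm_num) (by norm_num) (by norm_num) (by norm_num) (by norm_num) (by norm_num)]
    exact e28

theorem init_stage2 {P : List Instr} {BW q m n HP0 : ℕ} (lr lc : List ℤ) (hc4 : CodeAt P (q + 51) (whileCode 27 buildBody))
    (hc5 : CodeAt P (q + 69) initE) (hc6 : CodeAt P (q + 72) (whileCode 27 buildBody)) (c4 : Conf)
    (p4 : c4.pc = q + 51) (bb4 : Bits c4 BW) (hHP : HP0 = 4 + (m + n)) (e19 : c4.reg 19 = 1) (e26 : c4.reg 26 = 2)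
    (e29 : c4.reg 29 = m) (e21 : c4.reg 21 = HP0) (e17 : c4.reg 17 = ((HP0 + 3 : ℕ) : ℤ)) (e41 : c4.reg 41 = HP0)
    (e27 : c4.reg 27 = n) (e28 : c4.reg 28 = HP0) (hnil : c4.mem HP0 ≤ 0) (hlr : lr.length = m) (hlc : lc.length = n)
    (hcr : ∀ j (hj : j < lr.length), c4.mem (4 + j) = lr[j]) (hcc : ∀ j (hj : j < lc.length), c4.mem (4 + m + j) = lc[j])
    (hb2 : 2 ≤ BW) (hsize : Nat.size (HP0 + 3 + 6 * n + 6 * m) ≤ BW) :
    ∃ c7, Reach P BW c4 c7 ((n * (15 + 2) + 2) + (3 + (m * (15 + 2) + 2))) ∧ c7.pc = q + 90 ∧ Bits c7 BW ∧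
      c7.reg 17 = ((HP0 + 3 + 6 * n + 6 * m : ℕ) : ℤ) ∧
      (∀ r, r ≠ 27 → r ≠ 28 → r ≠ 41 → r ≠ 42 → r ≠ 43 → r ≠ 1 → r ≠ 17 → r ≠ 44 → c7.reg r = c4.reg r) ∧
      (∀ a, a < HP0 + 3 → c7.mem a = c4.mem a) ∧
      0 ≤ c7.reg 41 ∧ (c7.reg 41).toNat + 3 ≤ HP0 + 3 + 6 * n + 6 * m ∧ Rep c7.mem (c7.reg 41).toNat (encList lr) ∧
      0 ≤ c7.reg 44 ∧ (c7.reg 44).toNat + 3 ≤ HP0 + 3 + 6 * n + 6 * m ∧ Rep c7.mem (c7.reg 44).toNat (encList lc) := by
  have hb1 : 1 ≤ BW := by omega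
  have hsz1 : Nat.size (HP0 + 3 + 6 * lc.length) ≤ BW := (Nat.size_le_size (by omega)).trans hsize
  have hsz2 : Nat.size (HP0 + 3 + 6 * n + 6 * lr.length) ≤ BW := (Nat.size_le_size (by omega)).trans hsize
  obtain ⟨c5, r5, p5, f17, f28, f41, f41', frep, fmem, ffr, fb⟩ := build_spec (P := P) (BW := BW) (q := q + 51) lc (4 + m) (HP0 + 3) hc4 (by omega) c4 p4
    (by rw [e27, hlc]) (by rw [e28, hlc, hHP]; congr 1; omega) e17 e19 e26 (by rw [e41]; omega)
    (by rw [e41]; simp) (by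
      rw [e41]
      simpa using Rep.nil hnil) hcc (by rw [hlc, hHP]; omega) bb4 hsz1 hb2
  rw [hlc] at f17 f41' r5
  have p5' : c5.pc = q + 69 := by rw [p5]
  have r6 := Reach.plain (BW := BW) (l := initE) (c := c5) (by rw [p5']; exact hc5) (by simp [initE, plain])
    (by simp [initE, smallB]) (by simp [initE]) hb1 fb
  have g44 : (execL initE c5).reg 44 = c5.reg 41 := by simp [initE, exec_mov_reg]
  have g41 : (execL initE c5).reg 41 = c5.reg 21 := by simp [initE, exec_mov_reg]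
  have g27 : (execL initE c5).reg 27 = c5.reg 29 := by simp [initE, exec_mov_reg]
  have gfr : ∀ r, r ≠ 44 → r ≠ 41 → r ≠ 27 → (execL initE c5).reg r = c5.reg r := by
    intro r a1 a2 a3
    simp [initE, exec_mov_reg, a1, a2, a3]
  have gm : (execL initE c5).mem = c5.mem := rfl
  have gp : (execL initE c5).pc = q + 72 := by
    rw [execL_pc (by simp [initE, plain]), p5', len_initE]
  generalize execL initE c5 = c6 at *
  have fr : ∀ r, r = 19 ∨ r = 26 ∨ r = 29 ∨ r = 21 → c5.reg r = c4.reg r := by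
    intro r hr
    apply ffr r <;> omega
  have bb6 : Bits c6 BW := by
    refine ⟨fun r => ?_, by rw [gm]; exact fb.2⟩
    by_cases a1 : r = 44
    · subst a1; rw [g44]; exact fb.1 41
    by_cases a2 : r = 41
    · subst a2; rw [g41]; exact fb.1 21
    by_cases a3 : r = 27
    · subst a3; rw [g27]; exact fb.1 29
    rw [gfr r a1 a2 a3]
    exact fb.1 r
  have hptr21 : c6.reg 41 = HP0 := by rw [g41, fr 21 (by simp)]; exact e21
  obtain ⟨c7, r7, p7, k17, k28, k41, k41', krep, kmem, kfr, kb⟩ := build_spec (P := P) (BW := BW) (q := q + 72) lr 4 (HP0 + 3 + 6 * n) hc6 (by omega) c6 gp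
    (by rw [g27, fr 29 (by simp), e29, hlr]) (by
      rw [gfr 28 (by norm_num) (by norm_num) (by norm_num), f28, hlr])
    (by rw [gfr 17 (by norm_num) (by norm_num) (by norm_num), f17])
    (by rw [gfr 19 (by norm_num) (by norm_num) (by norm_num), fr 19 (by simp)]; exact e19)
    (by rw [gfr 26 (by norm_num) (by norm_num) (by norm_num), fr 26 (by simp)]; exact e26)
    (by rw [hptr21]; omega) (by rw [hptr21]; simp)
    (by
      rw [hptr21]
      simp only [Int.toNat_natCast]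
      refine Rep.nil ?_
      rw [gm, fmem _ (by omega)]
      exact hnil)
    (by
      intro j hj
      rw [gm, fmem _ (by omega)]
      exact hcr j hj)
    (by rw [hlr, hHP]; omega) bb6 hsz2 hb2
  rw [hlr] at k17 k41' r7
  have e44 : c7.reg 44 = c5.reg 41 := by
    rw [kfr 44 (by norm_num) (by norm_num) (by norm_num) (by norm_num) (by norm_num) (by norm_num) (by norm_num), g44]
  refine ⟨c7, ?_, by rw [p7], kb, k17, ?_, ?_, k41, k41', krep, by rw [e44]; exact f41, by rw [e44]; omega, ?_⟩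
  · rw [len_initE] at r6
    exact r5.trans (r6.trans r7)
  · intro r a1 a2 a3 a4 a5 a6 a7 a8
    rw [kfr r a1 a2 a3 a4 a5 a6 a7, gfr r a8 a3 a1]
    exact ffr r a1 a2 a3 a4 a5 a6 a7
  · intro a ha
    rw [kmem a (by omega), gm]
    exact fmem a ha
  · rw [e44]
    exact frep.frame fun a ha => by
      rw [kmem a (by omega), gm]

theorem init_stage3 {P : List Instr} {BW Hmax q HP0 H1 S W : ℕ} {x y : Val} (hc7 : CodeAt P (q + 90) initF1)
    (hc8 : CodeAt P (q + 107) (allocPair 41 ++ zeroT)) (c7 : Conf) (p7 : c7.pc = q + 90) (bb7 : Bits c7 BW)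
    (hW : W = wid S) (e17 : c7.reg 17 = (H1 : ℤ)) (e18 : c7.reg 18 = S) (e19 : c7.reg 19 = 1) (e21 : c7.reg 21 = HP0)
    (e22 : c7.reg 22 = 2 ^ W) (e23 : c7.reg 23 = -2 ^ W) (hnil : c7.mem HP0 ≤ 0) (hHP : HP0 + 3 ≤ H1)
    (h41 : 0 ≤ c7.reg 41) (h41' : (c7.reg 41).toNat + 3 ≤ H1) (r41 : Rep c7.mem (c7.reg 41).toNat x)
    (h44 : 0 ≤ c7.reg 44) (h44' : (c7.reg 44).toNat + 3 ≤ H1) (r44 : Rep c7.mem (c7.reg 44).toNat y)
    (hpar : Par S BW Hmax) (hH : H1 + 3 ≤ Hmax) (hb3 : 3 ≤ BW) :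
    ∃ c', Reach P BW c7 c' 41 ∧ c'.pc = q + 131 ∧ Good S BW c' ∧ Live c' 16 (.pair x y) ∧ hp c' = H1 + 3 := by
  have hb1 : 1 ≤ BW := by omega
  have r8 := Reach.plain (BW := BW) (l := initF1) (c := c7) (by rw [p7]; exact hc7)
    (by simp [initF1, zeroT, plain]) (by simp [initF1, zeroT, smallB]) (by simp [initF1, zeroT]) hb1 bb7
  have hreg : ∀ r, (execL initF1 c7).reg r = if r < 16 then 0 else if r = 16 then c7.reg 44 else c7.reg r := by
    intro r
    simp only [initF1, execL_append, zeroT_reg, execL_cons, execL_nil, exec_mov_reg]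
  have hmem : (execL initF1 c7).mem = c7.mem := by
    simp only [initF1, execL_append, zeroT_mem, execL_cons, execL_nil, exec_mov_mem]
  have hp8 : (execL initF1 c7).pc = q + 107 := by
    rw [execL_pc (by simp [initF1, zeroT, plain]), p7, len_initF1]
  generalize execL initF1 c7 = c8 at *
  have rr : ∀ r, 17 ≤ r → c8.reg r = c7.reg r := by
    intro r hr
    rw [hreg, if_neg (by omega), if_neg (by omega)]
  have r16 : c8.reg 16 = c7.reg 44 := by
    rw [hreg, if_neg (by omega), if_pos rfl]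
  have ehp : hp c8 = H1 := by
    unfold hp
    rw [rr 17 (by omega), e17]
    simp
  have hg8 : Good S BW c8 := by
    refine ⟨fun r hr => ?_, ?_, ?_, ?_, ⟨?_, ?_, ?_⟩, ?_, ?_, ⟨fun r => ?_, fun a => ?_⟩⟩
    · rw [hreg, if_pos hr]
    · rw [rr 17 (by omega), e17]
      omega
    · rw [rr 18 (by omega), e18]
    · rw [rr 19 (by omega), e19]
    · rw [rr 21 (by omega), e21]
      omega
    · rw [ehp, rr 21 (by omega), e21]
      simpa using hHP
    · rw [rr 21 (by omega), e21, hmem]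
      simpa using Rep.nil hnil
    · rw [rr 22 (by omega), e22, hW]
    · rw [rr 23 (by omega), e23, hW]
    · by_cases h1 : r < 16
      · rw [hreg, if_pos h1]
        simp [bl]
      · by_cases h2 : r = 16
        · subst h2
          rw [r16]
          exact bb7.1 44
        · rw [rr r (by omega)]
          exact bb7.1 r
    · rw [hmem]
      exact bb7.2 a
  have l41 : Live c8 41 x := by
    refine ⟨by rw [rr 41 (by omega)]; exact h41, by rw [rr 41 (by omega), ehp]; exact h41', ?_⟩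
    rw [rr 41 (by omega), hmem]
    exact r41
  have l16 : Live c8 16 y := by
    refine ⟨by rw [r16]; exact h44, by rw [r16, ehp]; exact h44', ?_⟩
    rw [r16, hmem]
    exact r44
  obtain ⟨q1, q2, q3, q4, q5⟩ := alloc_pair hpar (u := 41) (by omega) hg8 hb3 l41 l16 (by rw [ehp]; exact hH)
  have r9 := Reach.plain (BW := BW) (l := allocPair 41 ++ zeroT) (c := c8) (by rw [hp8]; exact hc8)
    (allocPair_plain 41) (allocPair_small 41) (by rw [len_alloc]; omega) hb1 hg8.bits
  rw [len_alloc] at r9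
  rw [len_initF1] at r8
  refine ⟨_, r8.trans r9, ?_, q1, q2, ?_⟩
  · rw [execL_pc (allocPair_plain 41), hp8, len_alloc]
  · rw [q5, ehp]

theorem init_abs {P : List Instr} {BW Hmax q m n a b L S : ℕ} (lr lc : List ℤ) (v : ℕ → ℕ) (hc : CodeAt P q initCode)
    (c : Conf) (hpc : c.pc = q) (h0 : ∀ r, c.reg r = 0) (h1 : c.mem 0 = m) (h2 : c.mem 1 = n)
    (h3 : c.mem 2 = a) (h4 : c.mem 3 = b) (hM : ∀ x, bl (c.mem x) ≤ BW)
    (hv : ∀ j, j < m + n → c.mem (4 + j) = v j)
    (hL : L = m + n + a + 2 + Nat.size b + ∑ j ∈ Finset.range (m + n), Nat.size (v j))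
    (hlr : lr.length = m) (hlc : lc.length = n)
    (hcr : ∀ j (hj : j < lr.length), c.mem (4 + j) = lr[j]) (hcc : ∀ j (hj : j < lc.length), c.mem (4 + m + j) = lc[j])
    (hnil : c.mem (4 + (m + n)) ≤ 0) (hLB : L + 4 ≤ BW) (hL1 : 1 ≤ L) (hS : S = L ^ 100)
    (hpar : Par S BW Hmax) (hHm : 4 + (m + n) + 3 + 6 * n + 6 * m + 3 ≤ Hmax) :
    ∃ c', Reach P BW c c' (stepsI b m n L) ∧ c'.pc = q + initCode.length ∧ Good S BW c' ∧
      Live c' 16 (.pair (encList lr) (encList lc)) ∧ hp c' = 4 + (m + n) + 3 + 6 * n + 6 * m + 3 := by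
  have hb2 : 2 ≤ BW := by omega
  have hb3 : 3 ≤ BW := by omega
  have hBW := hpar.bw
  have hsH := hpar.sH
  have hc8 : CodeAt P (q + 107) (allocPair 41 ++ zeroT) := hc.right
  have hc7 : CodeAt P (q + 90) initF1 := hc.left.right
  have hc6 : CodeAt P (q + 72) (whileCode 27 buildBody) := hc.left.left.right
  have hc5 : CodeAt P (q + 69) initE := hc.left.left.left.right
  have hc4 : CodeAt P (q + 51) (whileCode 27 buildBody) := hc.left.left.left.left.right
  have hc3 : CodeAt P (q + 45) initD := hc.left.left.left.left.left.right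
  have hc2 : CodeAt P (q + 40) (whileCode 40 doubleBody) := hc.left.left.left.left.left.left.right
  have hc1 : CodeAt P (q + 28) initB := hc.left.left.left.left.left.left.left.right
  have hc0 : CodeAt P q codeA := hc.left.left.left.left.left.left.left.left
  obtain ⟨W, hW⟩ : ∃ W, W = wid S := ⟨_, rfl⟩
  obtain ⟨c4, r1, p4, hm4, bb4, e19, e26, e29, e18, e22, e23, e21, e17, e41, e27, e28⟩ :=
    init_stage1 (P := P) (BW := BW) (Hmax := Hmax) (q := q) (m := m) (n := n) (a := a) (b := b) (L := L) (S := S) (W := W)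
      v hc0 hc1 hc2 hc3 c hpc h0 h1 h2 h3 h4 hM hv hL hLB hL1 hS hW (by omega) hsH hHm
  obtain ⟨c7, r2, p7, bb7, k17, kfr, kmem, k41, k41', krep, k44, k44', krep'⟩ :=
    init_stage2 (P := P) (BW := BW) (q := q) (m := m) (n := n) (HP0 := 4 + (m + n)) lr lc hc4 hc5 hc6 c4 p4 bb4 rfl e19 e26 e29
      e21 e17 e41 e27 e28 (by rw [hm4]; exact hnil) hlr hlc (by intro j hj; rw [hm4]; exact hcr j hj)
      (by intro j hj; rw [hm4]; exact hcc j hj) hb2 ((Nat.size_le_size (by omega)).trans hsH)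
  have kk : ∀ r, r = 18 ∨ r = 19 ∨ r = 21 ∨ r = 22 ∨ r = 23 → c7.reg r = c4.reg r := by
    intro r hr
    apply kfr r <;> omega
  obtain ⟨c', r3, p', hg, hl, hh⟩ := init_stage3 (P := P) (BW := BW) (Hmax := Hmax) (q := q) (HP0 := 4 + (m + n))
    (H1 := 4 + (m + n) + 3 + 6 * n + 6 * m) (S := S) (W := W) (x := encList lr) (y := encList lc) hc7 hc8 c7 p7 bb7 hW k17
    (by rw [kk 18 (by simp)]; exact e18) (by rw [kk 19 (by simp)]; exact e19) (by rw [kk 21 (by simp)]; exact e21)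
    (by rw [kk 22 (by simp)]; exact e22) (by rw [kk 23 (by simp)]; exact e23)
    (by rw [kmem _ (by omega), hm4]; exact hnil) (by omega) k41 k41' krep k44 k44' krep' hpar hHm hb3
  refine ⟨c', ?_, by rw [p', len_initCode], hg, hl, hh⟩
  have := r1.trans (r2.trans r3)
  refine this.mono ?_
  unfold stepsI
  rw [← hS, ← hW]
  omega

end Vale.Agent.Lib.P328.Ram
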