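import Vale.Agent.Lib.P328.Ram.Cond

/-!
# P328: the code of a loop
-/

namespace Vale.Agent.Lib.P328.Ram

open Vale.Agent.Lib.P328.Bit (Val Prog sem time wid clamp arith)

theorem step_jpos {P : List Instr} {c : Conf} {s : ℕ} {off : ℤ} (h : P[c.pc]? = some (.jpos s off)) :
    step P c = PMF.pure (exec (.jpos s off) c) := by
  unfold step
  rw [h]

theorem step_jmp {P : List Instr} {c : Conf} {off : ℤ} (h : P[c.pc]? = some (.jmp off)) :
    step P c = PMF.pure (exec (.jmp off) c) := by
  unfold step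
  rw [h]

theorem run_one_det {P : List Instr} {c c' : Conf} (h : step P c = PMF.pure c') :
    run P 1 c = PMF.pure c' := by
  simp only [run, h, PMF.pure_bind]

theorem run_one_add {P : List Instr} {c c' : Conf} (h : step P c = PMF.pure c') (T : ℕ) :
    run P (1 + T) c = run P T c' := by
  rw [run_add, run_one_det h, PMF.pure_bind]

theorem After.of_same {S BW k pc' : ℕ} {i : Instr} {c : Conf} {v : Val} (hreg : (exec i c).reg = c.reg)
    (hmem : (exec i c).mem = c.mem) (hg : Good S BW c) (hl : Live c 16 v) (hpc : (exec i c).pc = pc')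
    (hi : smallConst i) (hb : 1 ≤ BW) : After S BW k 1 pc' c (exec i c) := by
  have ehp : hp (exec i c) = hp c := by
    unfold hp
    rw [hreg]
  refine ⟨hpc, hg.of_regs (fun r _ => by rw [hreg]) hmem (fun r => by rw [hreg]; exact hg.bits.1 r),
    ⟨v, hl.transfer (by rw [hreg]) ehp.ge (fun a _ => by rw [hmem])⟩, fun r _ _ => by rw [hreg],
    by rw [hreg], fun a _ => by rw [hmem], ehp.ge, by omega, ?_⟩
  have h1 := (exec_bits hi hb hg.bits).2
  have h2 : (1 + 2 * BW) ^ 2 ≤ Qc BW := by
    unfold Qc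
    apply Nat.pow_le_pow_left
    have : 1 ≤ 2 ^ 100 := Nat.one_le_two_pow
    nlinarith
  omega

/-- The iteration of the semantics of a loop. -/
theorem iter_bind {α : Type} (g : α → PMF α) (i : ℕ) (μ : PMF α) :
    (fun μ : PMF α => μ.bind g)^[i] μ = μ.bind fun x => (fun μ : PMF α => μ.bind g)^[i] (PMF.pure x) := by
  induction i generalizing μ with
  | zero => simp [PMF.bind_pure]
  | succ i ih =>
    simp only [Function.iterate_succ, Function.comp]
    rw [ih, PMF.bind_bind]
    congr 1
    funext x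
    rw [PMF.pure_bind, ih (g x)]

def codeLoop (k : ℕ) (cf : List Instr) : List Instr :=
  ([.mov k 18, .jpos k 2, .jmp ((cf.length : ℤ) + 3)] : List Instr) ++ cf ++
    [.sub k k 19, .jmp (-((cf.length : ℤ) + 3))]

/-- The loop from its head, with `i` rounds to go. -/
theorem loop_inner {P : List Instr} {S BW Hmax pc k τf n : ℕ} {f : Prog} {cf : List Instr}
    (hk : 24 ≤ k) (hpar : Par S BW Hmax) (hb1 : 1 ≤ BW) (hn : cf.length = n)
    (hc : CodeAt P pc (codeLoop k cf))
    (hf : Frag P S BW Hmax (pc + 3) (k + 1) τf n f) (i : ℕ) (hi : i ≤ S) :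
    ∀ c v, c.pc = pc + 1 → c.reg k = (i : ℤ) → Good S BW c → Live c 16 v →
      hp c + 3 * (i * (τf + 3) + 2) ≤ Hmax →
      (∀ c' ∈ (run P (i * (τf + 3) + 2) c).support, After S BW k (i * (τf + 3) + 2) (pc + (3 + n + 2)) c c') ∧
      (run P (i * (τf + 3) + 2) c).map dec = (fun μ : PMF Val => μ.bind (sem f S))^[i] (PMF.pure v) := by
  have hj1 : P[pc + 1]? = some (.jpos k 2) := by
    have := hc 1 (by simp [codeLoop])
    rw [this]
    simp [codeLoop]
  have hj2 : P[pc + 2]? = some (.jmp ((n : ℤ) + 3)) := by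
    have := hc 2 (by simp [codeLoop])
    rw [this, ← hn]
    simp [codeLoop]
  have hB : CodeAt P (pc + (3 + n)) [.sub k k 19, .jmp (-((n : ℤ) + 3))] := by
    have hc' : CodeAt P pc (([.mov k 18, .jpos k 2, .jmp ((n : ℤ) + 3)] : List Instr) ++ cf ++
        [.sub k k 19, .jmp (-((n : ℤ) + 3))]) := by
      rw [← hn]
      exact hc
    have := hc'.right
    simp only [List.length_append, List.length_cons, List.length_nil, hn] at this
    rw [show pc + (3 + n) = pc + (0 + 1 + 1 + 1 + n) by omega]
    exact this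
  have hj3 : P[pc + (3 + n)]? = some (.sub k k 19) := hB.head
  have hj4 : P[pc + (3 + n + 1)]? = some (.jmp (-((n : ℤ) + 3))) := hB.tail.head
  induction i with
  | zero =>
    intro c v hpc hki hg hl hH
    have hr : (exec (.jpos k 2) c).pc = pc + 2 := by
      simp only [exec, hki, hpc]
      simp
    have s1 : step P c = PMF.pure (exec (.jpos k 2) c) := step_jpos (by rw [hpc]; exact hj1)
    have hm1 : (exec (.jpos k 2) c).reg = c.reg := rfl
    have hmm1 : (exec (.jpos k 2) c).mem = c.mem := rfl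
    have a1 : After S BW k 1 (pc + 2) c (exec (.jpos k 2) c) :=
      After.of_same hm1 hmm1 hg hl hr (smallConst_of_not_const (by simp)) hb1
    have hl1 : Live (exec (.jpos k 2) c) 16 v :=
      hl.transfer (by rw [hm1]) a1.hp_le (fun a _ => by rw [hmm1])
    have s2 : step P (exec (.jpos k 2) c) = PMF.pure (exec (.jmp ((n : ℤ) + 3)) (exec (.jpos k 2) c)) :=
      step_jmp (by rw [hr]; exact hj2)
    have hr2 : (exec (.jmp ((n : ℤ) + 3)) (exec (.jpos k 2) c)).pc = pc + (3 + n + 2) := by
      simp only [exec, hki, hpc]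
      simp
      omega
    have a2 : After S BW k 1 (pc + (3 + n + 2)) (exec (.jpos k 2) c) (exec (.jmp ((n : ℤ) + 3)) (exec (.jpos k 2) c)) :=
      After.of_same rfl rfl a1.good hl1 hr2 (smallConst_of_not_const (by simp)) hb1
    have hl2 : Live (exec (.jmp ((n : ℤ) + 3)) (exec (.jpos k 2) c)) 16 v :=
      hl1.transfer rfl a2.hp_le (fun a _ => rfl)
    have hrun : run P (0 * (τf + 3) + 2) c = PMF.pure (exec (.jmp ((n : ℤ) + 3)) (exec (.jpos k 2) c)) := by
      rw [show 0 * (τf + 3) + 2 = 1 + 1 by omega, run_one_add s1, run_one_det s2]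
    rw [hrun, PMF.pure_map, hl2.dec_eq, PMF.support_pure]
    refine ⟨fun c' hc' => ?_, rfl⟩
    rw [Set.mem_singleton_iff] at hc'
    subst hc'
    rw [show 0 * (τf + 3) + 2 = 1 + 1 by omega]
    exact a1.trans a2
  | succ i ih =>
    intro c v hpc hki hg hl hH
    have ihi := ih (by omega)
    have hpos : 0 < c.reg k := by
      rw [hki]
      push_cast
      omega
    have hr : (exec (.jpos k 2) c).pc = pc + 3 := by
      simp only [exec, hpos, hpc, if_true]
      omega
    have s1 : step P c = PMF.pure (exec (.jpos k 2) c) := step_jpos (by rw [hpc]; exact hj1)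
    have hm1 : (exec (.jpos k 2) c).reg = c.reg := rfl
    have hmm1 : (exec (.jpos k 2) c).mem = c.mem := rfl
    set c1 := exec (.jpos k 2) c with hc1
    have a1 : After S BW k 1 (pc + 3) c c1 :=
      After.of_same hm1 hmm1 hg hl hr (smallConst_of_not_const (by simp)) hb1
    have hl1 : Live c1 16 v := hl.transfer (by rw [hm1]) a1.hp_le (fun a _ => by rw [hmm1])
    have hH' : hp c + 3 * (1 + (τf + (2 + (i * (τf + 3) + 2)))) ≤ Hmax := by
      have : (i + 1) * (τf + 3) + 2 = 1 + (τf + (2 + (i * (τf + 3) + 2))) := by ring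
      rw [← this]
      exact hH
    have ehp1 : hp c1 = hp c := by
      unfold hp
      rw [hm1]
    obtain ⟨f1, f2⟩ := hf c1 v hr a1.good hl1 (by rw [ehp1]; omega)
    -- going back to the head
    have hback : ∀ c2 ∈ (run P τf c1).support,
        let c3 := exec (.sub k k 19) c2
        let c4 := exec (.jmp (-((n : ℤ) + 3))) c3
        c4.pc = pc + 1 ∧ c4.reg k = (i : ℤ) ∧ Good S BW c4 ∧ (∃ w, Live c4 16 w) ∧ dec c4 = dec c2 ∧
        After S BW k 2 (pc + 1) c2 c4 ∧ run P 2 c2 = PMF.pure c4 ∧ hp c4 = hp c2 := by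
      intro c2 hc2 c3 c4
      have ha := f1 c2 hc2
      obtain ⟨w, hw⟩ := ha.live
      have hk2 : c2.reg k = ((i + 1 : ℕ) : ℤ) := by
        rw [ha.saved k hk (by omega), hm1, hki]
      have h19 : c2.reg 19 = 1 := ha.good.one
      have r3 : ∀ r, r ≠ k → c3.reg r = c2.reg r := by
        intro r hr
        simp [c3, exec_sub_reg, hr]
      have r3k : c3.reg k = (i : ℤ) := by
        simp [c3, exec_sub_reg, hk2, h19]
      have m3 : c3.mem = c2.mem := rfl
      have hp3 : hp c3 = hp c2 := by
        unfold hp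
        rw [r3 17 (by omega)]
      have pc3 : c3.pc = pc + (3 + n + 1) := by
        show c2.pc + 1 = _
        rw [ha.pc]
        omega
      have hbi : bl (i : ℤ) ≤ BW := by
        rw [bl_natCast]
        exact (Nat.size_le_size (by omega)).trans hpar.sS
      have g3 : Good S BW c3 := by
        refine ha.good.of_regs (fun r hr => r3 r (by omega)) m3 (fun r => ?_)
        by_cases h : r = k
        · subst h
          rw [r3k]
          exact hbi
        · rw [r3 r h]
          exact ha.good.bits.1 r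
      have hw3 : Live c3 16 w := hw.transfer (r3 16 (by omega)) hp3.ge (fun a _ => by rw [m3])
      have a3 : After S BW k 1 (pc + (3 + n + 1)) c2 c3 := by
        have e : pc + (3 + n + 1) = c2.pc + ([.sub k k 19] : List Instr).length := by
          rw [ha.pc]
          simp
          omega
        rw [e]
        exact After.of_plain (l := [.sub k k 19]) (by simp [plain]) (by simp [smallB]) (by simp) hb1 ha.good.bits rfl g3
          ⟨w, hw3⟩ (fun r h1 h2 => r3 r (by omega)) (r3 21 (by omega)) (fun a _ => by rw [m3]) hp3.ge (by omega)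
      have pc4 : c4.pc = pc + 1 := by
        show ((c3.pc : ℤ) + (-((n : ℤ) + 3))).toNat = _
        rw [pc3]
        push_cast
        omega
      have a4 : After S BW k 1 (pc + 1) c3 c4 :=
        After.of_same rfl rfl g3 hw3 pc4 (smallConst_of_not_const (by simp)) hb1
      have hw4 : Live c4 16 w := hw3.transfer rfl a4.hp_le (fun a _ => rfl)
      have s3 : step P c2 = PMF.pure c3 := step_plain (by rw [ha.pc, Nat.add_assoc]; exact hj3) rfl
      have s4 : step P c3 = PMF.pure c4 := step_jmp (by rw [pc3]; exact hj4)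
      refine ⟨pc4, r3k, a4.good, ⟨w, hw4⟩, ?_, ?_, ?_, ?_⟩
      · rw [hw4.dec_eq, hw.dec_eq]
      · exact a3.trans a4
      · rw [show 2 = 1 + 1 by omega, run_one_add s3, run_one_det s4]
      · have : hp c4 = hp c3 := by
          unfold hp
          rfl
        rw [this, hp3]
    have hHi : ∀ c2 ∈ (run P τf c1).support,
        hp (exec (.jmp (-((n : ℤ) + 3))) (exec (.sub k k 19) c2)) + 3 * (i * (τf + 3) + 2) ≤ Hmax := by
      intro c2 hc2
      obtain ⟨_, _, _, _, _, _, _, b8⟩ := hback c2 hc2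
      have ha := f1 c2 hc2
      have := ha.hp_le'
      rw [b8]
      omega
    have hrun : run P ((i + 1) * (τf + 3) + 2) c = (run P τf c1).bind fun c2 =>
        run P (i * (τf + 3) + 2) (exec (.jmp (-((n : ℤ) + 3))) (exec (.sub k k 19) c2)) := by
      rw [show (i + 1) * (τf + 3) + 2 = 1 + (τf + (2 + (i * (τf + 3) + 2))) by ring, run_one_add s1, run_add]
      apply bind_congr_support
      intro c2 hc2
      obtain ⟨_, _, _, _, _, _, b7, _⟩ := hback c2 hc2
      rw [run_add, b7, PMF.pure_bind]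
    refine ⟨fun c' hc' => ?_, ?_⟩
    · rw [hrun, PMF.mem_support_bind_iff] at hc'
      obtain ⟨c2, hc2, hc'⟩ := hc'
      obtain ⟨b1, b2, b3, ⟨w, hw⟩, b5, b6, b7, b8⟩ := hback c2 hc2
      have ha := f1 c2 hc2
      have h1 := (ihi _ w b1 b2 b3 hw (hHi c2 hc2)).1 c' hc'
      rw [show (i + 1) * (τf + 3) + 2 = 1 + τf + 2 + (i * (τf + 3) + 2) by ring]
      exact ((a1.trans (ha.mono (by omega))).trans b6).trans h1
    · rw [hrun, map_bind_eq]
      have : (run P τf c1).bind (fun a => PMF.map dec (run P (i * (τf + 3) + 2) (exec (.jmp (-((n : ℤ) + 3))) (exec (.sub k k 19) a)))) =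
          (run P τf c1).bind (fun a => (fun μ : PMF Val => μ.bind (sem f S))^[i] (PMF.pure (dec a))) := by
        apply bind_congr_support
        intro c2 hc2
        obtain ⟨b1, b2, b3, ⟨w, hw⟩, b5, b6, b7, b8⟩ := hback c2 hc2
        rw [(ihi _ w b1 b2 b3 hw (hHi c2 hc2)).2, ← b5, hw.dec_eq]
      rw [this]
      simp only [Function.iterate_succ, Function.comp, PMF.pure_bind]
      rw [iter_bind, ← f2, PMF.bind_map]
      rfl

theorem frag_loop {P : List Instr} {S BW Hmax pc k τf n : ℕ} {f : Prog} {cf : List Instr}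
    (hk : 24 ≤ k) (hpar : Par S BW Hmax) (hb1 : 1 ≤ BW) (hn : cf.length = n)
    (hc : CodeAt P pc (codeLoop k cf))
    (hf : Frag P S BW Hmax (pc + 3) (k + 1) τf n f) :
    Frag P S BW Hmax pc k (1 + (S * (τf + 3) + 2)) (3 + n + 2) (.loop f) := by
  intro c v hpc hg hl hH
  subst hpc
  have hc1 : CodeAt P c.pc [.mov k 18] := by
    have h3 := CodeAt.left (CodeAt.left hc)
    exact CodeAt.left (l₁ := [.mov k 18]) (l₂ := [.jpos k 2, .jmp ((cf.length : ℤ) + 3)]) h3
  set c0 := execL [.mov k 18] c with hc0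
  have e0 : run P 1 c = PMF.pure c0 := run_plain hc1 (by simp [plain])
  have g0 : Good S BW c0 := by
    simp only [hc0, execL_cons, execL_nil]
    exact good_mov (by omega) hg
  have p0 : c0.pc = c.pc + 1 := by simp [hc0, exec]
  have m0 : c0.mem = c.mem := by simp [hc0, exec]
  have hp0 : hp c0 = hp c := by
    simp only [hc0, execL_cons, execL_nil]
    exact hp_mov (by omega)
  have r0 : ∀ r, r ≠ k → c0.reg r = c.reg r := by
    intro r hr
    simp [hc0, exec_mov_reg, hr]
  have rk0 : c0.reg k = (S : ℤ) := by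
    simp [hc0, exec_mov_reg, hg.sreg]
  have l0 : Live c0 16 v := hl.transfer (r0 16 (by omega)) hp0.ge (fun a _ => by rw [m0])
  have a0 : After S BW k 1 (c.pc + 1) c c0 :=
    After.of_plain (l := [.mov k 18]) (by simp [plain]) (by simp [smallB]) (by simp) hb1 hg.bits rfl g0
      ⟨v, l0⟩ (fun r _ h => r0 r (by omega)) (r0 21 (by omega)) (fun a _ => by rw [m0]) hp0.ge (by omega)
  obtain ⟨i1, i2⟩ := loop_inner hk hpar hb1 hn hc hf S le_rfl c0 v p0 rk0 g0 l0 (by rw [hp0]; omega)
  rw [run_add, e0, PMF.pure_bind]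
  refine ⟨fun c' hc' => a0.trans (i1 c' hc'), ?_⟩
  rw [i2]
  rfl

end Vale.Agent.Lib.P328.Ram
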