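import Mathlib

/-!
# P328: a random access machine with the logarithmic cost criterion

Registers and memory cells hold integers. One step executes the instruction at the program counter.
`cost` is the logarithmic cost: an instruction costs the bit lengths of the numbers it reads, and a
multiplication or a division the square of that (schoolbook arithmetic).
`coin d` writes a fair bit to a register.
-/

namespace Vale.Agent.Lib.P328.Ram

/-- The bit length of an integer. -/
def bl (z : ℤ) : ℕ := Nat.size z.natAbs

/-- The instructions. `load d s`: `reg d := mem (reg s)`. `store d s`: `mem (reg d) := reg s`.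
`cmov d s t`: if `reg t > 0` then `reg d := reg s`. `jpos s off`: if `reg s > 0` jump by `off`.
`jmp off`: jump by `off`. -/
inductive Instr
  | const (d : ℕ) (z : ℤ)
  | mov (d s : ℕ)
  | load (d s : ℕ)
  | store (d s : ℕ)
  | add (d s t : ℕ)
  | sub (d s t : ℕ)
  | mul (d s t : ℕ)
  | div (d s t : ℕ)
  | cmov (d s t : ℕ)
  | jpos (s : ℕ) (off : ℤ)
  | jmp (off : ℤ)
  | coin (d : ℕ)
  | halt

/-- A configuration: program counter, registers, memory, and the cost so far. -/
structure Conf where
  pc : ℕ
  reg : ℕ → ℤ
  mem : ℕ → ℤ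
  cost : ℕ

/-- One deterministic step. -/
def exec : Instr → Conf → Conf
  | .const d z, c => ⟨c.pc + 1, Function.update c.reg d z, c.mem, c.cost + 1 + bl z⟩
  | .mov d s, c => ⟨c.pc + 1, Function.update c.reg d (c.reg s), c.mem, c.cost + 1 + bl (c.reg s)⟩
  | .load d s, c => ⟨c.pc + 1, Function.update c.reg d (c.mem (c.reg s).toNat), c.mem,
      c.cost + 1 + bl (c.reg s) + bl (c.mem (c.reg s).toNat)⟩
  | .store d s, c => ⟨c.pc + 1, c.reg, Function.update c.mem (c.reg d).toNat (c.reg s),
      c.cost + 1 + bl (c.reg d) + bl (c.reg s)⟩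
  | .add d s t, c => ⟨c.pc + 1, Function.update c.reg d (c.reg s + c.reg t), c.mem,
      c.cost + 1 + bl (c.reg s) + bl (c.reg t)⟩
  | .sub d s t, c => ⟨c.pc + 1, Function.update c.reg d (c.reg s - c.reg t), c.mem,
      c.cost + 1 + bl (c.reg s) + bl (c.reg t)⟩
  | .mul d s t, c => ⟨c.pc + 1, Function.update c.reg d (c.reg s * c.reg t), c.mem,
      c.cost + (1 + bl (c.reg s) + bl (c.reg t)) ^ 2⟩
  | .div d s t, c => ⟨c.pc + 1, Function.update c.reg d (c.reg s / c.reg t), c.mem,
      c.cost + (1 + bl (c.reg s) + bl (c.reg t)) ^ 2⟩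
  | .cmov d s t, c => ⟨c.pc + 1, if 0 < c.reg t then Function.update c.reg d (c.reg s) else c.reg,
      c.mem, c.cost + 1 + bl (c.reg s) + bl (c.reg t)⟩
  | .jpos s off, c => ⟨if 0 < c.reg s then ((c.pc : ℤ) + off).toNat else c.pc + 1, c.reg, c.mem,
      c.cost + 1 + bl (c.reg s)⟩
  | .jmp off, c => ⟨((c.pc : ℤ) + off).toNat, c.reg, c.mem, c.cost + 1⟩
  | .coin _, c => c
  | .halt, c => c

/-- The coin step, with outcome `b`. -/
def coinExec (d : ℕ) (b : Bool) (c : Conf) : Conf :=
  ⟨c.pc + 1, Function.update c.reg d (if b then 1 else 0), c.mem, c.cost + 1⟩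

/-- The law of the next configuration. A `halt`, or a program counter outside the program, stays. -/
noncomputable def step (P : List Instr) (c : Conf) : PMF Conf :=
  match P[c.pc]? with
  | none => PMF.pure c
  | some .halt => PMF.pure c
  | some (.coin d) => (PMF.uniformOfFintype Bool).map fun b => coinExec d b c
  | some i => PMF.pure (exec i c)

/-- The law of the configuration after `T` steps. -/
noncomputable def run (P : List Instr) : ℕ → Conf → PMF Conf
  | 0, c => PMF.pure c
  | T + 1, c => (step P c).bind (run P T)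

/-- The machine has stopped. -/
def Halted (P : List Instr) (c : Conf) : Prop := P[c.pc]? = some .halt ∨ P[c.pc]? = none

theorem run_add (P : List Instr) (a b : ℕ) (c : Conf) :
    run P (a + b) c = (run P a c).bind (run P b) := by
  induction a generalizing c with
  | zero => simp [run, PMF.pure_bind]
  | succ a ih =>
    rw [Nat.succ_add]
    simp only [run]
    rw [PMF.bind_bind]
    congr 1
    funext c'
    exact ih c'

theorem run_halted {P : List Instr} {c : Conf} (h : Halted P c) (T : ℕ) : run P T c = PMF.pure c := by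
  induction T with
  | zero => rfl
  | succ T ih =>
    have : step P c = PMF.pure c := by
      rcases h with h | h <;> simp [step, h]
    simp only [run, this, PMF.pure_bind, ih]

/-! ### Code at a position -/

/-- The list `l` of instructions sits in `P` at position `pc`. -/
def CodeAt (P : List Instr) (pc : ℕ) (l : List Instr) : Prop :=
  ∀ i, i < l.length → P[pc + i]? = l[i]?

theorem CodeAt.left {P : List Instr} {pc : ℕ} {l₁ l₂ : List Instr} (h : CodeAt P pc (l₁ ++ l₂)) :
    CodeAt P pc l₁ := by
  intro i hi
  have := h i (by simp; omega)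
  rw [this, List.getElem?_append_left hi]

theorem CodeAt.right {P : List Instr} {pc : ℕ} {l₁ l₂ : List Instr} (h : CodeAt P pc (l₁ ++ l₂)) :
    CodeAt P (pc + l₁.length) l₂ := by
  intro i hi
  have := h (l₁.length + i) (by simp; omega)
  rw [show pc + l₁.length + i = pc + (l₁.length + i) by omega, this,
    List.getElem?_append_right (by omega)]
  simp

theorem CodeAt.head {P : List Instr} {pc : ℕ} {i : Instr} {l : List Instr} (h : CodeAt P pc (i :: l)) :
    P[pc]? = some i := by
  have := h 0 (by simp)
  simpa using this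

theorem CodeAt.tail {P : List Instr} {pc : ℕ} {i : Instr} {l : List Instr} (h : CodeAt P pc (i :: l)) :
    CodeAt P (pc + 1) l := by
  exact CodeAt.right (l₁ := [i]) (l₂ := l) h

/-- Instructions that just go on to the next one. -/
def plain : Instr → Bool
  | .jpos _ _ => false
  | .jmp _ => false
  | .coin _ => false
  | .halt => false
  | _ => true

/-- Straight line execution. -/
def execL (l : List Instr) (c : Conf) : Conf := l.foldl (fun c i => exec i c) c

@[simp] theorem execL_nil (c : Conf) : execL [] c = c := rfl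
@[simp] theorem execL_cons (i : Instr) (l : List Instr) (c : Conf) :
    execL (i :: l) c = execL l (exec i c) := rfl
theorem execL_append (l₁ l₂ : List Instr) (c : Conf) :
    execL (l₁ ++ l₂) c = execL l₂ (execL l₁ c) := by
  simp [execL, List.foldl_append]

theorem exec_pc {i : Instr} (hi : plain i = true) (c : Conf) : (exec i c).pc = c.pc + 1 := by
  cases i <;> first | rfl | simp [plain] at hi

theorem execL_pc {l : List Instr} (hl : ∀ i ∈ l, plain i = true) (c : Conf) :
    (execL l c).pc = c.pc + l.length := by
  induction l generalizing c with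
  | nil => simp
  | cons i l ih =>
    rw [execL_cons, ih (fun j hj => hl j (List.mem_cons_of_mem _ hj)),
      exec_pc (hl i List.mem_cons_self)]
    simp
    omega

theorem step_plain {P : List Instr} {c : Conf} {i : Instr} (h : P[c.pc]? = some i)
    (hi : plain i = true) : step P c = PMF.pure (exec i c) := by
  unfold step
  rw [h]
  cases i <;> first | rfl | simp [plain] at hi

/-- A straight line block takes exactly its length in steps. -/
theorem run_plain {P : List Instr} {l : List Instr} {c : Conf} (hc : CodeAt P c.pc l)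
    (hl : ∀ i ∈ l, plain i = true) : run P l.length c = PMF.pure (execL l c) := by
  induction l generalizing c with
  | nil => rfl
  | cons i l ih =>
    have hi := hl i List.mem_cons_self
    have h1 := hc.head
    have h2 : CodeAt P (exec i c).pc l := by
      rw [exec_pc hi]
      exact hc.tail
    simp only [List.length_cons, run, step_plain h1 hi, PMF.pure_bind]
    rw [ih h2 (fun j hj => hl j (List.mem_cons_of_mem _ hj))]
    rfl

/-! ### Effect of one instruction -/

section Effect
variable (c : Conf) (r d s t : ℕ) (z : ℤ)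

theorem exec_const_reg : (exec (.const d z) c).reg r = if r = d then z else c.reg r := by
  simp [exec, Function.update_apply]
theorem exec_mov_reg : (exec (.mov d s) c).reg r = if r = d then c.reg s else c.reg r := by
  simp [exec, Function.update_apply]
theorem exec_load_reg : (exec (.load d s) c).reg r = if r = d then c.mem (c.reg s).toNat else c.reg r := by
  simp [exec, Function.update_apply]
theorem exec_add_reg : (exec (.add d s t) c).reg r = if r = d then c.reg s + c.reg t else c.reg r := by
  simp [exec, Function.update_apply]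
theorem exec_sub_reg : (exec (.sub d s t) c).reg r = if r = d then c.reg s - c.reg t else c.reg r := by
  simp [exec, Function.update_apply]
theorem exec_mul_reg : (exec (.mul d s t) c).reg r = if r = d then c.reg s * c.reg t else c.reg r := by
  simp [exec, Function.update_apply]
theorem exec_div_reg : (exec (.div d s t) c).reg r = if r = d then c.reg s / c.reg t else c.reg r := by
  simp [exec, Function.update_apply]
theorem exec_cmov_reg : (exec (.cmov d s t) c).reg r = if r = d ∧ 0 < c.reg t then c.reg s else c.reg r := by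
  simp only [exec]
  by_cases h : 0 < c.reg t
  · simp [h, Function.update_apply]
  · simp [h]
theorem exec_store_reg : (exec (.store d s) c).reg = c.reg := rfl
theorem exec_const_mem : (exec (.const d z) c).mem = c.mem := rfl
theorem exec_mov_mem : (exec (.mov d s) c).mem = c.mem := rfl
theorem exec_load_mem : (exec (.load d s) c).mem = c.mem := rfl
theorem exec_add_mem : (exec (.add d s t) c).mem = c.mem := rfl
theorem exec_sub_mem : (exec (.sub d s t) c).mem = c.mem := rfl
theorem exec_mul_mem : (exec (.mul d s t) c).mem = c.mem := rfl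
theorem exec_div_mem : (exec (.div d s t) c).mem = c.mem := rfl
theorem exec_cmov_mem : (exec (.cmov d s t) c).mem = c.mem := rfl
theorem exec_store_mem : (exec (.store d s) c).mem = Function.update c.mem (c.reg d).toNat (c.reg s) := rfl

end Effect

/-! ### Bit bounds and the cost of straight line code -/

/-- All numbers of the configuration have at most `b` bits. -/
def Bits (c : Conf) (b : ℕ) : Prop := (∀ r, bl (c.reg r) ≤ b) ∧ ∀ a, bl (c.mem a) ≤ b

theorem bl_le_iff {z : ℤ} {b : ℕ} : bl z ≤ b ↔ z.natAbs < 2 ^ b := Nat.size_le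

theorem bl_add_le {x y : ℤ} {b : ℕ} (hx : bl x ≤ b) (hy : bl y ≤ b) : bl (x + y) ≤ b + 1 := by
  rw [bl_le_iff] at *
  have := Int.natAbs_add_le x y
  rw [pow_succ]
  omega

theorem bl_sub_le {x y : ℤ} {b : ℕ} (hx : bl x ≤ b) (hy : bl y ≤ b) : bl (x - y) ≤ b + 1 := by
  rw [sub_eq_add_neg]
  apply bl_add_le hx
  simpa [bl] using hy

theorem bl_mul_le {x y : ℤ} {b : ℕ} (hx : bl x ≤ b) (hy : bl y ≤ b) : bl (x * y) ≤ 2 * b := by
  rw [bl_le_iff] at *
  rw [Int.natAbs_mul, two_mul, pow_add]
  exact Nat.mul_lt_mul'' hx hy

theorem bl_div_le {x y : ℤ} {b : ℕ} (hx : bl x ≤ b) : bl (x / y) ≤ b := by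
  rw [bl_le_iff] at *
  exact lt_of_le_of_lt (Int.natAbs_ediv_le_natAbs x y) hx

/-- Constants in the code are `0` or `1` or small. -/
def smallConst (i : Instr) : Prop := ∀ d z, i = .const d z → bl z ≤ 1

theorem exec_bits {i : Instr} (hi : smallConst i) {c : Conf} {b : ℕ} (hb : 1 ≤ b) (h : Bits c b) :
    Bits (exec i c) (2 * b + 1) ∧ (exec i c).cost ≤ c.cost + (1 + 2 * b) ^ 2 := by
  obtain ⟨hr, hm⟩ := h
  have hsq : ∀ u : ℕ, u ≤ 1 + 2 * b → u ≤ (1 + 2 * b) ^ 2 := fun u hu => by nlinarith
  have upd : ∀ (f : ℕ → ℤ) (d : ℕ) (z : ℤ), (∀ r, bl (f r) ≤ b) → bl z ≤ 2 * b + 1 →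
      ∀ r, bl (Function.update f d z r) ≤ 2 * b + 1 := by
    intro f d z hf hz r
    rw [Function.update_apply]
    split_ifs
    · exact hz
    · have := hf r
      omega
  have keep : ∀ (f : ℕ → ℤ), (∀ r, bl (f r) ≤ b) → ∀ r, bl (f r) ≤ 2 * b + 1 := fun f hf r => by
    have := hf r
    omega
  cases i with
  | const d z =>
    have hz := hi d z rfl
    refine ⟨⟨upd _ _ _ hr (by omega), keep _ hm⟩, ?_⟩
    simp only [exec]
    have := hsq (1 + bl z) (by omega)
    omega
  | mov d s =>
    refine ⟨⟨upd _ _ _ hr (by have := hr s; omega), keep _ hm⟩, ?_⟩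
    simp only [exec]
    have := hsq (1 + bl (c.reg s)) (by have := hr s; omega)
    omega
  | load d s =>
    refine ⟨⟨upd _ _ _ hr (by have := hm (c.reg s).toNat; omega), keep _ hm⟩, ?_⟩
    simp only [exec]
    have := hsq (1 + bl (c.reg s) + bl (c.mem (c.reg s).toNat)) (by
      have := hr s
      have := hm (c.reg s).toNat
      omega)
    omega
  | store d s =>
    refine ⟨⟨keep _ hr, upd _ _ _ hm (by have := hr s; omega)⟩, ?_⟩
    simp only [exec]
    have := hsq (1 + bl (c.reg d) + bl (c.reg s)) (by
      have := hr s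
      have := hr d
      omega)
    omega
  | add d s t =>
    refine ⟨⟨upd _ _ _ hr (by have := bl_add_le (hr s) (hr t); omega), keep _ hm⟩, ?_⟩
    simp only [exec]
    have := hsq (1 + bl (c.reg s) + bl (c.reg t)) (by
      have := hr s
      have := hr t
      omega)
    omega
  | sub d s t =>
    refine ⟨⟨upd _ _ _ hr (by have := bl_sub_le (hr s) (hr t); omega), keep _ hm⟩, ?_⟩
    simp only [exec]
    have := hsq (1 + bl (c.reg s) + bl (c.reg t)) (by
      have := hr s
      have := hr t
      omega)
    omega
  | mul d s t =>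
    refine ⟨⟨upd _ _ _ hr (by have := bl_mul_le (hr s) (hr t); omega), keep _ hm⟩, ?_⟩
    simp only [exec]
    have : (1 + bl (c.reg s) + bl (c.reg t)) ^ 2 ≤ (1 + 2 * b) ^ 2 :=
      Nat.pow_le_pow_left (by have := hr s; have := hr t; omega) 2
    omega
  | div d s t =>
    refine ⟨⟨upd _ _ _ hr (by have := bl_div_le (y := c.reg t) (hr s); omega), keep _ hm⟩, ?_⟩
    simp only [exec]
    have : (1 + bl (c.reg s) + bl (c.reg t)) ^ 2 ≤ (1 + 2 * b) ^ 2 :=
      Nat.pow_le_pow_left (by have := hr s; have := hr t; omega) 2
    omega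
  | cmov d s t =>
    refine ⟨⟨?_, keep _ hm⟩, ?_⟩
    · simp only [exec]
      split_ifs
      · exact upd _ _ _ hr (by have := hr s; omega)
      · exact keep _ hr
    · simp only [exec]
      have := hsq (1 + bl (c.reg s) + bl (c.reg t)) (by
        have := hr s
        have := hr t
        omega)
      omega
  | jpos s off =>
    refine ⟨⟨keep _ hr, keep _ hm⟩, ?_⟩
    simp only [exec]
    have := hsq (1 + bl (c.reg s)) (by have := hr s; omega)
    omega
  | jmp off =>
    refine ⟨⟨keep _ hr, keep _ hm⟩, ?_⟩
    simp only [exec]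
    have := hsq 1 (by omega)
    omega
  | coin d =>
    refine ⟨⟨keep _ hr, keep _ hm⟩, ?_⟩
    simp only [exec]
    omega
  | halt =>
    refine ⟨⟨keep _ hr, keep _ hm⟩, ?_⟩
    simp only [exec]
    omega

/-- The cost of straight line code is controlled by the bit bound at its start. -/
theorem execL_bits {l : List Instr} (hl : ∀ i ∈ l, smallConst i) {c : Conf} {b : ℕ} (hb : 1 ≤ b)
    (h : Bits c b) :
    Bits (execL l c) (2 ^ l.length * (b + 1)) ∧
      (execL l c).cost ≤ c.cost + l.length * (1 + 2 * (2 ^ l.length * (b + 1))) ^ 2 := by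
  induction l generalizing c b with
  | nil =>
    refine ⟨⟨fun r => ?_, fun a => ?_⟩, by simp⟩
    · have := h.1 r
      simp only [List.length_nil, pow_zero, one_mul, execL_nil]
      omega
    · have := h.2 a
      simp only [List.length_nil, pow_zero, one_mul, execL_nil]
      omega
  | cons i l ih =>
    obtain ⟨h1, h2⟩ := exec_bits (hl i List.mem_cons_self) hb h
    obtain ⟨h3, h4⟩ := ih (fun j hj => hl j (List.mem_cons_of_mem _ hj)) (b := 2 * b + 1) (by omega) h1
    have e : 2 ^ l.length * (2 * b + 1 + 1) = 2 ^ (i :: l).length * (b + 1) := by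
      simp only [List.length_cons, pow_succ]
      ring
    rw [e] at h3 h4
    refine ⟨h3, ?_⟩
    rw [execL_cons]
    have h5 : (1 + 2 * b) ^ 2 ≤ (1 + 2 * (2 ^ (i :: l).length * (b + 1))) ^ 2 := by
      apply Nat.pow_le_pow_left
      have : 1 ≤ 2 ^ (i :: l).length := Nat.one_le_two_pow
      nlinarith
    have h6 : (i :: l).length = l.length + 1 := by simp
    rw [h6] at h5 ⊢
    rw [h6] at h4
    nlinarith

/-- The cost per step of all straight line blocks of length at most `100`. -/
def Qc (b : ℕ) : ℕ := (1 + 2 * (2 ^ 100 * (b + 1))) ^ 2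

theorem execL_cost {l : List Instr} (hl : ∀ i ∈ l, smallConst i) (hn : l.length ≤ 100) {c : Conf}
    {b : ℕ} (hb : 1 ≤ b) (h : Bits c b) : (execL l c).cost ≤ c.cost + l.length * Qc b := by
  refine (execL_bits hl hb h).2.trans ?_
  have : (1 + 2 * (2 ^ l.length * (b + 1))) ^ 2 ≤ Qc b := by
    apply Nat.pow_le_pow_left
    have : 2 ^ l.length ≤ 2 ^ 100 := Nat.pow_le_pow_right (by norm_num) hn
    nlinarith
  exact Nat.add_le_add_left (Nat.mul_le_mul_left _ this) _

end Vale.Agent.Lib.P328.Ram
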