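import Vale.Agent.Lib.P328.Bit.Main
import Vale.Agent.Lib.P328.Ram.Init

/-!
# P328: the fully polynomial scheme as one program of the random access machine
-/

namespace Vale.Agent.Lib.P328.Ram

open Vale.Agent.Lib.P328.Bit (Val Prog sem time wid clamp arith time_poly encList enc lN sizeL mainF mainF_rep mainF_spec)
open Vale.Agent.Lib.P328.Cap (tabs)

/-- The input in memory: `m`, `n`, `a`, `b`, then the row margins, then the column margins; all other cells are zero. -/
def inputMem {m n : ℕ} (r : Fin m → ℕ) (c : Fin n → ℕ) (a b : ℕ) (i : ℕ) : ℤ :=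
  if i = 0 then m else if i = 1 then n else if i = 2 then a else if i = 3 then b
  else if h : i - 4 < m then r ⟨i - 4, h⟩
  else if h' : i - 4 - m < n then c ⟨i - 4 - m, h'⟩ else 0

/-- The start of a run: program counter, all registers and the cost zero, the input in memory. -/
def initConf {m n : ℕ} (r : Fin m → ℕ) (c : Fin n → ℕ) (a b : ℕ) : Conf :=
  ⟨0, fun _ => 0, inputMem r c a b, 0⟩

/-- The margins as one sequence. -/
def margin {m n : ℕ} (r : Fin m → ℕ) (c : Fin n → ℕ) (j : ℕ) : ℕ :=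
  if h : j < m then r ⟨j, h⟩ else if h' : j - m < n then c ⟨j - m, h'⟩ else 0

theorem inputMem_margin {m n : ℕ} (r : Fin m → ℕ) (c : Fin n → ℕ) (a b j : ℕ) :
    inputMem r c a b (4 + j) = margin r c j := by
  unfold inputMem margin
  have e : 4 + j - 4 = j := by omega
  rw [if_neg (by omega), if_neg (by omega), if_neg (by omega), if_neg (by omega)]
  simp only [e]
  split_ifs <;> simp

theorem sum_margin {m n : ℕ} (r : Fin m → ℕ) (c : Fin n → ℕ) :
    ∑ j ∈ Finset.range (m + n), Nat.size (margin r c j) = ∑ i, Nat.size (r i) + ∑ j, Nat.size (c j) := by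
  rw [Finset.sum_range_add, Finset.sum_range, Finset.sum_range]
  congr 1
  · refine Finset.sum_congr rfl fun i _ => ?_
    simp [margin]
  · refine Finset.sum_congr rfl fun j _ => ?_
    simp [margin]

theorem size_margin_le {m n : ℕ} (r : Fin m → ℕ) (c : Fin n → ℕ) (j : ℕ) :
    Nat.size (margin r c j) ≤ ∑ i, Nat.size (r i) + ∑ j, Nat.size (c j) := by
  unfold margin
  split_ifs with h h'
  · have := Finset.single_le_sum (f := fun i => Nat.size (r i)) (fun _ _ => Nat.zero_le _) (Finset.mem_univ (⟨j, h⟩ : Fin m))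
    omega
  · have := Finset.single_le_sum (f := fun i => Nat.size (c i)) (fun _ _ => Nat.zero_le _) (Finset.mem_univ (⟨j - m, h'⟩ : Fin n))
    omega
  · simp

theorem bl_inputMem {m n : ℕ} (r : Fin m → ℕ) (c : Fin n → ℕ) (a b i : ℕ) :
    bl (inputMem r c a b i) ≤ sizeL r c a b := by
  unfold sizeL
  by_cases h : 4 ≤ i
  · obtain ⟨j, rfl⟩ : ∃ j, i = 4 + j := ⟨i - 4, by omega⟩
    rw [inputMem_margin, bl_natCast]
    have := size_margin_le r c j
    omega
  · unfold inputMem
    split_ifs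
    · rw [bl_natCast]
      have := size_le_self' m
      omega
    · rw [bl_natCast]
      have := size_le_self' n
      omega
    · rw [bl_natCast]
      have := size_le_self' a
      omega
    · rw [bl_natCast]
      omega
    all_goals omega

/-- The last instructions: the number in the output node to register `0`, and stop. -/
def finalL : List Instr := [.add 1 16 19, .load 0 1]

/-- The program. -/
def ramProg (p : Prog) : List Instr := initCode ++ code p 24 ++ (finalL ++ [.halt])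

theorem ramProg_spec_init (p : Prog) : CodeAt (ramProg p) 0 initCode := by
  intro i hi
  unfold ramProg
  simp only [Nat.zero_add]
  rw [List.append_assoc, List.getElem?_append_left hi]

theorem CodeAt.of_eq {P : List Instr} {l₁ l₂ : List Instr} {q : ℕ} (h : CodeAt (l₁ ++ l₂) q l₂) (e : P = l₁ ++ l₂) :
    CodeAt P q l₂ := e ▸ h

theorem codeAt_append (l₁ l₂ l₃ : List Instr) : CodeAt (l₁ ++ l₂ ++ l₃) l₁.length l₂ := by
  intro i hi
  rw [List.append_assoc, List.getElem?_append_right (by omega)]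
  simp only [Nat.add_sub_cancel_left]
  rw [List.getElem?_append_left hi]

theorem codeAt_end (l₁ l₂ : List Instr) : CodeAt (l₁ ++ l₂) l₁.length l₂ := by
  intro i hi
  rw [List.getElem?_append_right (by omega)]
  simp

/-! ### The numbers -/

theorem steps_bound {b m n L W X τ : ℕ} (hb : Nat.size b ≤ L) (hmn : m + n ≤ L) (hW : wid (L ^ 100) = W)
    (hWX : W ≤ X) (hLL : L * L ≤ X) (hLX : L ≤ X) (hτ : τ ≤ X) (hX : 1 ≤ X) :
    stepsI b m n L + τ + 2 ≤ 140 * X := by
  unfold stepsI stepsA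
  rw [hW]
  have h1 : (m + n) * (1 + (L * (2 + 2) + 2) + 2 + 2) ≤ L * (1 + (L * (2 + 2) + 2) + 2 + 2) :=
    Nat.mul_le_mul_right _ hmn
  have h2 : L * (1 + (L * (2 + 2) + 2) + 2 + 2) = 4 * (L * L) + 7 * L := by ring
  have h3 : Nat.size b * (2 + 2) ≤ L * (2 + 2) := Nat.mul_le_mul_right _ hb
  have h4 : n * (15 + 2) ≤ L * (15 + 2) := Nat.mul_le_mul_right _ (by omega)
  have h5 : m * (15 + 2) ≤ L * (15 + 2) := Nat.mul_le_mul_right _ (by omega)
  omega

theorem Qc_bound {BW X : ℕ} (h : BW + 1 ≤ 30 * X) (hX : 1 ≤ X) : Qc BW ≤ 2 ^ 212 * X ^ 2 := by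
  unfold Qc
  have h1 : 1 + 2 * (2 ^ 100 * (BW + 1)) ≤ 2 ^ 106 * X := by
    have h2 : 2 ^ 100 * (BW + 1) ≤ 2 ^ 100 * (30 * X) := Nat.mul_le_mul_left _ h
    have h3 : (2 : ℕ) ^ 106 = 64 * 2 ^ 100 := by norm_num
    rw [h3]
    have h4 : 1 ≤ 2 ^ 100 * X := Nat.mul_pos (by positivity) hX
    nlinarith
  calc (1 + 2 * (2 ^ 100 * (BW + 1))) ^ 2 ≤ (2 ^ 106 * X) ^ 2 := Nat.pow_le_pow_left h1 2
    _ = 2 ^ 212 * X ^ 2 := by ring

theorem total_bound {Tb Q X L : ℕ} (h1 : Tb ≤ 140 * X) (h2 : Q ≤ 2 ^ 212 * X ^ 2) (hL : 2 ≤ L) :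
    Tb * Q ≤ L ^ 220 * X ^ 3 := by
  have h3 : (2 : ℕ) ^ 220 ≤ L ^ 220 := Nat.pow_le_pow_left hL 220
  calc Tb * Q ≤ (140 * X) * (2 ^ 212 * X ^ 2) := Nat.mul_le_mul h1 h2
    _ = (140 * 2 ^ 212) * X ^ 3 := by ring
    _ ≤ 2 ^ 220 * X ^ 3 := Nat.mul_le_mul_right _ (by norm_num)
    _ ≤ L ^ 220 * X ^ 3 := Nat.mul_le_mul_right _ h3

/-! ### The run -/

section Run

variable {m n : ℕ} (p : Prog) (r : Fin m → ℕ) (c : Fin n → ℕ) (a b : ℕ)

/-- Everything about the run of the program on one input. -/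
theorem ram_run (hm : 0 < m) (hn : 0 < n) (ha : 0 < a) (S BW Hmax : ℕ) (hS : S = sizeL r c a b ^ 100)
    (hHmax : Hmax = 4 + (m + n) + 3 + 6 * n + 6 * m + 3 + 3 * tau p S)
    (hBW : BW = wid S + 3 + sizeL r c a b + 4 + Nat.size Hmax) :
    ∃ T c1, T ≤ stepsI b m n (sizeL r c a b) ∧ c1.cost ≤ stepsI b m n (sizeL r c a b) * Qc BW ∧
      run (ramProg p) T (initConf r c a b) = PMF.pure c1 ∧
      (∀ c2 ∈ (run (ramProg p) (tau p S) c1).support,
        Halted (ramProg p) (execL finalL c2) ∧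
        (execL finalL c2).cost ≤ c1.cost + (tau p S + 2) * Qc BW ∧
        run (ramProg p) 2 c2 = PMF.pure (execL finalL c2) ∧
        ∀ y : ℤ, dec c2 = .num y → (execL finalL c2).reg 0 = y) ∧
      (run (ramProg p) (tau p S) c1).map dec =
        sem p S (.pair (encList (lN r)) (encList (lN c))) := by
  obtain ⟨L, hL⟩ : ∃ L, L = sizeL r c a b := ⟨_, rfl⟩
  rw [← hL] at hS hBW ⊢
  have hLdef : L = m + n + ∑ i, Nat.size (r i) + ∑ j, Nat.size (c j) + a + Nat.size b + 2 := hL
  have hSL : L ≤ S := by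
    rw [hS]
    exact Nat.le_self_pow (by norm_num) L
  have hL1 : 1 ≤ L := by omega
  have hS1 : S ≤ wid S := by
    unfold wid
    exact Nat.le_self_pow (by norm_num) S
  have hpar : Par S BW Hmax :=
    ⟨by omega, (size_le_self' S).trans (by omega), by omega⟩
  have hLB : L + 4 ≤ BW := by omega
  have hMbits : ∀ x, bl ((initConf r c a b).mem x) ≤ BW := by
    intro x
    have := bl_inputMem r c a b x
    rw [← hL] at this
    show bl (inputMem r c a b x) ≤ BW
    omega
  have hinp : ∀ j, (initConf r c a b).mem (4 + j) = margin r c j := fun j => inputMem_margin r c a b j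
  have hlrlen : (lN r).length = m := by simp [lN]
  have hlclen : (lN c).length = n := by simp [lN]
  have hcr : ∀ j (hj : j < (lN r).length), (initConf r c a b).mem (4 + j) = (lN r)[j] := by
    intro j hj
    have hj' : j < m := by rw [hlrlen] at hj; exact hj
    rw [hinp]
    simp [lN, margin, hj']
  have hcc : ∀ j (hj : j < (lN c).length), (initConf r c a b).mem (4 + m + j) = (lN c)[j] := by
    intro j hj
    have hj' : j < n := by rw [hlclen] at hj; exact hj
    rw [show 4 + m + j = 4 + (m + j) by omega, hinp]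
    simp [lN, margin, hj']
  have hnil : (initConf r c a b).mem (4 + (m + n)) ≤ 0 := by
    rw [hinp]
    simp [margin]
  obtain ⟨c1, ⟨T, hT, hrun, hcost⟩, hp1, hg1, hl1, hh1⟩ := init_abs (P := ramProg p) (BW := BW) (Hmax := Hmax) (q := 0)
    (m := m) (n := n) (a := a) (b := b) (L := L) (S := S) (lN r) (lN c) (margin r c) (ramProg_spec_init p) (initConf r c a b)
    rfl (fun _ => rfl) (by show inputMem r c a b 0 = m; simp [inputMem])
    (by show inputMem r c a b 1 = n; simp [inputMem]) (by show inputMem r c a b 2 = a; simp [inputMem])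
    (by show inputMem r c a b 3 = b; simp [inputMem]) hMbits (fun j _ => hinp j)
    (by
      rw [sum_margin, hL]
      unfold sizeL
      omega)
    hlrlen hlclen hcr hcc hnil hLB hL1 hS hpar (by omega)
  have hcost' : c1.cost ≤ stepsI b m n L * Qc BW := by
    have : (initConf r c a b).cost = 0 := rfl
    omega
  refine ⟨T, c1, hT, hcost', hrun, ?_⟩
  -- the code of the program
  have hc1 : CodeAt (ramProg p) initCode.length (code p 24) := codeAt_append _ _ _
  have hpc1 : c1.pc = initCode.length := by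
    simpa using hp1
  have hfr := code_frag (P := ramProg p) (S := S) (BW := BW) (Hmax := Hmax) hpar (by omega) p 24 initCode.length le_rfl hc1
  obtain ⟨f1, f2⟩ := hfr c1 _ hpc1 hg1 hl1 (by rw [hh1, hHmax])
  refine ⟨fun c2 hc2 => ?_, f2⟩
  have ha2 := f1 c2 hc2
  have hc3 : CodeAt (ramProg p) (initCode ++ code p 24).length (finalL ++ [.halt]) := codeAt_end _ _
  have hpc2 : c2.pc = (initCode ++ code p 24).length := by
    rw [ha2.pc]
    simp
  have hrun2 := run_plain (P := ramProg p) (l := finalL) (c := c2) (by rw [hpc2]; exact hc3.left)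
    (by simp [finalL, plain])
  have hbits2 := ha2.good.bits
  have hcost2 := execL_cost (l := finalL) (c := c2) (fun i hi => smallB_spec (by
    simp only [finalL, List.mem_cons, List.not_mem_nil, or_false] at hi
    rcases hi with rfl | rfl <;> rfl)) (by simp [finalL]) (by omega : 1 ≤ BW) hbits2
  have hlen2 : finalL.length = 2 := rfl
  rw [hlen2] at hrun2 hcost2
  refine ⟨?_, ?_, hrun2, ?_⟩
  · left
    rw [execL_pc (by simp [finalL, plain]), hpc2, hlen2]
    have := hc3.right.head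
    simpa [hlen2] using this
  · have := ha2.cost
    rw [Nat.add_mul]
    omega
  · intro y hy
    obtain ⟨w, hw⟩ := ha2.live
    rw [hw.dec_eq] at hy
    subst hy
    have h19 := ha2.good.one
    have e1 : (c2.reg 16 + 1).toNat = (c2.reg 16).toNat + 1 := by
      have := hw.1
      omega
    have : (execL finalL c2).reg 0 = c2.mem ((c2.reg 16).toNat + 1) := by
      simp [finalL, exec_load_reg, exec_add_reg, h19, e1, exec_add_mem]
    rw [this]
    have hr := hw.2.2
    generalize (c2.reg 16).toNat = x at hr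
    cases hr with
    | num _ h => exact h

end Run

/-! ### The theorem -/

theorem ram_aux {p : Prog} {e0 : ℕ} (hp : ∀ (S : ℕ) (x : List ℤ × List ℤ), sem p S (enc x) = (mainF S x).map enc)
    (he0 : ∀ S : ℕ, 2 ≤ S → tau p S ≤ S ^ e0) {m n : ℕ} (r : Fin m → ℕ) (c : Fin n → ℕ) (a b L : ℕ)
    (hm : 0 < m) (hn : 0 < n) (hsum : ∑ i, r i = ∑ j, c j) (ha : 0 < a) (hb : 0 < b) (hL : L = sizeL r c a b) :
    (∀ c' ∈ (run (ramProg p) (L ^ (220 + 3 * (600 + 100 * e0))) (initConf r c a b)).support,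
      Halted (ramProg p) c' ∧ c'.cost ≤ L ^ (220 + 3 * (600 + 100 * e0))) ∧
    ENNReal.ofReal (1 - 1 / (b : ℝ)) ≤
      (run (ramProg p) (L ^ (220 + 3 * (600 + 100 * e0))) (initConf r c a b)).toOuterMeasure
        {c' | (1 - 1 / (a : ℝ)) * ((tabs r c).card : ℝ) ≤ (c'.reg 0 : ℝ) ∧
          (c'.reg 0 : ℝ) ≤ (1 + 1 / (a : ℝ)) * ((tabs r c).card : ℝ)} := by
  have hLdef : L = m + n + ∑ i, Nat.size (r i) + ∑ j, Nat.size (c j) + a + Nat.size b + 2 := hL
  have hL2 : 2 ≤ L := by omega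
  obtain ⟨S, hS⟩ : ∃ S, S = L ^ 100 := ⟨_, rfl⟩
  obtain ⟨τ, hτ⟩ : ∃ τ, τ = tau p S := ⟨_, rfl⟩
  obtain ⟨Hmax, hHmax⟩ : ∃ Hmax, Hmax = 4 + (m + n) + 3 + 6 * n + 6 * m + 3 + 3 * tau p S := ⟨_, rfl⟩
  obtain ⟨BW, hBW⟩ : ∃ BW, BW = wid S + 3 + L + 4 + Nat.size Hmax := ⟨_, rfl⟩
  obtain ⟨X, hX⟩ : ∃ X, X = L ^ (600 + 100 * e0) := ⟨_, rfl⟩
  obtain ⟨E, hE⟩ : ∃ E, E = L ^ (220 + 3 * (600 + 100 * e0)) := ⟨_, rfl⟩
  rw [← hE]
  have hEX : E = L ^ 220 * X ^ 3 := by
    rw [hE, hX]
    ring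
  have hX1 : 1 ≤ X := by
    rw [hX]
    exact Nat.one_le_pow _ _ (by omega)
  have hpow : ∀ k, k ≤ 600 + 100 * e0 → L ^ k ≤ X := by
    intro k hk
    rw [hX]
    exact Nat.pow_le_pow_right (by omega) hk
  have hS2 : 2 ≤ S := by
    rw [hS]
    exact hL2.trans (Nat.le_self_pow (by norm_num) L)
  have hτX : τ ≤ X := by
    rw [hτ]
    refine (he0 S hS2).trans ?_
    rw [hS, ← pow_mul]
    exact hpow _ (by omega)
  have hWeq : wid S = L ^ 600 := by
    rw [hS]
    unfold Vale.Agent.Lib.P328.Bit.wid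
    ring
  have hWX : wid S ≤ X := by
    rw [hWeq]
    exact hpow _ (by omega)
  have hLX : L ≤ X := by
    have := hpow 1 (by omega)
    simpa using this
  have hLLX : L * L ≤ X := by
    have := hpow 2 (by omega)
    rwa [pow_two] at this
  have hmnL : m + n ≤ L := by omega
  have hbL : Nat.size b ≤ L := by omega
  have hsteps := steps_bound (b := b) (m := m) (n := n) (L := L) (W := wid S) (X := X) (τ := τ) hbL hmnL
    (by rw [← hS]) hWX hLLX hLX hτX hX1
  have hHX : Hmax ≤ 20 * X := by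
    rw [hHmax, ← hτ]
    omega
  have hBWX : BW + 1 ≤ 30 * X := by
    have := size_le_self' Hmax
    omega
  have hQ := Qc_bound hBWX hX1
  have htotal := total_bound (Tb := stepsI b m n L + τ + 2) hsteps hQ hL2
  rw [← hEX] at htotal
  have hQ1 : 1 ≤ Qc BW := Qc_pos BW
  have hTE : stepsI b m n L + τ + 2 ≤ E := by
    calc stepsI b m n L + τ + 2 = (stepsI b m n L + τ + 2) * 1 := by ring
      _ ≤ (stepsI b m n L + τ + 2) * Qc BW := Nat.mul_le_mul_left _ hQ1
      _ ≤ E := htotal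
  obtain ⟨T, c1, hT, hc1, hrun, hsup, hlaw⟩ := ram_run p r c a b hm hn ha S BW Hmax (by rw [hS, hL]) hHmax
    (by rw [hBW, hL])
  rw [← hL] at hT hc1
  rw [← hτ] at hsup hlaw
  obtain ⟨R, hR⟩ : ∃ R, E = T + (τ + (2 + R)) := ⟨E - (T + τ + 2), by omega⟩
  have hμ : run (ramProg p) E (initConf r c a b) = (run (ramProg p) τ c1).map (execL finalL) := by
    rw [hR, run_add, hrun, PMF.pure_bind, run_add]
    have e : PMF.map (execL finalL) (run (ramProg p) τ c1) = (run (ramProg p) τ c1).bind (PMF.pure ∘ execL finalL) := rfl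
    rw [e]
    apply bind_congr_support
    intro c2 hc2
    obtain ⟨h1, h2, h3, h4⟩ := hsup c2 hc2
    rw [run_add, h3, PMF.pure_bind, run_halted h1]
    rfl
  rw [hμ]
  constructor
  · intro c' hc'
    rw [PMF.support_map] at hc'
    obtain ⟨c2, hc2, rfl⟩ := hc'
    obtain ⟨h1, h2, h3, h4⟩ := hsup c2 hc2
    refine ⟨h1, h2.trans ?_⟩
    refine le_trans ?_ htotal
    have : (stepsI b m n L + τ + 2) * Qc BW = stepsI b m n L * Qc BW + (τ + 2) * Qc BW := by ring
    omega
  · have hspec := mainF_spec hm hn r c hsum ha hb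
    rw [← hL, ← hS] at hspec
    refine hspec.trans ?_
    rw [PMF.toOuterMeasure_map_apply]
    have hx : sem p S (.pair (encList (lN r)) (encList (lN c))) = (mainF S (lN r, lN c)).map enc := hp S (lN r, lN c)
    have hG : (mainF S (lN r, lN c)).toOuterMeasure
        {y : ℤ | (1 - 1 / (a : ℝ)) * ((tabs r c).card : ℝ) ≤ y ∧ (y : ℝ) ≤ (1 + 1 / (a : ℝ)) * ((tabs r c).card : ℝ)} ≤
        ((run (ramProg p) τ c1).map dec).toOuterMeasure
          {w | ∃ y : ℤ, w = .num y ∧ (1 - 1 / (a : ℝ)) * ((tabs r c).card : ℝ) ≤ y ∧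
            (y : ℝ) ≤ (1 + 1 / (a : ℝ)) * ((tabs r c).card : ℝ)} := by
      rw [hlaw, hx, PMF.toOuterMeasure_map_apply]
      refine MeasureTheory.OuterMeasure.mono _ ?_
      rintro y ⟨h1, h2⟩
      exact ⟨y, rfl, h1, h2⟩
    refine hG.trans ?_
    rw [PMF.toOuterMeasure_map_apply, ← PMF.toOuterMeasure_apply_inter_support]
    refine MeasureTheory.OuterMeasure.mono _ ?_
    rintro c2 ⟨⟨y, h1, h2, h3⟩, hc2⟩
    obtain ⟨_, _, _, h4⟩ := hsup c2 hc2
    have h5 := h4 y h1
    show _ ∧ _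
    simp only [h5]
    exact ⟨h2, h3⟩

/-- **One program of the random access machine approximates the number of contingency tables.** -/
theorem ram_fpras :
    ∃ (P : List Instr) (e : ℕ), ∀ (m n : ℕ) (r : Fin m → ℕ) (c : Fin n → ℕ) (a b : ℕ),
      0 < m → 0 < n → ∑ i, r i = ∑ j, c j → 0 < a → 0 < b →
      let L := m + n + ∑ i, Nat.size (r i) + ∑ j, Nat.size (c j) + a + Nat.size b + 2
      (∀ c' ∈ (run P (L ^ e) (initConf r c a b)).support, Halted P c' ∧ c'.cost ≤ L ^ e) ∧
      ENNReal.ofReal (1 - 1 / (b : ℝ)) ≤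
        (run P (L ^ e) (initConf r c a b)).toOuterMeasure
          {c' | (1 - 1 / (a : ℝ)) * ((tabs r c).card : ℝ) ≤ (c'.reg 0 : ℝ) ∧
            (c'.reg 0 : ℝ) ≤ (1 + 1 / (a : ℝ)) * ((tabs r c).card : ℝ)} := by
  obtain ⟨p, hp⟩ := mainF_rep
  obtain ⟨e0, he0⟩ := tau_poly p
  refine ⟨ramProg p, 220 + 3 * (600 + 100 * e0), fun m n r c a b hm hn hsum ha hb => ?_⟩
  intro L
  exact ram_aux hp he0 r c a b L hm hn hsum ha hb rfl

end Vale.Agent.Lib.P328.Ram
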