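import Vale.Agent.Lib.P328.Ram.Rep

/-!
# P328: code of the basic operations of the bit language
-/

namespace Vale.Agent.Lib.P328.Ram

open Vale.Agent.Lib.P328.Bit (Val Prog sem time wid clamp arith)

/-- Put a new number node on the heap, the number in register `t`. -/
def allocNum (t : ℕ) : List Instr :=
  [.store 17 19, .add 0 17 19, .store 0 t, .mov 16 17, .add 1 19 19, .add 1 1 19, .add 17 17 1]

theorem allocNum_spec (c : Conf) (t : ℕ) (h0 : t ≠ 0) (h1 : t ≠ 1) (h19 : c.reg 19 = 1)
    (hh : 0 ≤ c.reg 17) :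
    (execL (allocNum t) c).reg 16 = c.reg 17 ∧ (execL (allocNum t) c).reg 17 = c.reg 17 + 3 ∧
    (∀ r, r ≠ 0 → r ≠ 1 → r ≠ 16 → r ≠ 17 → (execL (allocNum t) c).reg r = c.reg r) ∧
    (execL (allocNum t) c).mem =
      Function.update (Function.update c.mem (c.reg 17).toNat 1) ((c.reg 17).toNat + 1) (c.reg t) := by
  have e1 : (c.reg 17 + 1).toNat = (c.reg 17).toNat + 1 := by omega
  refine ⟨?_, ?_, ?_, ?_⟩
  · simp [allocNum, exec, Function.update_apply, h0]
  · simp [allocNum, exec, Function.update_apply, h19]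
  · intro r hr0 hr1 hr16 hr17
    simp [allocNum, exec, Function.update_apply, hr0, hr1, hr16, hr17]
  · simp [allocNum, exec, Function.update_apply, h0, h19, e1]

/-- After a block that wrote only scratch registers and produced `z` in register `t`: allocate and
clean up. -/
theorem alloc_num {S BW Hmax : ℕ} (hpar : Par S BW Hmax) {c0 c1 : Conf} {t : ℕ} (ht0 : t ≠ 0)
    (ht1 : t ≠ 1) {z : ℤ} (hg : Good S BW c0) (hregs : ∀ r, 16 ≤ r → c1.reg r = c0.reg r)
    (hmem : c1.mem = c0.mem) (hz : c1.reg t = z) (hbl : bl z ≤ BW) (hH : hp c0 + 3 ≤ Hmax) :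
    Good S BW (execL (allocNum t ++ zeroT) c1) ∧ Live (execL (allocNum t ++ zeroT) c1) 16 (.num z) ∧
      (∀ r, 24 ≤ r → (execL (allocNum t ++ zeroT) c1).reg r = c0.reg r) ∧
      (execL (allocNum t ++ zeroT) c1).reg 21 = c0.reg 21 ∧
      (∀ a, a < hp c0 → (execL (allocNum t ++ zeroT) c1).mem a = c0.mem a) ∧
      hp (execL (allocNum t ++ zeroT) c1) = hp c0 + 3 := by
  have h19 : c1.reg 19 = 1 := by rw [hregs 19 (by omega)]; exact hg.one
  have h17 : c1.reg 17 = c0.reg 17 := hregs 17 (by omega)
  have hh : 0 ≤ c1.reg 17 := by rw [h17]; exact hg.hp_nonneg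
  obtain ⟨a1, a2, a3, a4⟩ := allocNum_spec c1 t ht0 ht1 h19 hh
  rw [execL_append]
  set c2 := execL (allocNum t) c1 with hc2
  set c' := execL zeroT c2 with hc'
  have hreg : ∀ r, c'.reg r = if r < 16 then 0 else c2.reg r := fun r => zeroT_reg c2 r
  have hm' : c'.mem = c2.mem := zeroT_mem c2
  have r16 : c'.reg 16 = c0.reg 17 := by
    rw [hreg]
    simp [a1, h17]
  have r17 : c'.reg 17 = c0.reg 17 + 3 := by
    rw [hreg]
    simp [a2, h17]
  have rr : ∀ r, 18 ≤ r → c'.reg r = c0.reg r := by
    intro r hr
    rw [hreg, if_neg (by omega), a3 r (by omega) (by omega) (by omega) (by omega), hregs r (by omega)]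
  have hp0 : (c0.reg 17 : ℤ) = (hp c0 : ℤ) := by
    unfold hp
    have := hg.hp_nonneg
    omega
  have hpc' : hp c' = hp c0 + 3 := by
    unfold hp at *
    rw [r17]
    omega
  have mfr : ∀ a, a < hp c0 → c'.mem a = c0.mem a := by
    intro a ha
    rw [hm', a4, h17, hmem]
    have : (c0.reg 17).toNat = hp c0 := rfl
    rw [this, Function.update_of_ne (by omega), Function.update_of_ne (by omega)]
  have hn := hg.nilp
  have hnil : Live c' 21 .nil := by
    refine ⟨?_, ?_, ?_⟩
    · rw [rr 21 (by omega)]
      exact hn.1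
    · rw [rr 21 (by omega), hpc']
      have := hn.2.1
      omega
    · rw [rr 21 (by omega)]
      exact hn.2.2.frame fun a ha => mfr a (by have := hn.2.1; omega)
  have hs1 : Nat.size (hp c0) ≤ BW := (Nat.size_le_size (by omega)).trans hpar.sH
  have hs2 : Nat.size (hp c0 + 3) ≤ BW := (Nat.size_le_size hH).trans hpar.sH
  have hbw := hpar.bw
  have hbits : Bits c' BW := by
    constructor
    · intro r
      by_cases h : r < 16
      · rw [hreg, if_pos h]
        simp [bl]
      · by_cases h16 : r = 16
        · subst h16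
          rw [r16, hp0, bl_natCast]
          exact hs1
        · by_cases h17' : r = 17
          · subst h17'
            rw [r17, hp0, show ((hp c0 : ℤ) + 3) = ((hp c0 + 3 : ℕ) : ℤ) by push_cast; ring, bl_natCast]
            exact hs2
          · rw [hreg, if_neg h, a3 r (by omega) (by omega) h16 h17', hregs r (by omega)]
            exact hg.bits.1 r
    · intro a
      rw [hm', a4, h17, hmem, Function.update_apply, Function.update_apply]
      split_ifs
      · rw [hz]
        exact hbl
      · simp [bl]
        omega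
      · exact hg.bits.2 a
  have hpos : 0 ≤ c'.reg 17 := by rw [r17]; have := hg.hp_nonneg; omega
  refine ⟨⟨fun r hr => ?_, hpos, ?_, ?_, hnil, ?_, ?_, hbits⟩, ⟨?_, ?_, ?_⟩, fun r hr => rr r (by omega), rr 21 (by omega), mfr, hpc'⟩
  · rw [hreg, if_pos hr]
  · rw [rr 18 (by omega)]
    exact hg.sreg
  · rw [rr 19 (by omega)]
    exact hg.one
  · rw [rr 22 (by omega)]
    exact hg.pw
  · rw [rr 23 (by omega)]
    exact hg.npw
  · rw [r16]
    exact hg.hp_nonneg
  · rw [r16, hpc']
    show hp c0 + 3 ≤ hp c0 + 3
    exact le_refl _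
  · rw [r16]
    show Rep c'.mem (hp c0) (.num z)
    refine .num ?_ ?_
    · have : (c0.reg 17).toNat = hp c0 := rfl
      rw [hm', a4, h17, this, Function.update_of_ne (by omega), Function.update_self]
    · have : (c0.reg 17).toNat = hp c0 := rfl
      rw [hm', a4, h17, this, Function.update_self, hz]

/-! ### The simple operations -/

/-- A block `body ++ allocNum t ++ zeroT`, where `body` writes only scratch registers. -/
theorem frag_num {P : List Instr} {S BW Hmax pc k t : ℕ} {p : Prog} {body : List Instr} {g : Val → ℤ}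
    (hpar : Par S BW Hmax) (hk : 1 ≤ BW)
    (ht0 : t ≠ 0) (ht1 : t ≠ 1) (ht : t < 16)
    (hc : CodeAt P pc (body ++ allocNum t ++ zeroT))
    (hto : ∀ i ∈ body, tempOnly i = true)
    (hsm : ∀ i ∈ body, smallB i = true)
    (hlen : body.length ≤ 77)
    (hsem : ∀ v, sem p S v = PMF.pure (.num (g v)))
    (hval : ∀ c v, Good S BW c → Live c 16 v → (execL body c).reg t = g v)
    (hbit : ∀ v, bl (g v) ≤ BW) :
    Frag P S BW Hmax pc k (body ++ allocNum t ++ zeroT).length (body ++ allocNum t ++ zeroT).length p := by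
  refine frag_det (op := fun v => .num (g v)) hc ?_ ?_ ?_ hk hsem ?_
  · intro i hi
    simp only [List.mem_append] at hi
    rcases hi with (hi | hi) | hi
    · exact tempOnly_plain (hto i hi)
    · simp [allocNum] at hi
      rcases hi with rfl | rfl | rfl | rfl | rfl | rfl | rfl <;> rfl
    · simp [zeroT] at hi
      rcases hi with rfl | rfl | rfl | rfl | rfl | rfl | rfl | rfl | rfl | rfl | rfl | rfl | rfl | rfl | rfl | rfl <;> rfl
  · intro i hi
    simp only [List.mem_append] at hi
    rcases hi with (hi | hi) | hi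
    · exact hsm i hi
    · simp [allocNum] at hi
      rcases hi with rfl | rfl | rfl | rfl | rfl | rfl | rfl <;> rfl
    · simp [zeroT] at hi
      rcases hi with rfl | rfl | rfl | rfl | rfl | rfl | rfl | rfl | rfl | rfl | rfl | rfl | rfl | rfl | rfl | rfl <;> simp [smallB]
  · simp only [allocNum, zeroT, List.length_append, List.length_cons, List.length_nil]
    omega
  · intro c v hg hl hH
    have hlen3 : 3 ≤ (body ++ allocNum t ++ zeroT).length := by
      simp only [allocNum, zeroT, List.length_append, List.length_cons, List.length_nil]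
      omega
    have hH' : hp c + 3 ≤ Hmax := by omega
    obtain ⟨h1, h2⟩ := execL_tempOnly hto c
    rw [List.append_assoc, execL_append]
    have hL : (body ++ (allocNum t ++ zeroT)).length = (body ++ allocNum t ++ zeroT).length := by
      rw [List.append_assoc]
    obtain ⟨b1, b2, b3, b4, b5, b6⟩ := alloc_num hpar (c1 := execL body c) ht0 ht1 hg h1 h2
      (hval c v hg hl) (hbit v) hH'
    refine ⟨b1, b2, fun r hr _ => b3 r hr, b4, b5, ?_, ?_⟩
    · rw [b6]
      omega
    · rw [b6]
      omega

/-- The code of the constants. -/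
def codeZero : List Instr := [.const 2 0] ++ allocNum 2 ++ zeroT
def codeOne : List Instr := [.mov 2 19] ++ allocNum 2 ++ zeroT
def codeParam : List Instr := [.mov 2 18] ++ allocNum 2 ++ zeroT
def codeNil : List Instr := [.mov 16 21]

theorem bl_one_le {BW : ℕ} (h : 1 ≤ BW) : bl 1 ≤ BW := by simpa [bl] using h
theorem bl_zero_le {BW : ℕ} : bl 0 ≤ BW := by simp [bl]

theorem frag_zero {P : List Instr} {S BW Hmax pc k : ℕ} (hpar : Par S BW Hmax) (hk : 1 ≤ BW)
    (hc : CodeAt P pc codeZero) :
    Frag P S BW Hmax pc k codeZero.length codeZero.length .zero := by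
  refine frag_num (t := 2) (g := fun _ => 0) hpar hk (by norm_num) (by norm_num) (by norm_num) hc
    (by simp [tempOnly]) (by simp [smallB]) (by simp) (fun v => ?_) (fun c v _ _ => ?_) (fun _ => bl_zero_le)
  · simp [sem]
  · simp [exec]

theorem frag_one {P : List Instr} {S BW Hmax pc k : ℕ} (hpar : Par S BW Hmax) (hk : 1 ≤ BW)
    (hc : CodeAt P pc codeOne) :
    Frag P S BW Hmax pc k codeOne.length codeOne.length .one := by
  refine frag_num (t := 2) (g := fun _ => 1) hpar hk (by norm_num) (by norm_num) (by norm_num) hc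
    (by simp [tempOnly]) (by simp [smallB]) (by simp) (fun v => ?_) (fun c v hg _ => ?_) (fun _ => bl_one_le hk)
  · simp [sem]
  · simp [exec, hg.one]

theorem frag_param {P : List Instr} {S BW Hmax pc k : ℕ} (hpar : Par S BW Hmax) (hk : 1 ≤ BW)
    (hc : CodeAt P pc codeParam) :
    Frag P S BW Hmax pc k codeParam.length codeParam.length .param := by
  refine frag_num (t := 2) (g := fun _ => (S : ℤ)) hpar hk (by norm_num) (by norm_num) (by norm_num) hc
    (by simp [tempOnly]) (by simp [smallB]) (by simp) (fun v => ?_) (fun c v hg _ => ?_)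
    (fun _ => by rw [bl_natCast]; exact hpar.sS)
  · simp [sem]
  · simp [exec, hg.sreg]

theorem frag_nil {P : List Instr} {S BW Hmax pc k : ℕ} (hk : 1 ≤ BW) (hc : CodeAt P pc codeNil) :
    Frag P S BW Hmax pc k codeNil.length codeNil.length .nil := by
  refine frag_det (op := fun _ => .nil) hc (by simp [codeNil, plain]) (by simp [codeNil, smallB]) (by simp [codeNil]) hk
    (fun v => by simp [sem]) ?_
  intro c v hg hl hH
  have e : ∀ r, r ≠ 16 → (execL codeNil c).reg r = c.reg r := by
    intro r hr
    simp [codeNil, exec, Function.update_of_ne hr]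
  have e16 : (execL codeNil c).reg 16 = c.reg 21 := by simp [codeNil, exec]
  have em : (execL codeNil c).mem = c.mem := by simp [codeNil, exec]
  have ehp : hp (execL codeNil c) = hp c := by
    unfold hp
    rw [e 17 (by norm_num)]
  have hn := hg.nilp
  have hliveN : ∀ r, (execL codeNil c).reg r = c.reg 21 → Live (execL codeNil c) r .nil := by
    intro r hr
    refine ⟨by rw [hr]; exact hn.1, by rw [hr, ehp]; exact hn.2.1, by rw [hr, em]; exact hn.2.2⟩
  refine ⟨⟨fun r hr => ?_, ?_, ?_, ?_, hliveN 21 (e 21 (by norm_num)), ?_, ?_, ⟨fun r => ?_, fun a => ?_⟩⟩,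
    hliveN 16 e16, fun r hr _ => e r (by omega), e 21 (by norm_num), fun a _ => by rw [em], ?_, ?_⟩
  · rw [e r (by omega)]
    exact hg.temps r hr
  · rw [e 17 (by norm_num)]
    exact hg.hp_nonneg
  · rw [e 18 (by norm_num)]
    exact hg.sreg
  · rw [e 19 (by norm_num)]
    exact hg.one
  · rw [e 22 (by norm_num)]
    exact hg.pw
  · rw [e 23 (by norm_num)]
    exact hg.npw
  · by_cases h : r = 16
    · subst h
      rw [e16]
      exact hg.bits.1 21
    · rw [e r h]
      exact hg.bits.1 r
  · rw [em]
    exact hg.bits.2 a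
  · rw [ehp]
  · rw [ehp]
    omega

/-! ### Projections and the test for pairs -/

/-- The first component: the body. -/
def bodyFst : List Instr :=
  [.load 0 16, .sub 1 0 19, .add 2 16 19, .load 3 2, .mov 4 21, .cmov 4 3 1]

/-- The second component: the body. -/
def bodySnd : List Instr :=
  [.load 0 16, .sub 1 0 19, .add 2 16 19, .add 2 2 19, .load 3 2, .mov 4 21, .cmov 4 3 1]

def codeFst : List Instr := bodyFst ++ ([.mov 16 4] : List Instr) ++ zeroT
def codeSnd : List Instr := bodySnd ++ ([.mov 16 4] : List Instr) ++ zeroT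

/-- A block that computes a pointer into register `16` with only scratch registers written
before it, and clears them. Common end of the proofs of `frag_fst`, `frag_snd`. -/
theorem frag_proj {P : List Instr} {S BW Hmax pc k : ℕ} {p : Prog} {body : List Instr} {op : Val → Val}
    (hk : 1 ≤ BW) (hc : CodeAt P pc (body ++ ([.mov 16 4] : List Instr) ++ zeroT))
    (hto : ∀ i ∈ body, tempOnly i = true) (hsm : ∀ i ∈ body, smallB i = true)
    (hlen : body.length ≤ 50) (hsem : ∀ v, sem p S v = PMF.pure (op v))
    (hval : ∀ c v, Good S BW c → Live c 16 v →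
      (execL body c).reg 4 = c.reg 21 ∧ op v = .nil ∨
      ∃ p0 : ℕ, (execL body c).reg 4 = c.mem p0 ∧ 0 ≤ c.mem p0 ∧ (c.mem p0).toNat + 3 ≤ hp c ∧ Rep c.mem (c.mem p0).toNat (op v)) :
    Frag P S BW Hmax pc k (body ++ ([.mov 16 4] : List Instr) ++ zeroT).length
      (body ++ ([.mov 16 4] : List Instr) ++ zeroT).length p := by
  refine frag_det (op := op) hc ?_ ?_ ?_ hk hsem ?_
  · intro i hi
    simp only [List.mem_append, List.mem_singleton] at hi
    rcases hi with (hi | rfl) | hi
    · exact tempOnly_plain (hto i hi)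
    · rfl
    · simp [zeroT] at hi
      rcases hi with rfl | rfl | rfl | rfl | rfl | rfl | rfl | rfl | rfl | rfl | rfl | rfl | rfl | rfl | rfl | rfl <;> rfl
  · intro i hi
    simp only [List.mem_append, List.mem_singleton] at hi
    rcases hi with (hi | rfl) | hi
    · exact hsm i hi
    · rfl
    · simp [zeroT] at hi
      rcases hi with rfl | rfl | rfl | rfl | rfl | rfl | rfl | rfl | rfl | rfl | rfl | rfl | rfl | rfl | rfl | rfl <;> simp [smallB]
  · simp only [zeroT, List.length_append, List.length_cons, List.length_nil]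
    omega
  · intro c v hg hl hH
    obtain ⟨h1, h2⟩ := execL_tempOnly hto c
    rw [execL_append, execL_append]
    set c1 := execL body c with hc1
    set c2 := execL [.mov 16 4] c1 with hc2
    set c' := execL zeroT c2 with hc'
    have hr2 : ∀ r, r ≠ 16 → c2.reg r = c1.reg r := by
      intro r hr
      simp [hc2, exec, Function.update_of_ne hr]
    have hr16 : c2.reg 16 = c1.reg 4 := by simp [hc2, exec]
    have hm2 : c2.mem = c1.mem := by simp [hc2, exec]
    have hreg : ∀ r, c'.reg r = if r < 16 then 0 else c2.reg r := fun r => zeroT_reg c2 r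
    have hm' : c'.mem = c.mem := by
      rw [hc', zeroT_mem, hm2, h2]
    have rr : ∀ r, 17 ≤ r → c'.reg r = c.reg r := by
      intro r hr
      rw [hreg, if_neg (by omega), hr2 r (by omega), h1 r (by omega)]
    have r16 : c'.reg 16 = c1.reg 4 := by
      rw [hreg, if_neg (by omega), hr16]
    have ehp : hp c' = hp c := by
      unfold hp
      rw [rr 17 (by omega)]
    have hn := hg.nilp
    have hliveN : ∀ r, c'.reg r = c.reg 21 → Live c' r .nil := by
      intro r hr
      refine ⟨by rw [hr]; exact hn.1, by rw [hr, ehp]; exact hn.2.1, by rw [hr, hm']; exact hn.2.2⟩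
    have hlive : Live c' 16 (op v) := by
      rcases hval c v hg hl with ⟨h4, h5⟩ | ⟨p0, h4, h5, h6, h7⟩
      · rw [h5]
        exact hliveN 16 (by rw [r16, h4])
      · refine ⟨by rw [r16, h4]; exact h5, by rw [r16, h4, ehp]; exact h6, by rw [r16, h4, hm']; exact h7⟩
    have hbit16 : bl (c'.reg 16) ≤ BW := by
      rcases hval c v hg hl with ⟨h4, _⟩ | ⟨p0, h4, _⟩
      · rw [r16, h4]
        exact hg.bits.1 21
      · rw [r16, h4]
        exact hg.bits.2 p0
    refine ⟨⟨fun r hr => ?_, ?_, ?_, ?_, hliveN 21 (rr 21 (by omega)), ?_, ?_, ⟨fun r => ?_, fun a => ?_⟩⟩,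
      hlive, fun r hr _ => rr r (by omega), rr 21 (by omega), fun a _ => by rw [hm'], ?_, ?_⟩
    · rw [hreg, if_pos hr]
    · rw [rr 17 (by omega)]
      exact hg.hp_nonneg
    · rw [rr 18 (by omega)]
      exact hg.sreg
    · rw [rr 19 (by omega)]
      exact hg.one
    · rw [rr 22 (by omega)]
      exact hg.pw
    · rw [rr 23 (by omega)]
      exact hg.npw
    · by_cases h : r < 16
      · rw [hreg, if_pos h]
        simp [bl]
      · by_cases h16 : r = 16
        · subst h16
          exact hbit16
        · rw [rr r (by omega)]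
          exact hg.bits.1 r
    · rw [hm']
      exact hg.bits.2 a
    · rw [ehp]
    · rw [ehp]
      omega

end Vale.Agent.Lib.P328.Ram
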