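import Vale.Agent.Lib.P328.Ram.Ops

/-!
# P328: code of the projections, the test for pairs, the arithmetic and the coin
-/

namespace Vale.Agent.Lib.P328.Ram

open Vale.Agent.Lib.P328.Bit (Val Prog sem time wid clamp arith)

theorem frag_fst {P : List Instr} {S BW Hmax pc k : ℕ} (hk : 1 ≤ BW) (hc : CodeAt P pc codeFst) :
    Frag P S BW Hmax pc k codeFst.length codeFst.length .fst := by
  refine frag_proj (op := Val.first) hk hc (by simp [bodyFst, tempOnly]) (by simp [bodyFst, smallB])
    (by simp [bodyFst]) (fun v => by simp [sem]) ?_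
  intro c v hg hl
  have hx := hl.1
  have e4 : (execL bodyFst c).reg 4 = if 0 < c.mem (c.reg 16).toNat - 1 then c.mem ((c.reg 16).toNat + 1) else c.reg 21 := by
    have e1 : (c.reg 16 + 1).toNat = (c.reg 16).toNat + 1 := by omega
    simp only [bodyFst, execL_cons, execL_nil, exec]
    simp only [Function.update_self, Function.update_apply, hg.one]
    simp
    split_ifs <;> simp [e1]
  have hr := hl.2.2
  generalize hpdef : (c.reg 16).toNat = p0 at e4 hr
  have hl2 : p0 + 3 ≤ hp c := by rw [← hpdef]; exact hl.2.1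
  cases hr with
  | nil h0 =>
    left
    rw [e4, if_neg (by omega)]
    exact ⟨rfl, rfl⟩
  | num h0 h1 =>
    left
    rw [e4, if_neg (by omega)]
    exact ⟨rfl, rfl⟩
  | pair h0 h01 h02 h1 h2 h3 h4 =>
    right
    refine ⟨p0 + 1, ?_, h01, by omega, h3⟩
    rw [e4, if_pos (by omega)]

theorem frag_snd {P : List Instr} {S BW Hmax pc k : ℕ} (hk : 1 ≤ BW) (hc : CodeAt P pc codeSnd) :
    Frag P S BW Hmax pc k codeSnd.length codeSnd.length .snd := by
  refine frag_proj (op := Val.second) hk hc (by simp [bodySnd, tempOnly]) (by simp [bodySnd, smallB])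
    (by simp [bodySnd]) (fun v => by simp [sem]) ?_
  intro c v hg hl
  have hx := hl.1
  have e4 : (execL bodySnd c).reg 4 = if 0 < c.mem (c.reg 16).toNat - 1 then c.mem ((c.reg 16).toNat + 2) else c.reg 21 := by
    have e1 : (c.reg 16 + 1 + 1).toNat = (c.reg 16).toNat + 2 := by omega
    simp only [bodySnd, execL_cons, execL_nil, exec]
    simp only [Function.update_self, Function.update_apply, hg.one]
    simp
    split_ifs <;> simp [e1]
  have hr := hl.2.2
  generalize hpdef : (c.reg 16).toNat = p0 at e4 hr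
  have hl2 : p0 + 3 ≤ hp c := by rw [← hpdef]; exact hl.2.1
  cases hr with
  | nil h0 =>
    left
    rw [e4, if_neg (by omega)]
    exact ⟨rfl, rfl⟩
  | num h0 h1 =>
    left
    rw [e4, if_neg (by omega)]
    exact ⟨rfl, rfl⟩
  | pair h0 h01 h02 h1 h2 h3 h4 =>
    right
    refine ⟨p0 + 2, ?_, h02, by omega, h4⟩
    rw [e4, if_pos (by omega)]

/-- The test for pairs: the body. -/
def bodyIsPair : List Instr := [.load 0 16, .sub 1 0 19, .const 2 0, .cmov 2 19 1]

def codeIsPair : List Instr := bodyIsPair ++ allocNum 2 ++ zeroT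

/-- The number produced by the test for pairs. -/
def gPair : Val → ℤ
  | .pair _ _ => 1
  | _ => 0

theorem frag_isPair {P : List Instr} {S BW Hmax pc k : ℕ} (hpar : Par S BW Hmax) (hk : 1 ≤ BW)
    (hc : CodeAt P pc codeIsPair) :
    Frag P S BW Hmax pc k codeIsPair.length codeIsPair.length .isPair := by
  refine frag_num (t := 2) (g := gPair) hpar hk (by norm_num) (by norm_num) (by norm_num) hc
    (by simp [bodyIsPair, tempOnly]) (by simp [bodyIsPair, smallB]) (by simp [bodyIsPair]) (fun v => ?_) (fun c v hg hl => ?_) (fun v => ?_)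
  · cases v <;> simp [sem, gPair, Val.isPair]
  · have e2 : (execL bodyIsPair c).reg 2 = if 0 < c.mem (c.reg 16).toNat - 1 then 1 else 0 := by
      simp only [bodyIsPair, execL_cons, execL_nil, exec]
      simp only [Function.update_self, Function.update_apply, hg.one]
      simp
      split_ifs <;> simp
    have hr := hl.2.2
    generalize (c.reg 16).toNat = p0 at e2 hr
    rw [e2]
    cases hr with
    | nil h0 => rw [if_neg (by omega)]; rfl
    | num h0 h1 => rw [if_neg (by omega)]; rfl
    | pair h0 h01 h02 h1 h2 h3 h4 => rw [if_pos (by omega)]; rfl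
  · cases v
    · exact bl_zero_le
    · exact bl_zero_le
    · exact bl_one_le hk

/-! ### Arithmetic -/

/-- Saturate register `d`. Uses register `14`. -/
def clampC (d : ℕ) : List Instr := [.sub 14 d 22, .cmov d 22 14, .sub 14 23 d, .cmov d 23 14]

theorem clampC_spec {S : ℕ} (c : Conf) (d : ℕ) (hd : d ≠ 14) (hd22 : d ≠ 22) (hd23 : d ≠ 23)
    (h22 : c.reg 22 = 2 ^ wid S) (h23 : c.reg 23 = -2 ^ wid S) :
    (execL (clampC d) c).reg d = clamp S (c.reg d) ∧
    (∀ r, r ≠ d → r ≠ 14 → (execL (clampC d) c).reg r = c.reg r) ∧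
    (execL (clampC d) c).mem = c.mem := by
  have hW : (0 : ℤ) < 2 ^ wid S := by positivity
  have hform : ∀ u : ℤ, clamp S u = max (-(2 ^ wid S)) (min u (2 ^ wid S)) := fun _ => rfl
  rw [hform]
  generalize (2 : ℤ) ^ wid S = W at *
  have h14 : (14 : ℕ) ≠ d := fun h => hd h.symm
  have h22' : (22 : ℕ) ≠ d := fun h => hd22 h.symm
  have h23' : (23 : ℕ) ≠ d := fun h => hd23 h.symm
  refine ⟨?_, ?_, ?_⟩
  · simp only [clampC, execL_cons, execL_nil, exec_cmov_reg, exec_sub_reg, h22, h23, hd, h22', h23',
      if_true, if_false, true_and, false_and]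
    simp only [show (22 : ℕ) = 14 ↔ False by norm_num, show (23 : ℕ) = 14 ↔ False by norm_num,
      if_false, false_and, h22, h23, if_true, true_and, h14, h22', h23']
    rw [max_def, min_def]
    split_ifs <;> first | omega | (exfalso; omega)
  · intro r hr1 hr2
    simp only [clampC, execL_cons, execL_nil, exec_cmov_reg, exec_sub_reg, hr1, hr2, false_and,
      if_false]
  · simp only [clampC, execL_cons, execL_nil, exec_cmov_mem, exec_sub_mem]

end Vale.Agent.Lib.P328.Ram
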