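import Vale.Agent.Lib.P328.Ram.Ops2

/-!
# P328: code of the arithmetic and the coin
-/

namespace Vale.Agent.Lib.P328.Ram

open Vale.Agent.Lib.P328.Bit (Val Prog sem time wid clamp arith)

/-- Arithmetic, the first part of the body: read the two words, test for the right shape. -/
def bodyArith1 : List Instr :=
  [.load 0 16, .sub 1 0 19, .add 2 16 19, .load 3 2, .add 2 2 19, .load 4 2, .load 5 3, .load 6 4,
   .add 7 19 19, .sub 8 7 5, .mul 8 8 5, .sub 9 7 6, .mul 9 9 6, .const 10 0, .cmov 10 8 1,
   .const 11 0, .cmov 11 9 10, .add 2 3 19, .load 5 2, .add 2 4 19, .load 6 2]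

theorem bodyArith1_spec (c : Conf) (h19 : c.reg 19 = 1) (h0 : 0 ≤ c.reg 16) :
    (execL bodyArith1 c).reg 5 = c.mem ((c.mem ((c.reg 16).toNat + 1) + 1).toNat) ∧
    (execL bodyArith1 c).reg 6 = c.mem ((c.mem ((c.reg 16).toNat + 2) + 1).toNat) ∧
    (execL bodyArith1 c).reg 11 =
      (if 0 < (if 1 < c.mem (c.reg 16).toNat then
          (2 - c.mem (c.mem ((c.reg 16).toNat + 1)).toNat) * c.mem (c.mem ((c.reg 16).toNat + 1)).toNat else 0) then
        (2 - c.mem (c.mem ((c.reg 16).toNat + 2)).toNat) * c.mem (c.mem ((c.reg 16).toNat + 2)).toNat else 0) := by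
  have e1 : (c.reg 16 + 1).toNat = (c.reg 16).toNat + 1 := by omega
  have e2 : (c.reg 16 + 1 + 1).toNat = (c.reg 16).toNat + 2 := by omega
  have e3 : (1 + 1 : ℤ) = 2 := by norm_num
  simp only [bodyArith1, execL_cons, execL_nil, exec_const_reg, exec_load_reg, exec_add_reg,
    exec_sub_reg, exec_mul_reg, exec_cmov_reg, exec_const_mem, exec_load_mem, exec_add_mem,
    exec_sub_mem, exec_mul_mem, exec_cmov_mem, Nat.reduceEqDiff, if_true, if_false, true_and, false_and, h19]
  simp [e1, e2, e3]

theorem tag_pos_iff (t : ℤ) : 0 < (2 - t) * t ↔ t = 1 := by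
  constructor
  · intro h
    by_contra hne
    rcases lt_or_gt_of_ne hne with h1 | h1
    · have : t ≤ 0 := by omega
      nlinarith
    · have : 2 ≤ t := by omega
      nlinarith
  · rintro rfl
    norm_num

/-- The number computed by an arithmetic operation. -/
def gA (S : ℕ) (op : ℤ → ℤ → ℤ) : Val → ℤ
  | .pair (.num a) (.num b) => clamp S (op (clamp S a) (clamp S b))
  | _ => 0

theorem arith_eq (S : ℕ) (op : ℤ → ℤ → ℤ) (v : Val) : arith S op v = .num (gA S op v) := by
  cases v with
  | nil => rfl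
  | num z => rfl
  | pair a b => cases a <;> cases b <;> rfl

theorem bl_clamp (S : ℕ) (z : ℤ) : bl (clamp S z) ≤ wid S + 1 := by
  rw [bl_le_iff]
  have hW : (0 : ℤ) < 2 ^ wid S := by positivity
  have h1 : -(2 ^ wid S : ℤ) ≤ clamp S z := le_max_left _ _
  have h2 : clamp S z ≤ (2 ^ wid S : ℤ) := max_le (by omega) (min_le_right _ _)
  have h3 : ((2 : ℤ) ^ wid S).natAbs = 2 ^ wid S := by simp [Int.natAbs_pow]
  have h4 : (clamp S z).natAbs ≤ 2 ^ wid S := by omega
  rw [pow_succ]
  have : 0 < 2 ^ wid S := by positivity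
  omega

/-- The whole body of an arithmetic operation. -/
def bodyArith (i : Instr) : List Instr :=
  bodyArith1 ++ clampC 5 ++ clampC 6 ++ [i] ++ clampC 7 ++ [.const 12 0, .cmov 12 7 11]

def codeArith (i : Instr) : List Instr := bodyArith i ++ allocNum 12 ++ zeroT

theorem bodyArith_val {S BW : ℕ} {op : ℤ → ℤ → ℤ} {i : Instr}
    (hop : ∀ c : Conf, (exec i c).reg 7 = op (c.reg 5) (c.reg 6))
    (hop' : ∀ (c : Conf) (r : ℕ), r ≠ 7 → (exec i c).reg r = c.reg r)
    (hopm : ∀ c : Conf, (exec i c).mem = c.mem)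
    (c : Conf) (v : Val) (hg : Good S BW c) (hl : Live c 16 v) :
    (execL (bodyArith i) c).reg 12 = gA S op v := by
  have h19 := hg.one
  obtain ⟨b5, b6, b11⟩ := bodyArith1_spec c h19 hl.1
  obtain ⟨t1, t2⟩ : (∀ r, 16 ≤ r → (execL bodyArith1 c).reg r = c.reg r) ∧ (execL bodyArith1 c).mem = c.mem :=
    execL_tempOnly (by simp [bodyArith1, tempOnly]) c
  simp only [bodyArith, execL_append]
  set c1 := execL bodyArith1 c with hc1
  have p22 : c1.reg 22 = 2 ^ wid S := by rw [t1 22 (by omega)]; exact hg.pw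
  have p23 : c1.reg 23 = -2 ^ wid S := by rw [t1 23 (by omega)]; exact hg.npw
  obtain ⟨d5, d5', d5m⟩ := clampC_spec (S := S) c1 5 (by norm_num) (by norm_num) (by norm_num) p22 p23
  set c2 := execL (clampC 5) c1 with hc2
  have p22a : c2.reg 22 = 2 ^ wid S := by rw [d5' 22 (by norm_num) (by norm_num)]; exact p22
  have p23a : c2.reg 23 = -2 ^ wid S := by rw [d5' 23 (by norm_num) (by norm_num)]; exact p23
  obtain ⟨d6, d6', d6m⟩ := clampC_spec (S := S) c2 6 (by norm_num) (by norm_num) (by norm_num) p22a p23a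
  set c3 := execL (clampC 6) c2 with hc3
  have p22b : c3.reg 22 = 2 ^ wid S := by rw [d6' 22 (by norm_num) (by norm_num)]; exact p22a
  have p23b : c3.reg 23 = -2 ^ wid S := by rw [d6' 23 (by norm_num) (by norm_num)]; exact p23a
  have e4 : execL [i] c3 = exec i c3 := rfl
  rw [e4]
  set c4 := exec i c3 with hc4
  have p22c : c4.reg 22 = 2 ^ wid S := by rw [hop' c3 22 (by norm_num)]; exact p22b
  have p23c : c4.reg 23 = -2 ^ wid S := by rw [hop' c3 23 (by norm_num)]; exact p23b
  obtain ⟨d7, d7', d7m⟩ := clampC_spec (S := S) c4 7 (by norm_num) (by norm_num) (by norm_num) p22c p23c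
  set c5 := execL (clampC 7) c4 with hc5
  have e12 : (execL [.const 12 0, .cmov 12 7 11] c5).reg 12 = if 0 < c5.reg 11 then c5.reg 7 else 0 := by
    simp [execL_cons, exec_cmov_reg, exec_const_reg]
  rw [e12, d7, d7' 11 (by norm_num) (by norm_num), hop' c3 11 (by norm_num), hop c3,
    d6' 11 (by norm_num) (by norm_num), d6, d6' 5 (by norm_num) (by norm_num), d5,
    d5' 11 (by norm_num) (by norm_num), d5' 6 (by norm_num) (by norm_num), b5, b6, b11]
  have hr := hl.2.2
  generalize (c.reg 16).toNat = p0 at hr ⊢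
  cases hr with
  | nil h0 =>
    rw [if_neg (by omega)]
    rfl
  | num h0 h1 =>
    rw [if_neg (by omega)]
    rfl
  | pair h0 h01 h02 h1 h2 h3 h4 =>
    simp only [if_pos h0]
    have ea : (c.mem (p0 + 1) + 1).toNat = (c.mem (p0 + 1)).toNat + 1 := by omega
    have eb : (c.mem (p0 + 2) + 1).toNat = (c.mem (p0 + 2)).toNat + 1 := by omega
    rw [ea, eb]
    generalize (c.mem (p0 + 1)).toNat = pa at h3 ⊢
    generalize (c.mem (p0 + 2)).toNat = pb at h4 ⊢
    have hneg : ∀ t : ℤ, t ≠ 1 → ¬ 0 < (2 - t) * t := fun t ht h => ht ((tag_pos_iff t).1 h)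
    cases h3 with
    | nil h5 =>
      rw [if_neg (hneg _ (by omega)), if_neg (lt_irrefl _)]
      rfl
    | pair h5 _ _ _ _ _ _ =>
      rw [if_neg (hneg _ (by omega)), if_neg (lt_irrefl _)]
      rfl
    | num h5 h6 =>
      rw [h5]
      norm_num
      cases h4 with
      | nil h7 =>
        rw [if_neg (hneg _ (by omega))]
        rfl
      | pair h7 _ _ _ _ _ _ =>
        rw [if_neg (hneg _ (by omega))]
        rfl
      | num h7 h8 =>
        rw [h7]
        norm_num
        rw [h6, h8]
        rfl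

theorem bodyArith_lists {i : Instr} (hT : tempOnly i = true) (hS : smallB i = true) :
    (∀ j ∈ bodyArith i, tempOnly j = true) ∧ (∀ j ∈ bodyArith i, smallB j = true) ∧
      (bodyArith i).length ≤ 77 := by
  refine ⟨fun j hj => ?_, fun j hj => ?_, ?_⟩
  · simp only [bodyArith, List.mem_append, List.mem_singleton, bodyArith1, clampC, List.mem_cons, List.not_mem_nil, or_false] at hj
    rcases hj with ((((hj | hj) | hj) | rfl) | hj) | hj
    · rcases hj with rfl | rfl | rfl | rfl | rfl | rfl | rfl | rfl | rfl | rfl | rfl | rfl | rfl | rfl | rfl | rfl | rfl | rfl | rfl | rfl | rfl <;> rfl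
    · rcases hj with rfl | rfl | rfl | rfl <;> rfl
    · rcases hj with rfl | rfl | rfl | rfl <;> rfl
    · exact hT
    · rcases hj with rfl | rfl | rfl | rfl <;> rfl
    · rcases hj with rfl | rfl <;> rfl
  · simp only [bodyArith, List.mem_append, List.mem_singleton, bodyArith1, clampC, List.mem_cons, List.not_mem_nil, or_false] at hj
    rcases hj with ((((hj | hj) | hj) | rfl) | hj) | hj
    · rcases hj with rfl | rfl | rfl | rfl | rfl | rfl | rfl | rfl | rfl | rfl | rfl | rfl | rfl | rfl | rfl | rfl | rfl | rfl | rfl | rfl | rfl <;> simp [smallB]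
    · rcases hj with rfl | rfl | rfl | rfl <;> rfl
    · rcases hj with rfl | rfl | rfl | rfl <;> rfl
    · exact hS
    · rcases hj with rfl | rfl | rfl | rfl <;> rfl
    · rcases hj with rfl | rfl <;> simp [smallB]
  · simp [bodyArith, bodyArith1, clampC]

theorem frag_arith {P : List Instr} {S BW Hmax pc k : ℕ} {p : Prog} {i : Instr} {op : ℤ → ℤ → ℤ}
    (hpar : Par S BW Hmax) (hk : 1 ≤ BW) (hT : tempOnly i = true) (hS : smallB i = true)
    (hop : ∀ c : Conf, (exec i c).reg 7 = op (c.reg 5) (c.reg 6))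
    (hop' : ∀ (c : Conf) (r : ℕ), r ≠ 7 → (exec i c).reg r = c.reg r)
    (hopm : ∀ c : Conf, (exec i c).mem = c.mem)
    (hsem : ∀ v, sem p S v = PMF.pure (arith S op v))
    (hc : CodeAt P pc (codeArith i)) :
    Frag P S BW Hmax pc k (codeArith i).length (codeArith i).length p := by
  obtain ⟨l1, l2, l3⟩ := bodyArith_lists hT hS
  refine frag_num (t := 12) (g := gA S op) hpar hk (by norm_num) (by norm_num) (by norm_num) hc l1 l2 l3
    (fun v => ?_) (fun c v hg hl => bodyArith_val hop hop' hopm c v hg hl) (fun v => ?_)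
  · rw [hsem, arith_eq]
  · have := hpar.bw
    unfold gA
    split
    · exact (bl_clamp S _).trans (by omega)
    · exact bl_zero_le

theorem frag_add {P : List Instr} {S BW Hmax pc k : ℕ} (hpar : Par S BW Hmax) (hk : 1 ≤ BW)
    (hc : CodeAt P pc (codeArith (.add 7 5 6))) :
    Frag P S BW Hmax pc k (codeArith (.add 7 5 6)).length (codeArith (.add 7 5 6)).length .add :=
  frag_arith (op := (· + ·)) hpar hk rfl rfl (fun c => by simp [exec_add_reg])
    (fun c r hr => by simp [exec_add_reg, hr]) (fun c => rfl) (fun v => by simp [sem]) hc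

theorem frag_sub {P : List Instr} {S BW Hmax pc k : ℕ} (hpar : Par S BW Hmax) (hk : 1 ≤ BW)
    (hc : CodeAt P pc (codeArith (.sub 7 5 6))) :
    Frag P S BW Hmax pc k (codeArith (.sub 7 5 6)).length (codeArith (.sub 7 5 6)).length .sub :=
  frag_arith (op := (· - ·)) hpar hk rfl rfl (fun c => by simp [exec_sub_reg])
    (fun c r hr => by simp [exec_sub_reg, hr]) (fun c => rfl) (fun v => by simp [sem]) hc

theorem frag_mul {P : List Instr} {S BW Hmax pc k : ℕ} (hpar : Par S BW Hmax) (hk : 1 ≤ BW)
    (hc : CodeAt P pc (codeArith (.mul 7 5 6))) :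
    Frag P S BW Hmax pc k (codeArith (.mul 7 5 6)).length (codeArith (.mul 7 5 6)).length .mul :=
  frag_arith (op := (· * ·)) hpar hk rfl rfl (fun c => by simp [exec_mul_reg])
    (fun c r hr => by simp [exec_mul_reg, hr]) (fun c => rfl) (fun v => by simp [sem]) hc

theorem frag_div {P : List Instr} {S BW Hmax pc k : ℕ} (hpar : Par S BW Hmax) (hk : 1 ≤ BW)
    (hc : CodeAt P pc (codeArith (.div 7 5 6))) :
    Frag P S BW Hmax pc k (codeArith (.div 7 5 6)).length (codeArith (.div 7 5 6)).length .div :=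
  frag_arith (op := (· / ·)) hpar hk rfl rfl (fun c => by simp [exec_div_reg])
    (fun c r hr => by simp [exec_div_reg, hr]) (fun c => rfl) (fun v => by simp [sem]) hc

/-! ### The coin -/

def codeCoin : List Instr := [.coin 2] ++ allocNum 2 ++ zeroT

theorem Qc_pos (b : ℕ) : 1 ≤ Qc b := by
  unfold Qc
  exact Nat.one_le_pow _ _ (by omega)

theorem frag_coin {P : List Instr} {S BW Hmax pc k : ℕ} (hpar : Par S BW Hmax) (hk : 1 ≤ BW)
    (hc : CodeAt P pc codeCoin) :
    Frag P S BW Hmax pc k codeCoin.length codeCoin.length .coin := by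
  intro c v hpc hg hl hH
  subst hpc
  have hstep : step P c = (PMF.uniformOfFintype Bool).map fun b => coinExec 2 b c := by
    unfold step
    rw [show P[c.pc]? = some (.coin 2) from hc.head]
  have hlen : codeCoin.length = 1 + (allocNum 2 ++ zeroT).length := by
    simp [codeCoin]
    omega
  have hrest : ∀ b : Bool, run P (allocNum 2 ++ zeroT).length (coinExec 2 b c) =
      PMF.pure (execL (allocNum 2 ++ zeroT) (coinExec 2 b c)) := by
    intro b
    apply run_plain
    · exact CodeAt.right (l₁ := [.coin 2]) (l₂ := allocNum 2 ++ zeroT) hc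
    · intro i hi
      simp only [allocNum, zeroT, List.mem_append, List.mem_cons, List.not_mem_nil, or_false] at hi
      rcases hi with hi | hi
      · rcases hi with rfl | rfl | rfl | rfl | rfl | rfl | rfl <;> rfl
      · rcases hi with rfl | rfl | rfl | rfl | rfl | rfl | rfl | rfl | rfl | rfl | rfl | rfl | rfl | rfl | rfl | rfl <;> rfl
  have hrun : run P codeCoin.length c =
      (PMF.uniformOfFintype Bool).map fun b => execL (allocNum 2 ++ zeroT) (coinExec 2 b c) := by
    rw [hlen, Nat.add_comm, Nat.add_comm _ 1]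
    show (step P c).bind (run P (allocNum 2 ++ zeroT).length) = _
    rw [hstep, PMF.bind_map]
    unfold PMF.map
    congr 1
    funext b
    simp only [Function.comp]
    exact hrest b
  have hone : bl 1 ≤ BW := bl_one_le hk
  have hprops : ∀ b : Bool,
      Good S BW (execL (allocNum 2 ++ zeroT) (coinExec 2 b c)) ∧
      Live (execL (allocNum 2 ++ zeroT) (coinExec 2 b c)) 16 (.num (if b then 1 else 0)) ∧
      (∀ r, 24 ≤ r → (execL (allocNum 2 ++ zeroT) (coinExec 2 b c)).reg r = c.reg r) ∧
      (execL (allocNum 2 ++ zeroT) (coinExec 2 b c)).reg 21 = c.reg 21 ∧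
      (∀ a, a < hp c → (execL (allocNum 2 ++ zeroT) (coinExec 2 b c)).mem a = c.mem a) ∧
      hp (execL (allocNum 2 ++ zeroT) (coinExec 2 b c)) = hp c + 3 := by
    intro b
    have hlen3 : 3 ≤ codeCoin.length := by simp [codeCoin, allocNum, zeroT]
    apply alloc_num hpar (by norm_num) (by norm_num) hg
    · intro r hr
      simp only [coinExec]
      rw [Function.update_of_ne (by omega)]
    · rfl
    · simp [coinExec]
    · cases b
      · simp [bl]
      · simpa using hone
    · omega
  refine ⟨fun c' hc' => ?_, ?_⟩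
  · rw [hrun, PMF.support_map] at hc'
    obtain ⟨b, _, rfl⟩ := hc'
    obtain ⟨p1, p2, p3, p4, p5, p6⟩ := hprops b
    have hb1 : Bits (coinExec 2 b c) BW := by
      constructor
      · intro r
        simp only [coinExec, Function.update_apply]
        split_ifs with h1 h2
        · exact hone
        · simp [bl]
        · exact hg.bits.1 r
      · exact hg.bits.2
    have hplain : ∀ i ∈ allocNum 2 ++ zeroT, plain i = true := by
      intro i hi
      simp only [allocNum, zeroT, List.mem_append, List.mem_cons, List.not_mem_nil, or_false] at hi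
      rcases hi with hi | hi
      · rcases hi with rfl | rfl | rfl | rfl | rfl | rfl | rfl <;> rfl
      · rcases hi with rfl | rfl | rfl | rfl | rfl | rfl | rfl | rfl | rfl | rfl | rfl | rfl | rfl | rfl | rfl | rfl <;> rfl
    have hsmall : ∀ i ∈ allocNum 2 ++ zeroT, smallConst i := by
      intro i hi
      apply smallB_spec
      simp only [allocNum, zeroT, List.mem_append, List.mem_cons, List.not_mem_nil, or_false] at hi
      rcases hi with hi | hi
      · rcases hi with rfl | rfl | rfl | rfl | rfl | rfl | rfl <;> rfl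
      · rcases hi with rfl | rfl | rfl | rfl | rfl | rfl | rfl | rfl | rfl | rfl | rfl | rfl | rfl | rfl | rfl | rfl <;> simp [smallB]
    have hcost := execL_cost hsmall (by simp [allocNum, zeroT]) hk hb1
    have hQ := Qc_pos BW
    have hlen24 : codeCoin.length = 24 := by simp [codeCoin, allocNum, zeroT]
    have hlen23 : (allocNum 2 ++ zeroT).length = 23 := by simp [allocNum, zeroT]
    rw [hlen23] at hcost
    beta_reduce
    refine ⟨?_, p1, ⟨_, p2⟩, fun r hr _ => p3 r hr, p4, p5, ?_, ?_, ?_⟩
    · rw [execL_pc hplain, hlen23, hlen24]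
      simp [coinExec]
    · omega
    · rw [p6, hlen24]
      omega
    · have e1 : (coinExec 2 b c).cost = c.cost + 1 := rfl
      rw [e1] at hcost
      rw [hlen24]
      nlinarith
  · rw [hrun, PMF.map_comp]
    have : (dec ∘ fun b => execL (allocNum 2 ++ zeroT) (coinExec 2 b c)) = fun b : Bool => Val.num (if b then 1 else 0) := by
      funext b
      exact (hprops b).2.1.dec_eq
    rw [this]
    simp [sem]

end Vale.Agent.Lib.P328.Ram
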