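import Vale.Agent.Lib.P328.Ram.Reach

/-!
# P328: the start of the machine: read the parameters, compute the length of the input
-/

namespace Vale.Agent.Lib.P328.Ram

open Vale.Agent.Lib.P328.Bit (Val Prog sem time wid clamp arith time_poly)

/-- Read `m`, `n`, `a`, `b` from the first four cells. -/
def initA : List Instr :=
  [.const 19 1, .add 26 19 19, .load 29 0, .load 30 19, .load 31 26, .add 1 26 19, .load 25 1, .add 28 1 19,
   .add 24 29 30, .add 24 24 31, .add 24 24 26]

theorem initA_spec (c : Conf) (m n a b : ℕ) (h0 : ∀ r, c.reg r = 0) (h1 : c.mem 0 = m) (h2 : c.mem 1 = n)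
    (h3 : c.mem 2 = a) (h4 : c.mem 3 = b) :
    (execL initA c).reg 19 = 1 ∧ (execL initA c).reg 26 = 2 ∧ (execL initA c).reg 29 = m ∧
    (execL initA c).reg 30 = n ∧ (execL initA c).reg 28 = 4 ∧ (execL initA c).reg 25 = b ∧
    (execL initA c).reg 24 = ((m + n + a + 2 : ℕ) : ℤ) ∧ (execL initA c).reg 1 = 3 ∧ (execL initA c).reg 31 = a ∧
    (∀ r, r ≠ 19 → r ≠ 26 → r ≠ 29 → r ≠ 30 → r ≠ 28 → r ≠ 25 → r ≠ 24 → r ≠ 1 → r ≠ 31 → (execL initA c).reg r = 0) ∧
    (execL initA c).mem = c.mem := by
  have e0 : ∀ z : ℤ, (z.toNat) = z.toNat := fun _ => rfl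
  refine ⟨?_, ?_, ?_, ?_, ?_, ?_, ?_, ?_, ?_, ?_, ?_⟩
  · simp [initA, exec, Function.update_apply]
  · simp [initA, exec, Function.update_apply]
  · simp [initA, exec, Function.update_apply, h0, h1]
  · simp [initA, exec, Function.update_apply, h0, h2]
  · simp [initA, exec, Function.update_apply]
  · simp [initA, exec, Function.update_apply, h4]
  · simp [initA, exec, Function.update_apply, h0, h1, h2, h3]
  · simp [initA, exec, Function.update_apply]
  · simp [initA, exec, Function.update_apply, h0, h3]
  · intro r a1 a2 a3 a4 a5 a6 a7 a8 a9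
    simp [initA, exec, Function.update_apply, a1, a2, a3, a4, a5, a6, a7, a8, a9, h0]
  · simp [initA, exec]

theorem size_le_self' (n : ℕ) : Nat.size n ≤ n := Nat.size_le.2 Nat.lt_two_pow_self

theorem bl_nat_le {z : ℤ} {n BW : ℕ} (hz : z = (n : ℤ)) (h : n ≤ BW) : bl z ≤ BW := by
  rw [hz, bl_natCast]
  exact (size_le_self' n).trans h

/-- The body of the loop over the margins. -/
def outerBody : List Instr := ([.load 25 28] : List Instr) ++ whileCode 25 sizeBody ++ [.add 28 28 19, .sub 27 27 19]

theorem outerBody_length : outerBody.length = 8 + 0 := by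
  simp [outerBody, whileCode, sizeBody]

/-- Add the numbers of bits of the margins. -/
theorem outer_spec {P : List Instr} {BW q t acc0 L : ℕ} (v : ℕ → ℕ) (hc : CodeAt P q (whileCode 27 outerBody))
    (hb : 1 ≤ BW) (c : Conf) (hpc : c.pc = q) (h27 : c.reg 27 = t) (h28 : c.reg 28 = 4)
    (h24 : c.reg 24 = acc0) (h19 : c.reg 19 = 1) (h26 : c.reg 26 = 2) (hbits : Bits c BW)
    (hv : ∀ j, j < t → c.mem (4 + j) = v j)
    (hL : acc0 + ∑ j ∈ Finset.range t, Nat.size (v j) ≤ L) (hLB : L ≤ BW) (ht : 4 + t ≤ BW) :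
    ∃ c', Reach P BW c c' (t * ((1 + (L * (2 + 2) + 2) + 2) + 2) + 2) ∧ c'.pc = q + 3 + outerBody.length ∧
      c'.reg 24 = ((acc0 + ∑ j ∈ Finset.range t, Nat.size (v j) : ℕ) : ℤ) ∧ c'.reg 28 = ((4 + t : ℕ) : ℤ) ∧
      (∀ r, r ≠ 24 → r ≠ 25 → r ≠ 27 → r ≠ 28 → c'.reg r = c.reg r) ∧ c'.mem = c.mem ∧ Bits c' BW := by
  have hpart : ∀ k, k ≤ t → acc0 + ∑ j ∈ Finset.range k, Nat.size (v j) ≤ L := by
    intro k hk
    refine le_trans ?_ hL
    have := Finset.sum_le_sum_of_subset (f := fun j => Nat.size (v j))
      (Finset.range_subset_range.2 hk)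
    omega
  let Inv : ℕ → (ℕ → ℤ) → (ℕ → ℤ) → Prop := fun i R M =>
    i ≤ t ∧ M = c.mem ∧ R 27 = i ∧ R 28 = ((4 + (t - i) : ℕ) : ℤ) ∧
      R 24 = ((acc0 + ∑ j ∈ Finset.range (t - i), Nat.size (v j) : ℕ) : ℤ) ∧
      (∀ r, r ≠ 24 → r ≠ 25 → r ≠ 27 → r ≠ 28 → R r = c.reg r) ∧ bl (R 25) ≤ BW
  have hI : ∀ i R M, Inv i R M → (∀ r, bl (R r) ≤ BW) ∧ (∀ a, bl (M a) ≤ BW) := by
    rintro i R M ⟨h1, h2, h3, h4, h5, h6, h7⟩
    constructor
    · intro r
      by_cases r24 : r = 24
      · subst r24
        exact bl_nat_le h5 ((hpart _ (by omega)).trans hLB)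
      · by_cases r25 : r = 25
        · subst r25
          exact h7
        · by_cases r27 : r = 27
          · subst r27
            exact bl_nat_le h3 (by omega)
          · by_cases r28 : r = 28
            · subst r28
              exact bl_nat_le h4 (by omega)
            · rw [h6 r r24 r25 r27 r28]
              exact hbits.1 r
    · rw [h2]
      exact hbits.2
  have hspec := while_spec (P := P) (BW := BW) (q := q) (s := 27) (N := 1 + (L * (2 + 2) + 2) + 2)
    (body := outerBody) Inv hc hb
    (by
      rintro i R M ⟨_, _, h3, _⟩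
      rw [h3]
      omega)
    hI
    (by
      intro i c1 hp1 hI1
      have hbits1 : Bits c1 BW := hI _ _ _ hI1
      obtain ⟨h1, h2, h3, h4, h5, h6, h7⟩ := hI1
      have hcb : CodeAt P (q + 2) outerBody := by
        have h9 : CodeAt P q (([.jpos 27 2, .jmp ((outerBody.length : ℤ) + 2)] : List Instr) ++ outerBody) :=
          CodeAt.left hc
        exact h9.right
      obtain ⟨j, hj⟩ : ∃ j, j = t - (i + 1) := ⟨_, rfl⟩
      have hjt : j < t := by omega
      have hcb1 : CodeAt P c1.pc [.load 25 28] := by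
        rw [hp1]
        exact hcb.left.left
      have hcb2 : CodeAt P (q + 3) (whileCode 25 sizeBody) := hcb.left.right
      have hcb3 : CodeAt P (q + 3 + (whileCode 25 sizeBody).length) [.add 28 28 19, .sub 27 27 19] := by
        have := hcb.right
        simp only [List.length_append, List.length_cons, List.length_nil] at this
        rw [show q + 3 + (whileCode 25 sizeBody).length = q + 2 + (0 + 1 + (whileCode 25 sizeBody).length) by omega]
        exact this
      have r1 := Reach.plain (BW := BW) hcb1 (by simp [plain]) (by simp [smallB]) (by simp) hb hbits1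
      set c2 := execL [.load 25 28] c1 with hc2
      have e28 : (c1.reg 28).toNat = 4 + j := by
        rw [h4]
        omega
      have hm2 : c2.mem = c1.mem := rfl
      have hp2 : c2.pc = q + 3 := by
        simp only [hc2, execL_cons, execL_nil, exec, hp1]
      have hr25 : c2.reg 25 = v j := by
        simp only [hc2, execL_cons, execL_nil, exec_load_reg, if_true, e28]
        rw [h2]
        exact hv j hjt
      have hr : ∀ r, r ≠ 25 → c2.reg r = c1.reg r := by
        intro r hr
        simp only [hc2, execL_cons, execL_nil, exec_load_reg, hr, if_false]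
      have hsz : Nat.size (v j) + (acc0 + ∑ k ∈ Finset.range j, Nat.size (v k)) ≤ L := by
        have := hpart (j + 1) (by omega)
        rw [Finset.sum_range_succ] at this
        omega
      have hb2 : Bits c2 BW := by
        constructor
        · intro r
          by_cases h : r = 25
          · subst h
            simp only [hc2, execL_cons, execL_nil, exec_load_reg, if_true]
            exact hbits1.2 _
          · rw [hr r h]
            exact hbits1.1 r
        · rw [hm2]
          exact hbits1.2
      have e3 : (t - (i + 1)) = j := hj.symm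
      rw [e3] at h5 h4
      obtain ⟨c3, r3, p3, a1, a2, a3, a4, a5⟩ := size_spec (BW := BW) hcb2 hb c2 hp2 (v j)
        (acc0 + ∑ k ∈ Finset.range j, Nat.size (v k)) hr25 (by rw [hr 24 (by norm_num)]; exact h5)
        (by rw [hr 19 (by norm_num), h6 19 (by norm_num) (by norm_num) (by norm_num) (by norm_num)]; exact h19)
        (by rw [hr 26 (by norm_num), h6 26 (by norm_num) (by norm_num) (by norm_num) (by norm_num)]; exact h26)
        hb2 ((size_le_self' _).trans (by omega))
      have p3' : c3.pc = q + 3 + (whileCode 25 sizeBody).length := by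
        rw [p3, whileCode_length]
        simp [sizeBody]
      have r4 := Reach.plain (BW := BW) (l := [.add 28 28 19, .sub 27 27 19]) (c := c3)
        (by rw [p3']; exact hcb3) (by simp [plain]) (by simp [smallB]) (by simp) hb a5
      set c4 := execL [.add 28 28 19, .sub 27 27 19] c3 with hc4
      have q19 : c3.reg 19 = 1 := by
        rw [a3 19 (by norm_num) (by norm_num), hr 19 (by norm_num), h6 19 (by norm_num) (by norm_num) (by norm_num) (by norm_num)]
        exact h19
      have q27 : c3.reg 27 = ((i + 1 : ℕ) : ℤ) := by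
        rw [a3 27 (by norm_num) (by norm_num), hr 27 (by norm_num)]
        exact h3
      have q28 : c3.reg 28 = ((4 + j : ℕ) : ℤ) := by
        rw [a3 28 (by norm_num) (by norm_num), hr 28 (by norm_num)]
        exact h4
      have hji : t - i = j + 1 := by omega
      refine ⟨c4, ?_, ?_, by omega, ?_, ?_, ?_, ?_, ?_, ?_⟩
      · refine ((r1.trans r3).trans r4).mono ?_
        have h10 : Nat.size (v j) ≤ L := by omega
        have h11 := Nat.mul_le_mul_right (2 + 2) h10
        simp only [List.length_cons, List.length_nil]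
        omega
      · rw [hc4, execL_pc (by simp [plain]), p3']
        simp [outerBody]
        omega
      · show c3.mem = c.mem
        rw [a4, hm2, h2]
      · simp only [hc4, execL_cons, execL_nil, exec_sub_reg, exec_add_reg, Nat.reduceEqDiff, if_false, if_true, q27, q19]
        push_cast
        ring
      · simp only [hc4, execL_cons, execL_nil, exec_sub_reg, exec_add_reg, Nat.reduceEqDiff, if_false, if_true, q28, q19]
        rw [hji]
        push_cast
        ring
      · simp only [hc4, execL_cons, execL_nil, exec_sub_reg, exec_add_reg, Nat.reduceEqDiff, if_false, if_true, a1]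
        rw [hji, Finset.sum_range_succ]
        push_cast
        ring
      · intro r h1' h2' h3' h4'
        simp only [hc4, execL_cons, execL_nil, exec_sub_reg, exec_add_reg, h3', h4', if_false]
        rw [a3 r h1' h2', hr r h2']
        exact h6 r h1' h2' h3' h4'
      · simp only [hc4, execL_cons, execL_nil, exec_sub_reg, exec_add_reg, Nat.reduceEqDiff, if_false, if_true, a2]
        simp [bl]) t c hpc
    ⟨le_rfl, rfl, h27, by simp [h28], by simp [h24], fun _ _ _ _ _ => rfl, hbits.1 25⟩
  obtain ⟨c', r1, p1, hI'⟩ := hspec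
  have hb' : Bits c' BW := hI _ _ _ hI'
  obtain ⟨h1, h2, h3, h4, h5, h6, h7⟩ := hI'
  refine ⟨c', r1, p1, by rw [h5]; simp, by rw [h4]; simp, h6, h2, hb'⟩

/-- The first phase. -/
def codeA : List Instr := initA ++ whileCode 25 sizeBody ++ [.add 27 29 30] ++ whileCode 27 outerBody

def stepsA (b t L : ℕ) : ℕ :=
  11 + (Nat.size b * (2 + 2) + 2) + 1 + (t * ((1 + (L * (2 + 2) + 2) + 2) + 2) + 2)

theorem phaseA_spec {P : List Instr} {BW q m n a b L : ℕ} (v : ℕ → ℕ) (hc : CodeAt P q codeA) (hb1 : 1 ≤ BW)
    (c : Conf) (hpc : c.pc = q) (h0 : ∀ r, c.reg r = 0) (h1 : c.mem 0 = m) (h2 : c.mem 1 = n)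
    (h3 : c.mem 2 = a) (h4 : c.mem 3 = b) (hM : ∀ x, bl (c.mem x) ≤ BW)
    (hv : ∀ j, j < m + n → c.mem (4 + j) = v j)
    (hL : L = m + n + a + 2 + Nat.size b + ∑ j ∈ Finset.range (m + n), Nat.size (v j)) (hLB : L + 4 ≤ BW) :
    ∃ c', Reach P BW c c' (stepsA b (m + n) L) ∧ c'.pc = q + codeA.length ∧
      c'.reg 19 = 1 ∧ c'.reg 26 = 2 ∧ c'.reg 29 = m ∧ c'.reg 30 = n ∧ c'.reg 28 = ((4 + (m + n) : ℕ) : ℤ) ∧
      c'.reg 24 = L ∧ c'.reg 0 = 0 ∧ c'.mem = c.mem ∧ Bits c' BW := by
  have hc1 : CodeAt P c.pc initA := by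
    rw [hpc]
    exact hc.left.left.left
  have hc2 : CodeAt P (q + 11) (whileCode 25 sizeBody) := hc.left.left.right
  have hc3 : CodeAt P (q + 16) [.add 27 29 30] := by
    have := hc.left.right
    simp only [List.length_append, whileCode_length] at this
    exact this
  have hc4 : CodeAt P (q + 17) (whileCode 27 outerBody) := by
    have := hc.right
    simp only [List.length_append, whileCode_length, List.length_cons, List.length_nil] at this
    exact this
  have hb0 : Bits c BW := ⟨fun r => by rw [h0]; simp [bl], hM⟩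
  have r1 := Reach.plain (BW := BW) hc1 (by simp [initA, plain]) (by simp [initA, smallB]) (by simp [initA]) hb1 hb0
  obtain ⟨a1, a2, a3, a4, a5, a6, a7, a8, a9, a10, a11⟩ := initA_spec c m n a b h0 h1 h2 h3 h4
  set c1 := execL initA c with hc1'
  have hsum : ∀ j ∈ Finset.range (m + n), Nat.size (v j) ≤ ∑ j ∈ Finset.range (m + n), Nat.size (v j) := fun j hj =>
    Finset.single_le_sum (f := fun j => Nat.size (v j)) (fun _ _ => Nat.zero_le _) hj
  have hb1' : Bits c1 BW := by
    refine ⟨fun r => ?_, by rw [a11]; exact hM⟩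
    by_cases e19 : r = 19
    · subst e19; exact bl_nat_le (n := 1) a1 (by omega)
    by_cases e26 : r = 26
    · subst e26; exact bl_nat_le (n := 2) a2 (by omega)
    by_cases e29 : r = 29
    · subst e29; exact bl_nat_le a3 (by omega)
    by_cases e30 : r = 30
    · subst e30; exact bl_nat_le a4 (by omega)
    by_cases e28 : r = 28
    · subst e28; exact bl_nat_le (n := 4) a5 (by omega)
    by_cases e25 : r = 25
    · subst e25
      rw [a6, bl_natCast]
      omega
    by_cases e24 : r = 24
    · subst e24; exact bl_nat_le a7 (by omega)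
    by_cases e1 : r = 1
    · subst e1; exact bl_nat_le (n := 3) a8 (by omega)
    by_cases e31 : r = 31
    · subst e31; exact bl_nat_le a9 (by omega)
    · rw [a10 r e19 e26 e29 e30 e28 e25 e24 e1 e31]
      simp [bl]
  have p1 : c1.pc = q + 11 := by
    rw [hc1', execL_pc (by simp [initA, plain]), hpc]
    simp [initA]
  obtain ⟨c2, r2, p2, b1, b2, b3, b4, b5⟩ := size_spec (BW := BW) hc2 hb1 c1 p1 b (m + n + a + 2) a6 a7 a1 a2 hb1'
    ((size_le_self' _).trans (by omega))
  have p2' : c2.pc = q + 16 := by rw [p2]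
  have r3 := Reach.plain (BW := BW) (l := [.add 27 29 30]) (c := c2) (by rw [p2']; exact hc3) (by simp [plain])
    (by simp [smallB]) (by simp) hb1 b5
  set c3 := execL [.add 27 29 30] c2 with hc3'
  have k : ∀ r, r ≠ 24 → r ≠ 25 → c2.reg r = c1.reg r := b3
  have d19 : c2.reg 19 = 1 := by rw [k 19 (by norm_num) (by norm_num)]; exact a1
  have d26 : c2.reg 26 = 2 := by rw [k 26 (by norm_num) (by norm_num)]; exact a2
  have d29 : c2.reg 29 = m := by rw [k 29 (by norm_num) (by norm_num)]; exact a3
  have d30 : c2.reg 30 = n := by rw [k 30 (by norm_num) (by norm_num)]; exact a4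
  have d28 : c2.reg 28 = 4 := by rw [k 28 (by norm_num) (by norm_num)]; exact a5
  have d0 : c2.reg 0 = 0 := by
    rw [k 0 (by norm_num) (by norm_num), a10 0 (by norm_num) (by norm_num) (by norm_num) (by norm_num) (by norm_num) (by norm_num) (by norm_num) (by norm_num) (by norm_num)]
  have f : ∀ r, r ≠ 27 → c3.reg r = c2.reg r := by
    intro r hr
    simp [hc3', exec_add_reg, hr]
  have f27 : c3.reg 27 = ((m + n : ℕ) : ℤ) := by
    simp [hc3', exec_add_reg, d29, d30]
  have hb3 : Bits c3 BW := by
    refine ⟨fun r => ?_, b5.2⟩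
    by_cases h : r = 27
    · subst h
      exact bl_nat_le f27 (by omega)
    · rw [f r h]
      exact b5.1 r
  have p3 : c3.pc = q + 17 := by
    simp only [hc3', execL_cons, execL_nil, exec, p2']
  have hm3 : c3.mem = c.mem := by
    show c2.mem = c.mem
    rw [b4, a11]
  have hsum2 : (m + n + a + 2 + Nat.size b) + ∑ j ∈ Finset.range (m + n), Nat.size (v j) ≤ L := by omega
  obtain ⟨c4, r4, p4, e1, e2, e3, e4, e5⟩ := outer_spec (P := P) (BW := BW) (q := q + 17) (t := m + n)
    (acc0 := m + n + a + 2 + Nat.size b) (L := L) v hc4 hb1 c3 p3 f27 (by rw [f 28 (by norm_num)]; exact d28)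
    (by rw [f 24 (by norm_num)]; exact b1)
    (by rw [f 19 (by norm_num)]; exact d19)
    (by rw [f 26 (by norm_num)]; exact d26)
    hb3 (fun j hj => by rw [hm3]; exact hv j hj) hsum2 (by omega) (by omega)
  refine ⟨c4, ?_, ?_, ?_, ?_, ?_, ?_, ?_, ?_, ?_, ?_, e5⟩
  · unfold stepsA
    simp only [List.length_cons, List.length_nil] at r3
    have := r1.trans (r2.trans (r3.trans r4))
    refine this.mono ?_
    simp [initA]
    omega
  · rw [p4]
    simp [codeA, whileCode_length, initA, sizeBody, outerBody]
  · rw [e3 19 (by norm_num) (by norm_num) (by norm_num) (by norm_num), f 19 (by norm_num)]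
    exact d19
  · rw [e3 26 (by norm_num) (by norm_num) (by norm_num) (by norm_num), f 26 (by norm_num)]
    exact d26
  · rw [e3 29 (by norm_num) (by norm_num) (by norm_num) (by norm_num), f 29 (by norm_num)]
    exact d29
  · rw [e3 30 (by norm_num) (by norm_num) (by norm_num) (by norm_num), f 30 (by norm_num)]
    exact d30
  · exact e2
  · rw [e1, hL]
  · rw [e3 0 (by norm_num) (by norm_num) (by norm_num) (by norm_num), f 0 (by norm_num)]
    exact d0
  · rw [e4, hm3]

end Vale.Agent.Lib.P328.Ram
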