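import Vale.Agent.Lib.P328.Ram.PhaseA

/-!
# P328: the start of the machine: the parameter `S`, the saturation bound
-/

namespace Vale.Agent.Lib.P328.Ram

open Vale.Agent.Lib.P328.Bit (Val Prog sem time wid clamp arith time_poly)

/-- From `L` in register `24` compute `S = L ^ 100` in register `18` and `S ^ 6` in register `40`; set register `22`. -/
def initB : List Instr :=
  [.mul 32 24 24, .mul 33 32 32, .mul 34 33 33, .mul 35 34 34, .mul 36 35 35, .mul 37 36 36, .mul 18 37 36,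
   .mul 18 18 33, .mul 38 18 18, .mul 39 38 38, .mul 40 39 38, .mov 22 19]

theorem initB_spec (c : Conf) (L : ℕ) (h24 : c.reg 24 = L) (h19 : c.reg 19 = 1) :
    (execL initB c).reg 18 = ((L ^ 100 : ℕ) : ℤ) ∧ (execL initB c).reg 40 = ((wid (L ^ 100) : ℕ) : ℤ) ∧
    (execL initB c).reg 22 = 1 ∧
    (execL initB c).reg 32 = ((L ^ 2 : ℕ) : ℤ) ∧ (execL initB c).reg 33 = ((L ^ 4 : ℕ) : ℤ) ∧
    (execL initB c).reg 34 = ((L ^ 8 : ℕ) : ℤ) ∧ (execL initB c).reg 35 = ((L ^ 16 : ℕ) : ℤ) ∧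
    (execL initB c).reg 36 = ((L ^ 32 : ℕ) : ℤ) ∧ (execL initB c).reg 37 = ((L ^ 64 : ℕ) : ℤ) ∧
    (execL initB c).reg 38 = ((L ^ 200 : ℕ) : ℤ) ∧ (execL initB c).reg 39 = ((L ^ 400 : ℕ) : ℤ) ∧
    (∀ r, r ≠ 18 → r ≠ 22 → r ≠ 32 → r ≠ 33 → r ≠ 34 → r ≠ 35 → r ≠ 36 → r ≠ 37 → r ≠ 38 → r ≠ 39 → r ≠ 40 →
      (execL initB c).reg r = c.reg r) ∧
    (execL initB c).mem = c.mem := by
  have hw : wid (L ^ 100) = L ^ 600 := by
    unfold wid
    ring
  rw [hw]
  simp only [initB, execL_cons, execL_nil, exec_mul_reg, exec_mov_reg, exec_mul_mem, exec_mov_mem,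
    Nat.reduceEqDiff, if_true, if_false, h24, h19]
  refine ⟨?_, ?_, trivial, ?_, ?_, ?_, ?_, ?_, ?_, ?_, ?_,
    fun r a1 a2 a3 a4 a5 a6 a7 a8 a9 a10 a11 => by
      simp only [a1, a2, a3, a4, a5, a6, a7, a8, a9, a10, a11, if_false], trivial⟩ <;> (push_cast; ring)

/-- Double register `22`, counting down register `40`. -/
def doubleBody : List Instr := [.add 22 22 22, .sub 40 40 19]

theorem double_spec {P : List Instr} {BW q W : ℕ} (hc : CodeAt P q (whileCode 40 doubleBody)) (hb : 1 ≤ BW)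
    (c : Conf) (hpc : c.pc = q) (h40 : c.reg 40 = W) (h22 : c.reg 22 = 1) (h19 : c.reg 19 = 1) (hbits : Bits c BW)
    (hW : W + 1 ≤ BW) :
    ∃ c', Reach P BW c c' (W * (2 + 2) + 2) ∧ c'.pc = q + 5 ∧ c'.reg 22 = 2 ^ W ∧ c'.reg 40 = 0 ∧
      (∀ r, r ≠ 22 → r ≠ 40 → c'.reg r = c.reg r) ∧ c'.mem = c.mem ∧ Bits c' BW := by
  let Inv : ℕ → (ℕ → ℤ) → (ℕ → ℤ) → Prop := fun i R M =>
    i ≤ W ∧ R 40 = i ∧ R 22 = 2 ^ (W - i) ∧ (∀ r, r ≠ 22 → r ≠ 40 → R r = c.reg r) ∧ M = c.mem
  have hI : ∀ i R M, Inv i R M → (∀ r, bl (R r) ≤ BW) ∧ (∀ a, bl (M a) ≤ BW) := by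
    rintro i R M ⟨h1, h2, h3, h4, h5⟩
    constructor
    · intro r
      by_cases r22 : r = 22
      · subst r22
        rw [h3]
        exact (bl_pow_two _).trans (by omega)
      · by_cases r40 : r = 40
        · subst r40
          exact bl_nat_le h2 (by omega)
        · rw [h4 r r22 r40]
          exact hbits.1 r
    · rw [h5]
      exact hbits.2
  have hspec := while_spec (P := P) (BW := BW) (q := q) (s := 40) (N := 2) (body := doubleBody) Inv hc hb
    (by
      rintro i R M ⟨_, h2, _⟩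
      rw [h2]
      omega)
    hI
    (by
      intro i c1 hp1 hI1
      have hbits1 : Bits c1 BW := hI _ _ _ hI1
      obtain ⟨h1, h2, h3, h4, h5⟩ := hI1
      have hcb : CodeAt P c1.pc doubleBody := by
        rw [hp1]
        have h9 : CodeAt P q (([.jpos 40 2, .jmp ((doubleBody.length : ℤ) + 2)] : List Instr) ++ doubleBody) :=
          CodeAt.left hc
        exact h9.right
      have e19 : c1.reg 19 = 1 := by rw [h4 19 (by norm_num) (by norm_num)]; exact h19
      have r1 := Reach.plain (BW := BW) hcb (by simp [doubleBody, plain]) (by simp [doubleBody, smallB]) (by simp [doubleBody]) hb hbits1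
      refine ⟨_, r1, ?_, by omega, ?_, ?_, ?_, ?_⟩
      · rw [execL_pc (by simp [doubleBody, plain]), hp1]
      · simp only [doubleBody, execL_cons, execL_nil, exec_add_reg, exec_sub_reg, Nat.reduceEqDiff, if_false, if_true, h2, e19]
        push_cast
        ring
      · simp only [doubleBody, execL_cons, execL_nil, exec_add_reg, exec_sub_reg, Nat.reduceEqDiff, if_false, if_true, h3]
        have : W - i = W - (i + 1) + 1 := by omega
        rw [this, pow_succ]
        ring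
      · intro r a1 a2
        simp only [doubleBody, execL_cons, execL_nil, exec_add_reg, exec_sub_reg, a1, a2, if_false]
        exact h4 r a1 a2
      · simp only [doubleBody, execL_cons, execL_nil, exec_add_mem, exec_sub_mem]
        exact h5) W c hpc ⟨le_rfl, h40, by simp [h22], fun _ _ _ => rfl, rfl⟩
  obtain ⟨c', r1, p1, hI'⟩ := hspec
  have hb' : Bits c' BW := hI _ _ _ hI'
  obtain ⟨h1, h2, h3, h4, h5⟩ := hI'
  refine ⟨c', r1, ?_, by rw [h3]; simp, by rw [h2]; simp, h4, h5, hb'⟩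
  rw [p1]
  simp [doubleBody]

/-- Set the remaining fixed registers. -/
def initD : List Instr :=
  [.sub 23 0 22, .mov 21 28, .add 1 26 19, .add 17 28 1, .mov 41 21, .mov 27 30]

theorem initD_spec (c : Conf) (h0 : c.reg 0 = 0) (h19 : c.reg 19 = 1) (h26 : c.reg 26 = 2) :
    (execL initD c).reg 23 = - c.reg 22 ∧ (execL initD c).reg 21 = c.reg 28 ∧ (execL initD c).reg 1 = 3 ∧
    (execL initD c).reg 17 = c.reg 28 + 3 ∧ (execL initD c).reg 41 = c.reg 28 ∧ (execL initD c).reg 27 = c.reg 30 ∧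
    (∀ r, r ≠ 23 → r ≠ 21 → r ≠ 1 → r ≠ 17 → r ≠ 41 → r ≠ 27 → (execL initD c).reg r = c.reg r) ∧
    (execL initD c).mem = c.mem := by
  simp only [initD, execL_cons, execL_nil, exec_sub_reg, exec_mov_reg, exec_add_reg, exec_sub_mem, exec_mov_mem, exec_add_mem,
    Nat.reduceEqDiff, if_true, if_false, h0, h19, h26]
  refine ⟨by ring, trivial, by norm_num, by norm_num, trivial, trivial, ?_, trivial⟩
  intro r a1 a2 a3 a4 a5 a6
  simp only [a1, a2, a3, a4, a5, a6, if_false]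

end Vale.Agent.Lib.P328.Ram
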