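import Vale.Agent.Lib.P328.Ram.Compile

/-!
# P328: deterministic runs of the machine, and while loops
-/

namespace Vale.Agent.Lib.P328.Ram

open Vale.Agent.Lib.P328.Bit (Val Prog sem time wid clamp arith time_poly)

/-- The machine goes from `c` to `c'` deterministically in at most `n` steps, of cost at most `Qc BW` on average. -/
def Reach (P : List Instr) (BW : ℕ) (c c' : Conf) (n : ℕ) : Prop :=
  ∃ T, T ≤ n ∧ run P T c = PMF.pure c' ∧ c'.cost ≤ c.cost + n * Qc BW

theorem Reach.refl (P : List Instr) (BW : ℕ) (c : Conf) : Reach P BW c c 0 :=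
  ⟨0, le_rfl, rfl, by omega⟩

theorem Reach.trans {P : List Instr} {BW : ℕ} {c c1 c2 : Conf} {n1 n2 : ℕ} (h1 : Reach P BW c c1 n1)
    (h2 : Reach P BW c1 c2 n2) : Reach P BW c c2 (n1 + n2) := by
  obtain ⟨T1, a1, b1, d1⟩ := h1
  obtain ⟨T2, a2, b2, d2⟩ := h2
  refine ⟨T1 + T2, by omega, by rw [run_add, b1, PMF.pure_bind, b2], ?_⟩
  rw [Nat.add_mul]
  omega

theorem Reach.mono {P : List Instr} {BW : ℕ} {c c1 : Conf} {n1 n2 : ℕ} (h1 : Reach P BW c c1 n1)
    (h : n1 ≤ n2) : Reach P BW c c1 n2 := by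
  obtain ⟨T1, a1, b1, d1⟩ := h1
  refine ⟨T1, by omega, b1, d1.trans ?_⟩
  have := Nat.mul_le_mul_right (Qc BW) h
  omega

theorem Reach.plain {P : List Instr} {BW : ℕ} {c : Conf} {l : List Instr} (hc : CodeAt P c.pc l)
    (hpl : ∀ i ∈ l, plain i = true) (hsm : ∀ i ∈ l, smallB i = true) (hn : l.length ≤ 100) (hb : 1 ≤ BW)
    (h : Bits c BW) : Reach P BW c (execL l c) l.length :=
  ⟨l.length, le_rfl, run_plain hc hpl, execL_cost (fun i hi => smallB_spec (hsm i hi)) hn hb h⟩

theorem Reach.one {P : List Instr} {BW : ℕ} {c : Conf} {i : Instr} (hs : step P c = PMF.pure (exec i c))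
    (hi : smallConst i) (hb : 1 ≤ BW) (h : Bits c BW) : Reach P BW c (exec i c) 1 := by
  refine ⟨1, le_rfl, run_one_det hs, ?_⟩
  have h1 := (exec_bits hi hb h).2
  have h2 : (1 + 2 * BW) ^ 2 ≤ Qc BW := by
    unfold Qc
    apply Nat.pow_le_pow_left
    have : 1 ≤ 2 ^ 100 := Nat.one_le_two_pow
    nlinarith
  omega

/-- A while loop. -/
def whileCode (s : ℕ) (body : List Instr) : List Instr :=
  ([.jpos s 2, .jmp ((body.length : ℤ) + 2)] : List Instr) ++ body ++ [.jmp (-((body.length : ℤ) + 2))]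

theorem whileCode_length (s : ℕ) (body : List Instr) : (whileCode s body).length = body.length + 3 := by
  simp [whileCode]

theorem while_spec {P : List Instr} {BW q s N : ℕ} {body : List Instr}
    (Inv : ℕ → (ℕ → ℤ) → (ℕ → ℤ) → Prop) (hc : CodeAt P q (whileCode s body)) (hb : 1 ≤ BW)
    (hs : ∀ i R M, Inv i R M → (0 < R s ↔ 0 < i))
    (hbits : ∀ i R M, Inv i R M → (∀ r, bl (R r) ≤ BW) ∧ (∀ a, bl (M a) ≤ BW))
    (hbody : ∀ i (c : Conf), c.pc = q + 2 → Inv (i + 1) c.reg c.mem →
      ∃ c', Reach P BW c c' N ∧ c'.pc = q + 2 + body.length ∧ Inv i c'.reg c'.mem) (n : ℕ) :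
    ∀ c : Conf, c.pc = q → Inv n c.reg c.mem →
      ∃ c', Reach P BW c c' (n * (N + 2) + 2) ∧ c'.pc = q + 3 + body.length ∧ Inv 0 c'.reg c'.mem := by
  have hj1 : P[q]? = some (.jpos s 2) := by
    have := hc 0 (by simp [whileCode])
    simpa [whileCode] using this
  have hj2 : P[q + 1]? = some (.jmp ((body.length : ℤ) + 2)) := by
    have := hc 1 (by simp [whileCode])
    simpa [whileCode] using this
  have hj3 : P[q + 2 + body.length]? = some (.jmp (-((body.length : ℤ) + 2))) := by
    have h3 := CodeAt.right hc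
    simp only [List.length_append, List.length_cons, List.length_nil] at h3
    have h4 := h3.head
    rwa [show q + (0 + 1 + 1 + body.length) = q + 2 + body.length by omega] at h4
  have hsm1 : smallConst (.jpos s 2) := smallConst_of_not_const (by simp)
  have hsmj : ∀ off, smallConst (.jmp off) := fun off => smallConst_of_not_const (by simp)
  induction n with
  | zero =>
    intro c hpc hI
    obtain ⟨h1, h2⟩ := hbits _ _ _ hI
    have hneg : ¬ 0 < c.reg s := by
      rw [hs _ _ _ hI]
      omega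
    have hp1 : (exec (.jpos s 2) c).pc = q + 1 := by
      simp only [exec, hneg, if_false, hpc]
    have r1 := Reach.one (P := P) (BW := BW) (c := c) (i := .jpos s 2) (step_jpos (by rw [hpc]; exact hj1)) hsm1 hb ⟨h1, h2⟩
    have r2 := Reach.one (P := P) (BW := BW) (c := exec (.jpos s 2) c) (i := .jmp ((body.length : ℤ) + 2))
      (step_jmp (by rw [hp1]; exact hj2)) (hsmj _) hb ⟨h1, h2⟩
    refine ⟨_, (r1.trans r2).mono (by omega), ?_, hI⟩
    show ((((exec (.jpos s 2) c).pc : ℕ) : ℤ) + ((body.length : ℤ) + 2)).toNat = _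
    rw [hp1]
    push_cast
    omega
  | succ n ih =>
    intro c hpc hI
    obtain ⟨h1, h2⟩ := hbits _ _ _ hI
    have hpos : 0 < c.reg s := by
      rw [hs _ _ _ hI]
      omega
    have hp1 : (exec (.jpos s 2) c).pc = q + 2 := by
      simp only [exec, hpos, if_true, hpc]
      omega
    have r1 := Reach.one (P := P) (BW := BW) (c := c) (i := .jpos s 2) (step_jpos (by rw [hpc]; exact hj1)) hsm1 hb ⟨h1, h2⟩
    obtain ⟨c2, r2, p2, hI2⟩ := hbody n (exec (.jpos s 2) c) hp1 hI
    obtain ⟨h3, h4⟩ := hbits _ _ _ hI2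
    have r3 := Reach.one (P := P) (BW := BW) (c := c2) (i := .jmp (-((body.length : ℤ) + 2)))
      (step_jmp (by rw [p2]; exact hj3)) (hsmj _) hb ⟨h3, h4⟩
    have p3 : (exec (.jmp (-((body.length : ℤ) + 2))) c2).pc = q := by
      show (((c2.pc : ℕ) : ℤ) + (-((body.length : ℤ) + 2))).toNat = _
      rw [p2]
      push_cast
      omega
    obtain ⟨c4, r4, p4, hI4⟩ := ih _ p3 hI2
    refine ⟨c4, ((r1.trans r2).trans (r3.trans r4)).mono ?_, p4, hI4⟩
    have : (n + 1) * (N + 2) = n * (N + 2) + N + 2 := by ring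
    omega

/-! ### The number of bits -/

theorem size_half {y : ℕ} (hy : 0 < y) : Nat.size (y / 2) + 1 = Nat.size y := by
  apply le_antisymm
  · have h1 : Nat.size y ≠ 0 := by
      intro h
      have := Nat.size_pos.2 hy
      omega
    obtain ⟨k, hk⟩ := Nat.exists_eq_succ_of_ne_zero h1
    rw [hk]
    have h2 : y < 2 ^ (k + 1) := by
      have := Nat.lt_size_self y
      rwa [hk] at this
    have h3 : y / 2 < 2 ^ k := by
      rw [pow_succ] at h2
      omega
    have := Nat.size_le.2 h3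
    omega
  · rw [Nat.size_le]
    have h2 : y / 2 < 2 ^ Nat.size (y / 2) := Nat.lt_size_self _
    rw [pow_succ]
    omega

/-- The body of the count of bits: halve register `25`, count in register `24`. -/
def sizeBody : List Instr := [.div 25 25 26, .add 24 24 19]

/-- Count the bits of register `25` into register `24`. -/
theorem size_spec {P : List Instr} {BW q : ℕ} (hc : CodeAt P q (whileCode 25 sizeBody)) (hb : 1 ≤ BW)
    (c : Conf) (hpc : c.pc = q) (x acc : ℕ) (h25 : c.reg 25 = x) (h24 : c.reg 24 = acc)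
    (h19 : c.reg 19 = 1) (h26 : c.reg 26 = 2) (hbits : Bits c BW)
    (hacc : Nat.size (acc + Nat.size x) ≤ BW) :
    ∃ c', Reach P BW c c' (Nat.size x * (2 + 2) + 2) ∧ c'.pc = q + 5 ∧
      c'.reg 24 = ((acc + Nat.size x : ℕ) : ℤ) ∧ c'.reg 25 = 0 ∧
      (∀ r, r ≠ 24 → r ≠ 25 → c'.reg r = c.reg r) ∧ c'.mem = c.mem ∧ Bits c' BW := by
  let Inv : ℕ → (ℕ → ℤ) → (ℕ → ℤ) → Prop := fun i R M =>
    ∃ y : ℕ, Nat.size y = i ∧ R 25 = y ∧ y ≤ x ∧ i ≤ Nat.size x ∧ R 24 = ((acc + (Nat.size x - i) : ℕ) : ℤ) ∧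
      (∀ r, r ≠ 24 → r ≠ 25 → R r = c.reg r) ∧ M = c.mem
  have hx : Nat.size x ≤ BW := by
    have := hbits.1 25
    rw [h25, bl_natCast] at this
    exact this
  have hI : ∀ i R M, Inv i R M → (∀ r, bl (R r) ≤ BW) ∧ (∀ a, bl (M a) ≤ BW) := by
    rintro i R M ⟨y, h1, h2, h3, h4, h5, h6, h7⟩
    constructor
    · intro r
      by_cases hr : r = 25
      · subst hr
        rw [h2, bl_natCast]
        exact (Nat.size_le_size h3).trans hx
      · by_cases hr' : r = 24
        · subst hr'
          rw [h5, bl_natCast]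
          exact (Nat.size_le_size (by omega)).trans hacc
        · rw [h6 r hr' hr]
          exact hbits.1 r
    · rw [h7]
      exact hbits.2
  have hspec := while_spec (P := P) (BW := BW) (q := q) (s := 25) (N := 2) (body := sizeBody) Inv hc hb
    (by
      rintro i R M ⟨y, h1, h2, _, _, _, _, _⟩
      rw [h2, ← h1, Nat.size_pos]
      omega)
    hI
    (by
      intro i c1 hp1 hI1
      have hbits1 : Bits c1 BW := hI _ _ _ hI1
      obtain ⟨y, h1, h2, h3, h4, h5, h6, h7⟩ := hI1
      have hy : 0 < y := by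
        rw [← Nat.size_pos, h1]
        omega
      have hsz := size_half hy
      have e26 : c1.reg 26 = 2 := by rw [h6 26 (by norm_num) (by norm_num)]; exact h26
      have e19 : c1.reg 19 = 1 := by rw [h6 19 (by norm_num) (by norm_num)]; exact h19
      have hcb : CodeAt P c1.pc sizeBody := by
        rw [hp1]
        have h9 : CodeAt P q (([.jpos 25 2, .jmp ((sizeBody.length : ℤ) + 2)] : List Instr) ++ sizeBody) :=
          CodeAt.left hc
        exact h9.right
      have r1 := Reach.plain (BW := BW) hcb (by simp [sizeBody, plain]) (by simp [sizeBody, smallB]) (by simp [sizeBody]) hb hbits1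
      refine ⟨_, r1, ?_, y / 2, ?_, ?_, ?_, ?_, ?_, ?_, ?_⟩
      · rw [execL_pc (by simp [sizeBody, plain]), hp1]
      · omega
      · simp only [sizeBody, execL_cons, execL_nil, exec_add_reg, exec_div_reg, Nat.reduceEqDiff, if_false, if_true, exec_div_mem]
        rw [h2, e26]
        push_cast
        rfl
      · exact (Nat.div_le_self _ _).trans h3
      · omega
      · simp only [sizeBody, execL_cons, execL_nil, exec_add_reg, exec_div_reg, Nat.reduceEqDiff, if_false, if_true]
        rw [h5, e19]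
        push_cast
        omega
      · intro r hr1 hr2
        simp only [sizeBody, execL_cons, execL_nil, exec_add_reg, exec_div_reg, hr1, hr2, if_false]
        exact h6 r hr1 hr2
      · simp only [sizeBody, execL_cons, execL_nil, exec_add_mem, exec_div_mem]
        exact h7) (Nat.size x) c hpc ⟨x, rfl, h25, le_rfl, le_rfl, by simp [h24], fun _ _ _ => rfl, rfl⟩
  obtain ⟨c', r1, p1, hI'⟩ := hspec
  have hb' : Bits c' BW := hI _ _ _ hI'
  obtain ⟨y, h1, h2, h3, h4, h5, h6, h7⟩ := hI'
  have hy0 : y = 0 := by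
    by_contra h
    have : 0 < Nat.size y := Nat.size_pos.2 (by omega)
    omega
  refine ⟨c', r1, ?_, by rw [h5]; simp, by rw [h2, hy0]; simp, h6, h7, hb'⟩
  rw [p1]
  simp [sizeBody]

end Vale.Agent.Lib.P328.Ram
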