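import Vale.Agent.Lib.P328.Bit.Lang
import Vale.Agent.Lib.P328.Ram.Machine

/-!
# P328: values of the bit language in the memory of the machine

A node at address `p` has three cells: a tag, and two more. Tag at most `0`: the empty list.
Tag `1`: a number, in the next cell. Tag above `1`: a pair, the pointers in the next two cells,
pointing to smaller addresses.

Registers: `0..15` scratch (zero between blocks), `16` the current value, `17` the heap pointer,
`18` the parameter `S`, `19` the constant `1`, `21` a node of the empty list, `22` the saturation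
bound `2 ^ wid S`, `23` its negative, from `24` on registers that save values.
-/

namespace Vale.Agent.Lib.P328.Ram

open Vale.Agent.Lib.P328.Bit (Val Prog sem time wid clamp arith)

/-- `Rep mem p v`: the value `v` is stored at address `p`. -/
inductive Rep (mem : ℕ → ℤ) : ℕ → Val → Prop
  | nil {p : ℕ} : mem p ≤ 0 → Rep mem p .nil
  | num {p : ℕ} {z : ℤ} : mem p = 1 → mem (p + 1) = z → Rep mem p (.num z)
  | pair {p : ℕ} {a b : Val} : 1 < mem p → 0 ≤ mem (p + 1) → 0 ≤ mem (p + 2) →
      (mem (p + 1)).toNat < p → (mem (p + 2)).toNat < p →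
      Rep mem (mem (p + 1)).toNat a → Rep mem (mem (p + 2)).toNat b → Rep mem p (.pair a b)

theorem Rep.frame {mem mem' : ℕ → ℤ} {p : ℕ} {v : Val} (h : Rep mem p v)
    (hm : ∀ a, a < p + 3 → mem' a = mem a) : Rep mem' p v := by
  induction h with
  | nil h0 => exact .nil (by rw [hm _ (by omega)]; exact h0)
  | num h0 h1 => exact .num (by rw [hm _ (by omega)]; exact h0) (by rw [hm _ (by omega)]; exact h1)
  | @pair p a b h0 h01 h02 h1 h2 _ _ ih1 ih2 =>
    have e1 : mem' (p + 1) = mem (p + 1) := hm _ (by omega)
    have e2 : mem' (p + 2) = mem (p + 2) := hm _ (by omega)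
    refine .pair (by rw [hm _ (by omega)]; exact h0) (by rw [e1]; exact h01) (by rw [e2]; exact h02)
      (by rw [e1]; exact h1) (by rw [e2]; exact h2) ?_ ?_
    · rw [e1]
      exact ih1 fun a ha => hm a (by omega)
    · rw [e2]
      exact ih2 fun a ha => hm a (by omega)

theorem Rep.unique {mem : ℕ → ℤ} {p : ℕ} {v v' : Val} (h : Rep mem p v) (h' : Rep mem p v') :
    v = v' := by
  induction h generalizing v' with
  | nil h0 =>
    cases h' with
    | nil _ => rfl
    | num h1 _ => omega
    | pair h1 _ _ _ _ _ _ => omega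
  | num h0 h1 =>
    cases h' with
    | nil h2 => omega
    | num _ h3 => rw [← h1, h3]
    | pair h2 _ _ _ _ _ _ => omega
  | pair h0 _ _ _ _ _ _ ih1 ih2 =>
    cases h' with
    | nil h2 => omega
    | num h2 _ => omega
    | pair _ _ _ _ _ h3 h4 => rw [ih1 h3, ih2 h4]

/-- The value at an address. -/
noncomputable def decP (mem : ℕ → ℤ) (p : ℕ) : Val :=
  open Classical in if h : ∃ v, Rep mem p v then h.choose else .nil

theorem Rep.decP_eq {mem : ℕ → ℤ} {p : ℕ} {v : Val} (h : Rep mem p v) : decP mem p = v := by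
  unfold decP
  have h' : ∃ v, Rep mem p v := ⟨v, h⟩
  rw [dif_pos h']
  exact h'.choose_spec.unique h

/-- The heap pointer. -/
def hp (c : Conf) : ℕ := (c.reg 17).toNat

/-- Register `r` holds a pointer to `v` below the heap pointer. -/
def Live (c : Conf) (r : ℕ) (v : Val) : Prop :=
  0 ≤ c.reg r ∧ (c.reg r).toNat + 3 ≤ hp c ∧ Rep c.mem (c.reg r).toNat v

/-- The current value of a configuration. -/
noncomputable def dec (c : Conf) : Val := decP c.mem (c.reg 16).toNat

theorem Live.dec_eq {c : Conf} {v : Val} (h : Live c 16 v) : dec c = v := h.2.2.decP_eq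

/-- The invariant between blocks. -/
structure Good (S BW : ℕ) (c : Conf) : Prop where
  temps : ∀ r, r < 16 → c.reg r = 0
  hp_nonneg : 0 ≤ c.reg 17
  sreg : c.reg 18 = S
  one : c.reg 19 = 1
  nilp : Live c 21 .nil
  pw : c.reg 22 = 2 ^ wid S
  npw : c.reg 23 = -2 ^ wid S
  bits : Bits c BW

/-- What a fragment guarantees. -/
structure After (S BW k τ pc' : ℕ) (c c' : Conf) : Prop where
  pc : c'.pc = pc'
  good : Good S BW c'
  live : ∃ v', Live c' 16 v'
  saved : ∀ r, 24 ≤ r → r < k → c'.reg r = c.reg r
  nilp : c'.reg 21 = c.reg 21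
  heap : ∀ a, a < hp c → c'.mem a = c.mem a
  hp_le : hp c ≤ hp c'
  hp_le' : hp c' ≤ hp c + 3 * τ
  cost : c'.cost ≤ c.cost + τ * Qc BW

/-- The code at `pc` of length `len` runs the program `p`, in exactly `τ` steps. -/
def Frag (P : List Instr) (S BW Hmax pc k τ len : ℕ) (p : Prog) : Prop :=
  ∀ c v, c.pc = pc → Good S BW c → Live c 16 v → hp c + 3 * τ ≤ Hmax →
    (∀ c' ∈ (run P τ c).support, After S BW k τ (pc + len) c c') ∧
    (run P τ c).map dec = sem p S v

/-- The conditions on the sizes. -/
structure Par (S BW Hmax : ℕ) : Prop where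
  bw : wid S + 3 ≤ BW
  sS : Nat.size S ≤ BW
  sH : Nat.size Hmax ≤ BW

theorem bl_natCast (n : ℕ) : bl (n : ℤ) = Nat.size n := by
  simp [bl]

theorem bl_le_of_nat_le {z : ℤ} {n B : ℕ} (h0 : 0 ≤ z) (h : z ≤ n) (hB : Nat.size n ≤ B) : bl z ≤ B := by
  obtain ⟨m, rfl⟩ := Int.eq_ofNat_of_zero_le h0
  rw [bl_natCast]
  exact (Nat.size_le_size (by omega)).trans hB

theorem bl_pow_two (w : ℕ) : bl (2 ^ w) ≤ w + 1 := by
  rw [bl_le_iff]
  have : ((2 : ℤ) ^ w).natAbs = 2 ^ w := by simp [Int.natAbs_pow]
  rw [this, pow_succ]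
  have : 0 < 2 ^ w := by positivity
  omega

/-! ### Straight line code that writes only scratch registers -/

/-- The instruction writes only a scratch register and goes on. -/
def tempOnly : Instr → Bool
  | .const d _ => decide (d < 16)
  | .mov d _ => decide (d < 16)
  | .load d _ => decide (d < 16)
  | .add d _ _ => decide (d < 16)
  | .sub d _ _ => decide (d < 16)
  | .mul d _ _ => decide (d < 16)
  | .div d _ _ => decide (d < 16)
  | .cmov d _ _ => decide (d < 16)
  | _ => false

theorem tempOnly_plain {i : Instr} (h : tempOnly i = true) : plain i = true := by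
  cases i <;> simp_all [tempOnly, plain]

theorem exec_tempOnly {i : Instr} (h : tempOnly i = true) (c : Conf) :
    (∀ r, 16 ≤ r → (exec i c).reg r = c.reg r) ∧ (exec i c).mem = c.mem := by
  have key : ∀ (d : ℕ) (z : ℤ) (r : ℕ), d < 16 → 16 ≤ r → Function.update c.reg d z r = c.reg r := by
    intro d z r hd hr
    rw [Function.update_of_ne (by omega)]
  cases i <;> simp only [tempOnly, decide_eq_true_eq, reduceCtorEq] at h
  all_goals
    refine ⟨fun r hr => ?_, rfl⟩
    simp only [exec]
    first
      | exact key _ _ _ h hr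
      | (split_ifs
         · exact key _ _ _ h hr
         · rfl)

theorem execL_tempOnly {l : List Instr} (h : ∀ i ∈ l, tempOnly i = true) (c : Conf) :
    (∀ r, 16 ≤ r → (execL l c).reg r = c.reg r) ∧ (execL l c).mem = c.mem := by
  induction l generalizing c with
  | nil => simp
  | cons i l ih =>
    obtain ⟨h1, h2⟩ := ih (fun j hj => h j (List.mem_cons_of_mem _ hj)) (exec i c)
    obtain ⟨h3, h4⟩ := exec_tempOnly (h i List.mem_cons_self) c
    refine ⟨fun r hr => ?_, ?_⟩
    · rw [execL_cons, h1 r hr, h3 r hr]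
    · rw [execL_cons, h2, h4]

/-- Clear the scratch registers. -/
def zeroT : List Instr :=
  [.const 0 0, .const 1 0, .const 2 0, .const 3 0, .const 4 0, .const 5 0, .const 6 0, .const 7 0,
   .const 8 0, .const 9 0, .const 10 0, .const 11 0, .const 12 0, .const 13 0, .const 14 0,
   .const 15 0]

theorem zeroT_reg (c : Conf) (r : ℕ) :
    (execL zeroT c).reg r = if r < 16 then 0 else c.reg r := by
  simp only [zeroT, execL_cons, execL_nil, exec]
  by_cases h : r < 16
  · rw [if_pos h]
    interval_cases r <;> simp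
  · rw [if_neg h]
    simp only [Function.update_apply]
    repeat rw [if_neg (by omega)]

theorem zeroT_mem (c : Conf) : (execL zeroT c).mem = c.mem := by
  simp [zeroT, exec]

/-- The instruction list keeps all constants small. -/
theorem smallConst_zero (d : ℕ) : smallConst (.const d 0) := by
  intro d' z h
  injection h with _ h2
  subst h2
  simp [bl]

theorem smallConst_of_not_const {i : Instr} (h : ∀ d z, i ≠ .const d z) : smallConst i :=
  fun d z e => absurd e (h d z)

/-- A decidable version of `smallConst`. -/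
def smallB : Instr → Bool
  | .const _ z => decide (z = 0 ∨ z = 1)
  | _ => true

theorem smallB_spec {i : Instr} (h : smallB i = true) : smallConst i := by
  intro d z e
  subst e
  simp only [smallB, decide_eq_true_eq] at h
  rcases h with h | h <;> subst h <;> simp [bl]

/-! ### Fragments from straight line code -/

/-- A straight line block computing a function `op` of the value is a fragment. -/
theorem frag_det {P : List Instr} {S BW Hmax pc k : ℕ} {p : Prog} {l : List Instr} {op : Val → Val}
    (hc : CodeAt P pc l) (hpl : ∀ i ∈ l, plain i = true) (hsm : ∀ i ∈ l, smallB i = true)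
    (hlen : l.length ≤ 100) (hBW : 1 ≤ BW)
    (hsem : ∀ v, sem p S v = PMF.pure (op v))
    (h : ∀ c v, Good S BW c → Live c 16 v → hp c + 3 * l.length ≤ Hmax →
      Good S BW (execL l c) ∧ Live (execL l c) 16 (op v) ∧
      (∀ r, 24 ≤ r → r < k → (execL l c).reg r = c.reg r) ∧ (execL l c).reg 21 = c.reg 21 ∧
      (∀ a, a < hp c → (execL l c).mem a = c.mem a) ∧ hp c ≤ hp (execL l c) ∧
      hp (execL l c) ≤ hp c + 3 * l.length) :
    Frag P S BW Hmax pc k l.length l.length p := by
  intro c v hpc hg hl hH
  subst hpc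
  have hrun := run_plain hc hpl
  obtain ⟨h1, h2, h3, h4, h5, h6, h7⟩ := h c v hg hl hH
  rw [hrun, hsem, PMF.pure_map, h2.dec_eq]
  refine ⟨fun c' hc' => ?_, rfl⟩
  rw [PMF.support_pure, Set.mem_singleton_iff] at hc'
  subst hc'
  exact ⟨execL_pc hpl c, h1, ⟨_, h2⟩, h3, h4, h5, h6, h7,
    execL_cost (fun i hi => smallB_spec (hsm i hi)) hlen hBW hg.bits⟩

end Vale.Agent.Lib.P328.Ram
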