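import Vale.Agent.Lib.P328.Ram.Ops3

/-!
# P328: sequencing of code fragments
-/

namespace Vale.Agent.Lib.P328.Ram

open Vale.Agent.Lib.P328.Bit (Val Prog sem time wid clamp arith)

theorem bind_congr_support {α β : Type} (μ : PMF α) (f g : α → PMF β)
    (h : ∀ a ∈ μ.support, f a = g a) : μ.bind f = μ.bind g := by
  ext b
  simp only [PMF.bind_apply]
  refine tsum_congr fun a => ?_
  by_cases ha : μ a = 0
  · simp [ha]
  · rw [h a ((PMF.mem_support_iff μ a).2 ha)]

theorem map_bind_eq {α β γ : Type} (μ : PMF α) (f : α → PMF β) (g : β → γ) :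
    (μ.bind f).map g = μ.bind fun a => (f a).map g := by
  simp only [PMF.map, PMF.bind_bind]

theorem After.mono {S BW k k' τ pc : ℕ} {c c' : Conf} (h : After S BW k' τ pc c c') (hk : k ≤ k') :
    After S BW k τ pc c c' :=
  ⟨h.pc, h.good, h.live, fun r h1 h2 => h.saved r h1 (by omega), h.nilp, h.heap, h.hp_le, h.hp_le', h.cost⟩

theorem After.trans {S BW k τ1 τ2 pc1 pc2 : ℕ} {c c1 c2 : Conf} (h1 : After S BW k τ1 pc1 c c1)
    (h2 : After S BW k τ2 pc2 c1 c2) : After S BW k (τ1 + τ2) pc2 c c2 := by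
  refine ⟨h2.pc, h2.good, h2.live, fun r a b => ?_, ?_, fun a ha => ?_, h1.hp_le.trans h2.hp_le, ?_, ?_⟩
  · rw [h2.saved r a b, h1.saved r a b]
  · rw [h2.nilp, h1.nilp]
  · rw [h2.heap a (lt_of_lt_of_le ha h1.hp_le), h1.heap a ha]
  · have := h1.hp_le'
    have := h2.hp_le'
    omega
  · have := h1.cost
    have := h2.cost
    rw [Nat.add_mul]
    omega

theorem After.of_plain {S BW k : ℕ} {l : List Instr} {c c' : Conf} (hl : ∀ i ∈ l, plain i = true)
    (hs : ∀ i ∈ l, smallB i = true) (hn : l.length ≤ 100) (hBW : 1 ≤ BW) (hb : Bits c BW)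
    (hc' : c' = execL l c) (good : Good S BW c') (live : ∃ v', Live c' 16 v')
    (saved : ∀ r, 24 ≤ r → r < k → c'.reg r = c.reg r) (nilp : c'.reg 21 = c.reg 21)
    (heap : ∀ a, a < hp c → c'.mem a = c.mem a) (hp_le : hp c ≤ hp c')
    (hp_le' : hp c' ≤ hp c + 3 * l.length) : After S BW k l.length (c.pc + l.length) c c' := by
  subst hc'
  exact ⟨execL_pc hl c, good, live, saved, nilp, heap, hp_le, hp_le',
    execL_cost (fun i hi => smallB_spec (hs i hi)) hn hBW hb⟩

theorem Good.of_regs {S BW : ℕ} {c c' : Conf} (hg : Good S BW c)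
    (hr : ∀ r, r < 16 ∨ r = 17 ∨ r = 18 ∨ r = 19 ∨ r = 21 ∨ r = 22 ∨ r = 23 → c'.reg r = c.reg r)
    (hm : c'.mem = c.mem) (hb : ∀ r, bl (c'.reg r) ≤ BW) : Good S BW c' := by
  have h21 := hr 21 (by simp)
  have h17 := hr 17 (by simp)
  have hn := hg.nilp
  refine ⟨fun r h => ?_, ?_, ?_, ?_, ⟨?_, ?_, ?_⟩, ?_, ?_, ⟨hb, ?_⟩⟩
  · rw [hr r (Or.inl h)]
    exact hg.temps r h
  · rw [h17]
    exact hg.hp_nonneg
  · rw [hr 18 (by simp)]
    exact hg.sreg
  · rw [hr 19 (by simp)]
    exact hg.one
  · rw [h21]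
    exact hn.1
  · unfold hp
    rw [h21, h17]
    exact hn.2.1
  · rw [h21, hm]
    exact hn.2.2
  · rw [hr 22 (by simp)]
    exact hg.pw
  · rw [hr 23 (by simp)]
    exact hg.npw
  · rw [hm]
    exact hg.bits.2

theorem Live.transfer {c c' : Conf} {r r' : ℕ} {v : Val} (h : Live c r v) (hr : c'.reg r' = c.reg r)
    (hh : hp c ≤ hp c') (hm : ∀ a, a < hp c → c'.mem a = c.mem a) : Live c' r' v := by
  refine ⟨by rw [hr]; exact h.1, by rw [hr]; exact h.2.1.trans hh, ?_⟩
  rw [hr]
  exact h.2.2.frame fun a ha => hm a (lt_of_lt_of_le ha h.2.1)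

/-! ### Moves -/

/-- A list of moves between registers outside the fixed ones. -/
theorem good_mov {S BW : ℕ} {c : Conf} {d s : ℕ} (hd : d = 16 ∨ 24 ≤ d) (hg : Good S BW c) :
    Good S BW (exec (.mov d s) c) := by
  refine hg.of_regs (fun r hr => ?_) rfl (fun r => ?_)
  · rw [exec_mov_reg, if_neg]
    omega
  · rw [exec_mov_reg]
    split_ifs
    · exact hg.bits.1 s
    · exact hg.bits.1 r

theorem hp_mov {c : Conf} {d s : ℕ} (hd : d = 16 ∨ 24 ≤ d) : hp (exec (.mov d s) c) = hp c := by
  unfold hp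
  rw [exec_mov_reg, if_neg (by omega)]

/-! ### A new pair -/

/-- Put a new pair node on the heap, the pointers in registers `u` and `16`. -/
def allocPair (u : ℕ) : List Instr :=
  [.add 0 19 19, .store 17 0, .add 0 17 19, .store 0 u, .add 0 0 19, .store 0 16, .mov 16 17, .add 17 0 19]

theorem allocPair_spec (c : Conf) (u : ℕ) (hu : 24 ≤ u) (h19 : c.reg 19 = 1) (h0 : 0 ≤ c.reg 17) :
    (execL (allocPair u) c).reg 16 = c.reg 17 ∧ (execL (allocPair u) c).reg 17 = c.reg 17 + 3 ∧
    (∀ r, r ≠ 0 → r ≠ 16 → r ≠ 17 → (execL (allocPair u) c).reg r = c.reg r) ∧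
    (execL (allocPair u) c).mem =
      Function.update (Function.update (Function.update c.mem (c.reg 17).toNat 2) ((c.reg 17).toNat + 1) (c.reg u))
        ((c.reg 17).toNat + 2) (c.reg 16) := by
  have e1 : (c.reg 17 + 1).toNat = (c.reg 17).toNat + 1 := by omega
  have e2 : (c.reg 17 + 1 + 1).toNat = (c.reg 17).toNat + 2 := by omega
  have hu0 : u ≠ 0 := by omega
  refine ⟨?_, ?_, ?_, ?_⟩
  · simp [allocPair, exec, Function.update_apply]
  · simp [allocPair, exec, Function.update_apply, h19]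
    ring
  · intro r hr0 hr16 hr17
    simp [allocPair, exec, Function.update_apply, hr0, hr16, hr17]
  · simp [allocPair, exec, Function.update_apply, h19, e1, e2, hu0]

/-- The block that allocates the pair. -/
theorem alloc_pair {S BW Hmax : ℕ} (hpar : Par S BW Hmax) {c : Conf} {u : ℕ} (hu : 24 ≤ u) {a b : Val}
    (hg : Good S BW c) (hb3 : 3 ≤ BW) (hla : Live c u a) (hlb : Live c 16 b) (hH : hp c + 3 ≤ Hmax) :
    Good S BW (execL (allocPair u ++ zeroT) c) ∧ Live (execL (allocPair u ++ zeroT) c) 16 (.pair a b) ∧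
      (∀ r, 17 < r → (execL (allocPair u ++ zeroT) c).reg r = c.reg r) ∧
      (∀ a, a < hp c → (execL (allocPair u ++ zeroT) c).mem a = c.mem a) ∧
      hp (execL (allocPair u ++ zeroT) c) = hp c + 3 := by
  have h19 := hg.one
  have hh := hg.hp_nonneg
  obtain ⟨a1, a2, a3, a4⟩ := allocPair_spec c u hu h19 hh
  rw [execL_append]
  set c2 := execL (allocPair u) c with hc2
  set c' := execL zeroT c2 with hc'
  have hreg : ∀ r, c'.reg r = if r < 16 then 0 else c2.reg r := fun r => zeroT_reg c2 r
  have hm' : c'.mem = c2.mem := zeroT_mem c2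
  have r16 : c'.reg 16 = c.reg 17 := by
    rw [hreg]
    simp [a1]
  have r17 : c'.reg 17 = c.reg 17 + 3 := by
    rw [hreg]
    simp [a2]
  have rr : ∀ r, 17 < r → c'.reg r = c.reg r := by
    intro r hr
    rw [hreg, if_neg (by omega), a3 r (by omega) (by omega) (by omega)]
  have hp0 : (c.reg 17 : ℤ) = (hp c : ℤ) := by
    unfold hp
    omega
  have ep : (c.reg 17).toNat = hp c := rfl
  have hpc' : hp c' = hp c + 3 := by
    unfold hp at *
    rw [r17]
    omega
  have mfr : ∀ a, a < hp c → c'.mem a = c.mem a := by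
    intro a ha
    rw [hm', a4, ep, Function.update_of_ne (by omega), Function.update_of_ne (by omega),
      Function.update_of_ne (by omega)]
  have hs1 : Nat.size (hp c) ≤ BW := (Nat.size_le_size (by omega)).trans hpar.sH
  have hs2 : Nat.size (hp c + 3) ≤ BW := (Nat.size_le_size hH).trans hpar.sH
  have hbits : Bits c' BW := by
    constructor
    · intro r
      by_cases h : r < 16
      · rw [hreg, if_pos h]
        simp [bl]
      · by_cases h16 : r = 16
        · subst h16
          rw [r16, hp0, bl_natCast]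
          exact hs1
        · by_cases h17' : r = 17
          · subst h17'
            rw [r17, hp0, show ((hp c : ℤ) + 3) = ((hp c + 3 : ℕ) : ℤ) by push_cast; ring, bl_natCast]
            exact hs2
          · rw [rr r (by omega)]
            exact hg.bits.1 r
    · intro a
      rw [hm', a4, ep, Function.update_apply, Function.update_apply, Function.update_apply]
      split_ifs
      · exact hg.bits.1 16
      · exact hg.bits.1 u
      · have : bl 2 = 2 := by simp [bl]; decide
        omega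
      · exact hg.bits.2 a
  have hpos : 0 ≤ c'.reg 17 := by rw [r17]; omega
  have hnil : Live c' 21 .nil := hg.nilp.transfer (rr 21 (by omega)) (by omega) mfr
  refine ⟨⟨fun r hr => ?_, hpos, ?_, ?_, hnil, ?_, ?_, hbits⟩, ⟨?_, ?_, ?_⟩, rr, mfr, hpc'⟩
  · rw [hreg, if_pos hr]
  · rw [rr 18 (by omega)]
    exact hg.sreg
  · rw [rr 19 (by omega)]
    exact hg.one
  · rw [rr 22 (by omega)]
    exact hg.pw
  · rw [rr 23 (by omega)]
    exact hg.npw
  · rw [r16]
    exact hh
  · rw [r16, hpc', ep]
  · rw [r16, ep]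
    have m0 : c'.mem (hp c) = 2 := by
      rw [hm', a4, ep, Function.update_of_ne (by omega), Function.update_of_ne (by omega), Function.update_self]
    have m1 : c'.mem (hp c + 1) = c.reg u := by
      rw [hm', a4, ep, Function.update_of_ne (by omega), Function.update_self]
    have m2 : c'.mem (hp c + 2) = c.reg 16 := by
      rw [hm', a4, ep, Function.update_self]
    refine .pair (by rw [m0]; norm_num) (by rw [m1]; exact hla.1) (by rw [m2]; exact hlb.1) ?_ ?_ ?_ ?_
    · rw [m1]
      have := hla.2.1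
      omega
    · rw [m2]
      have := hlb.2.1
      omega
    · rw [m1]
      exact hla.2.2.frame fun a ha => mfr a (by have := hla.2.1; omega)
    · rw [m2]
      exact hlb.2.2.frame fun a ha => mfr a (by have := hlb.2.1; omega)

/-! ### Composition and pairing -/

theorem frag_comp {P : List Instr} {S BW Hmax pc k τf τg lf lg : ℕ} {f g : Prog}
    (hf : Frag P S BW Hmax pc k τf lf f) (hg : Frag P S BW Hmax (pc + lf) k τg lg g) :
    Frag P S BW Hmax pc k (τf + τg) (lf + lg) (.comp f g) := by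
  intro c v hpc hgd hl hH
  obtain ⟨h1, h2⟩ := hf c v hpc hgd hl (by omega)
  have hrun := run_add P τf τg c
  have hsupp : ∀ c1 ∈ (run P τf c).support, ∀ v1, Live c1 16 v1 →
      (∀ c' ∈ (run P τg c1).support, After S BW k τg (pc + lf + lg) c1 c') ∧
        (run P τg c1).map dec = sem g S v1 := by
    intro c1 hc1 v1 hv1
    have ha := h1 c1 hc1
    exact hg c1 v1 ha.pc ha.good hv1 (by have := ha.hp_le'; omega)
  rw [hrun]
  constructor
  · intro c' hc'
    rw [PMF.mem_support_bind_iff] at hc'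
    obtain ⟨c1, hc1, hc'⟩ := hc'
    have ha := h1 c1 hc1
    obtain ⟨v1, hv1⟩ := ha.live
    have := ((hsupp c1 hc1 v1 hv1).1 c' hc')
    rw [show pc + (lf + lg) = pc + lf + lg by omega]
    exact ha.trans this
  · rw [map_bind_eq]
    have : (run P τf c).bind (fun a => (run P τg a).map dec) = (run P τf c).bind (fun a => sem g S (dec a)) := by
      apply bind_congr_support
      intro c1 hc1
      obtain ⟨v1, hv1⟩ := (h1 c1 hc1).live
      rw [hv1.dec_eq]
      exact (hsupp c1 hc1 v1 hv1).2
    rw [this]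
    simp only [sem]
    rw [← h2, PMF.bind_map]
    rfl

end Vale.Agent.Lib.P328.Ram
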